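/-
S0351 package FS, auxiliary analysis (helper3): evaluation facts for power series over `𝒪_C`:
arithmetic of `evMv`, partial evaluation (Fubini), the analytic characterisation of the order of a
series, the identity theorem, one-coordinate Taylor expansion.
-/
import Crest.Agent.LT.Eval

set_option autoImplicit false
set_option linter.unusedSectionVars false
set_option linter.unusedVariables false

open Crest.LubinTate

namespace Crest.Agent.LT

namespace FSA

noncomputable section

variable {C : Type} [NontriviallyNormedField C] [IsUltrametricDist C] [CompleteSpace C]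

section Basic

variable {σ : Type} [Fintype σ]

theorem monoPow_eq (d : σ →₀ ℕ) (a : σ → C) :
    d.prod (fun i e => a i ^ e) = ∏ i, a i ^ d i :=
  Finsupp.prod_fintype _ _ (fun _ => pow_zero _)

/-- Value at the origin. -/
theorem evMv_zero_pt (f : MvPowerSeries σ (OC C)) :
    evMv f (0 : σ → C) = ((MvPowerSeries.constantCoeff f : OC C) : C) := by
  classical
  unfold evMv
  rw [tsum_eq_single (0 : σ →₀ ℕ)]
  · simp [cf]
  · intro d hd
    obtain ⟨i, hi⟩ : ∃ i, d i ≠ 0 := by
      by_contra h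
      push Not at h
      exact hd (Finsupp.ext h)
    rw [monoPow_eq]
    rw [Finset.prod_eq_zero (Finset.mem_univ i) (by simp [hi]), mul_zero]

/-- `‖a^d‖ ≤ r^|d|` if all `‖a i‖ ≤ r`. -/
theorem norm_prod_pow_le (a : σ → C) (r : ℝ) (hr0 : 0 ≤ r) (ha : ∀ i, ‖a i‖ ≤ r) (d : σ →₀ ℕ) :
    ‖∏ i, a i ^ d i‖ ≤ r ^ d.degree := by
  rw [norm_prod, Finsupp.degree_eq_sum, ← Finset.prod_pow_eq_pow_sum]
  exact Finset.prod_le_prod (fun _ _ => norm_nonneg _) (fun i _ => by
    rw [norm_pow]; exact pow_le_pow_left₀ (norm_nonneg _) (ha i) _)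

theorem norm_lt_one_of_pi {a : σ → C} (ha : ∀ i, ‖a i‖ < 1) : ‖a‖ < 1 := by
  classical
  by_cases h : Nonempty σ
  · exact (pi_norm_lt_iff one_pos).2 ha
  · have : IsEmpty σ := not_nonempty_iff.1 h
    rw [Subsingleton.elim a 0, norm_zero]; exact one_pos

end Basic

/-! ### Partial evaluation -/

section Pev

variable {σ τ : Type} [Fintype σ] [Fintype τ]

/-- The coefficient of `b^e` in `S(y, b)`, a series in `y`. -/
def coeffSeries (S : MvPowerSeries (σ ⊕ τ) (OC C)) (e : τ →₀ ℕ) : MvPowerSeries σ (OC C) :=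
  fun d => MvPowerSeries.coeff (Finsupp.sumFinsuppEquivProdFinsupp.symm (d, e)) S

/-- Partial evaluation `S(a, ·)`, a series in the second group of variables. -/
def pev (a : σ → C) (ha : ∀ i, ‖a i‖ < 1) (S : MvPowerSeries (σ ⊕ τ) (OC C)) :
    MvPowerSeries τ (OC C) :=
  fun e => evHom a ha (coeffSeries S e)

theorem cf_pev (a : σ → C) (ha : ∀ i, ‖a i‖ < 1) (S : MvPowerSeries (σ ⊕ τ) (OC C)) (e : τ →₀ ℕ) :
    cf (pev a ha S) e = evMv (coeffSeries S e) a := by
  show ((evHom a ha (coeffSeries S e) : OC C) : C) = _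
  rw [coe_evHom]

theorem evMv_pev (a : σ → C) (ha : ∀ i, ‖a i‖ < 1) (b : τ → C) (hb : ∀ i, ‖b i‖ < 1)
    (S : MvPowerSeries (σ ⊕ τ) (OC C)) :
    evMv (pev a ha S) b = evMv S (Sum.elim a b) := by
  classical
  have hab : ∀ i, ‖Sum.elim a b i‖ < 1 := by
    rintro (i | i)
    · exact ha i
    · exact hb i
  have hsum := summable_evMv S (Sum.elim a b) hab
  -- reindex over pairs
  let E : (τ →₀ ℕ) × (σ →₀ ℕ) ≃ ((σ ⊕ τ) →₀ ℕ) :=
    (Equiv.prodComm _ _).trans Finsupp.sumFinsuppEquivProdFinsupp.symm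
  have hE : ∀ e d, E (e, d) = Finsupp.sumFinsuppEquivProdFinsupp.symm (d, e) := fun _ _ => rfl
  have hterm : ∀ e d, cf S (E (e, d)) * (E (e, d)).prod (fun i x => Sum.elim a b i ^ x) =
      cf (coeffSeries S e) d * d.prod (fun i x => a i ^ x) * e.prod (fun i x => b i ^ x) := by
    intro e d
    have h1 : cf S (E (e, d)) = cf (coeffSeries S e) d := rfl
    rw [monoPow_eq, monoPow_eq, monoPow_eq, Fintype.prod_sum_type, mul_assoc, h1]
    simp only [hE, Sum.elim_inl, Sum.elim_inr, Finsupp.sumFinsuppEquivProdFinsupp_symm_inl,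
      Finsupp.sumFinsuppEquivProdFinsupp_symm_inr]
  have hsum' : Summable (fun q : (τ →₀ ℕ) × (σ →₀ ℕ) =>
      cf S (E q) * (E q).prod (fun i x => Sum.elim a b i ^ x)) :=
    (E.summable_iff (f := fun d => cf S d * d.prod (fun i x => Sum.elim a b i ^ x))).2 hsum
  unfold evMv
  rw [← E.tsum_eq, hsum'.tsum_prod' (fun e => hsum'.comp_injective (Prod.mk_right_injective e))]
  refine tsum_congr fun e => ?_
  rw [cf_pev]
  unfold evMv
  rw [← tsum_mul_right]
  exact tsum_congr fun d => (hterm e d).symm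

end Pev

/-! ### Polynomials, order, identity theorem -/

section Order

variable {σ : Type} [Fintype σ]

instance OC_infinite : Infinite (OC C) := by
  obtain ⟨x, hx0, hx1⟩ := NormedField.exists_norm_lt C one_pos
  have hnorm : ‖x‖ < 1 := hx1
  let f : ℕ → OC C := fun n => ⟨x ^ n, by
    show ‖x ^ n‖ ≤ 1
    rw [norm_pow]; exact pow_le_one₀ hx0.le hnorm.le⟩
  refine Infinite.of_injective f ?_
  intro m n hmn
  have h1 : x ^ m = x ^ n := congrArg Subtype.val hmn
  have h2 : ‖x‖ ^ m = ‖x‖ ^ n := by rw [← norm_pow, ← norm_pow, h1]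
  exact pow_right_injective₀ hx0 hnorm.ne h2

instance OC_isDomain : IsDomain (OC C) := inferInstance

theorem evMv_coe (Q : MvPolynomial σ (OC C)) (a : σ → C) :
    evMv (Q : MvPowerSeries σ (OC C)) a = MvPolynomial.eval₂ (OC C).subtype a Q := by
  classical
  unfold evMv
  rw [tsum_eq_sum (s := Q.support)]
  · rw [MvPolynomial.eval₂_eq']
    refine Finset.sum_congr rfl fun d _ => ?_
    rw [monoPow_eq]
    simp [cf]
  · intro d hd
    have : MvPolynomial.coeff d Q = 0 := by simpa using hd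
    simp [cf, this]

/-- **Analytic characterisation of the order**: a bound `‖S(y)‖ ≤ K ‖y‖^N` on the open ball forces
all coefficients of degree `< N` to vanish. -/
theorem coeff_eq_zero_of_bound (S : MvPowerSeries σ (OC C)) (N : ℕ) (K : ℝ)
    (h : ∀ y : σ → C, (∀ i, ‖y i‖ < 1) → ‖evMv S y‖ ≤ K * ‖y‖ ^ N) :
    ∀ d : σ →₀ ℕ, d.degree < N → MvPowerSeries.coeff d S = 0 := by
  classical
  have key : ∀ k : ℕ, ∀ d : σ →₀ ℕ, d.degree = k → k < N → MvPowerSeries.coeff d S = 0 := by
    intro k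
    induction k using Nat.strong_induction_on with
    | _ k ih =>
    intro d hd hkN
    by_contra hne
    have hlow : ∀ d' : σ →₀ ℕ, d'.degree < k → MvPowerSeries.coeff d' S = 0 :=
      fun d' hd' => ih _ hd' d' rfl (hd'.trans hkN)
    -- the homogeneous part of degree `k`
    let Q : MvPolynomial σ (OC C) := MvPowerSeries.truncTotal (k + 1) S
    have hQc : ∀ d' : σ →₀ ℕ, MvPolynomial.coeff d' Q =
        if d'.degree = k then MvPowerSeries.coeff d' S else 0 := by
      intro d'
      rw [MvPowerSeries.coeff_truncTotal_eq_ite]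
      by_cases h1 : d'.degree < k
      · rw [if_pos (by omega), if_neg (by omega), hlow d' h1]
      · by_cases h2 : d'.degree = k
        · rw [if_pos (by omega), if_pos h2]
        · rw [if_neg (by omega), if_neg h2]
    have hQ0 : Q ≠ 0 := by
      intro h0
      apply hne
      have := hQc d
      rw [h0, if_pos hd] at this
      simpa using this.symm
    obtain ⟨w, hw⟩ : ∃ w : σ → OC C, MvPolynomial.eval w Q ≠ 0 := by
      by_contra hcon
      push Not at hcon
      exact hQ0 (MvPolynomial.funext (fun x => by rw [hcon x, map_zero]))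
    set v : OC C := MvPolynomial.eval w Q with hv
    have hvC : (v : C) ≠ 0 := by simpa using hw
    -- remainder
    let R : MvPowerSeries σ (OC C) := S - (Q : MvPowerSeries σ (OC C))
    have hRc : ∀ d' : σ →₀ ℕ, d'.degree < k + 1 → MvPowerSeries.coeff d' R = 0 := by
      intro d' hd'
      simp only [R, map_sub, MvPolynomial.coeff_coe, Q]
      rw [MvPowerSeries.coeff_truncTotal _ hd', sub_self]
    -- values at `t w`
    have hval : ∀ t : C, ‖t‖ < 1 → ∀ (ht0 : t ≠ 0), ‖v‖ ≤ (|K| + 1) * ‖t‖ := by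
      intro t ht1 ht0
      have ht0' : 0 ≤ ‖t‖ := norm_nonneg _
      let y : σ → C := fun i => t * ((w i : OC C) : C)
      have hy : ∀ i, ‖y i‖ ≤ ‖t‖ := by
        intro i
        simp only [y, norm_mul]
        calc ‖t‖ * ‖((w i : OC C) : C)‖ ≤ ‖t‖ * 1 := by
              gcongr; exact (w i).2
          _ = ‖t‖ := mul_one _
      have hy1 : ∀ i, ‖y i‖ < 1 := fun i => (hy i).trans_lt ht1
      have hyn : ‖y‖ ≤ ‖t‖ := (pi_norm_le_iff_of_nonneg ht0').2 hy
      have hS : S = (Q : MvPowerSeries σ (OC C)) + R := by simp [R]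
      have hsplit : evMv S y = evMv (Q : MvPowerSeries σ (OC C)) y + evMv R y := by
        conv_lhs => rw [hS]
        exact evMv_add _ _ y hy1
      have hRb : ‖evMv R y‖ ≤ ‖t‖ ^ (k + 1) :=
        norm_evMv_le_of_order R (k + 1) hRc y ‖t‖ ht1 ht0' hy
      have hQval : evMv (Q : MvPowerSeries σ (OC C)) y = t ^ k * (v : C) := by
        rw [evMv_coe, MvPolynomial.eval₂_eq', hv, MvPolynomial.eval_eq']
        push_cast
        rw [Finset.mul_sum]
        refine Finset.sum_congr rfl fun d' hd' => ?_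
        have hdk : d'.degree = k := by
          by_contra hne'
          have := hQc d'
          rw [if_neg hne'] at this
          exact (MvPolynomial.mem_support_iff.1 hd') this
        simp only [y, mul_pow, Finset.prod_mul_distrib, Finset.prod_pow_eq_pow_sum]
        rw [← Finsupp.degree_eq_sum, hdk]
        simp
        ring
      have hSb : ‖evMv S y‖ ≤ |K| * ‖t‖ ^ (k + 1) := by
        calc ‖evMv S y‖ ≤ K * ‖y‖ ^ N := h y hy1
          _ ≤ |K| * ‖y‖ ^ N := by gcongr; exact le_abs_self K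
          _ ≤ |K| * ‖t‖ ^ N := by gcongr
          _ ≤ |K| * ‖t‖ ^ (k + 1) := by
              gcongr ?_ * ?_
              exact pow_le_pow_of_le_one ht0' ht1.le hkN
      have h1 : (t ^ k * (v : C)) = evMv S y - evMv R y := by
        rw [hsplit, hQval]; ring
      have h2 : ‖t‖ ^ k * ‖(v : C)‖ ≤ (|K| + 1) * ‖t‖ ^ (k + 1) := by
        calc ‖t‖ ^ k * ‖(v : C)‖ = ‖t ^ k * (v : C)‖ := by rw [norm_mul, norm_pow]
          _ = ‖evMv S y - evMv R y‖ := by rw [h1]
          _ ≤ ‖evMv S y‖ + ‖evMv R y‖ := norm_sub_le _ _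
          _ ≤ |K| * ‖t‖ ^ (k + 1) + ‖t‖ ^ (k + 1) := add_le_add hSb hRb
          _ = (|K| + 1) * ‖t‖ ^ (k + 1) := by ring
      have htpos : 0 < ‖t‖ := norm_pos_iff.2 ht0
      have h3 : ‖t‖ ^ k * ‖(v : C)‖ ≤ ‖t‖ ^ k * ((|K| + 1) * ‖t‖) := by
        calc _ ≤ _ := h2
          _ = _ := by ring
      exact le_of_mul_le_mul_left h3 (pow_pos htpos k)
    -- contradiction by letting `t → 0`
    have hvpos : 0 < ‖(v : C)‖ := norm_pos_iff.2 hvC
    have hKpos : 0 < |K| + 1 := by positivity
    obtain ⟨t, ht0, htlt⟩ := NormedField.exists_norm_lt C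
      (show 0 < min 1 (‖(v : C)‖ / (|K| + 1)) from lt_min one_pos (div_pos hvpos hKpos))
    have ht1 : ‖t‖ < 1 := htlt.trans_le (min_le_left _ _)
    have ht2 : ‖t‖ < ‖(v : C)‖ / (|K| + 1) := htlt.trans_le (min_le_right _ _)
    have hb := hval t ht1 (norm_pos_iff.1 ht0)
    rw [lt_div_iff₀ hKpos] at ht2
    have : ‖(v : C)‖ ≤ (|K| + 1) * ‖t‖ := hb
    linarith [mul_comm ‖t‖ (|K| + 1)]
  exact fun d hd => key _ d rfl hd

/-- **Identity theorem.** A series vanishing on the open ball is zero. -/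
theorem eq_zero_of_forall_ball (S : MvPowerSeries σ (OC C))
    (h : ∀ y : σ → C, (∀ i, ‖y i‖ < 1) → evMv S y = 0) : S = 0 := by
  refine MvPowerSeries.ext fun d => ?_
  rw [map_zero]
  refine coeff_eq_zero_of_bound S (d.degree + 1) 0 ?_ d (Nat.lt_succ_self _)
  intro y hy
  simp [h y hy]

end Order

/-! ### One-coordinate Taylor expansion -/

section Taylor

variable {σ : Type} [Fintype σ] [DecidableEq σ]

theorem norm_natCast_mul_le (n : ℕ) (z : C) : ‖(n : C) * z‖ ≤ ‖z‖ := by
  rw [norm_mul]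
  calc ‖(n : C)‖ * ‖z‖ ≤ 1 * ‖z‖ := by
        gcongr; exact IsUltrametricDist.norm_natCast_le_one C n
    _ = ‖z‖ := one_mul _

theorem norm_add_pow_sub_le (x w : C) (hx : ‖x‖ ≤ 1) (hw : ‖w‖ ≤ 1) (n : ℕ) :
    ‖(x + w) ^ n - x ^ n - (n : C) * x ^ (n - 1) * w‖ ≤ ‖w‖ ^ 2 := by
  have hxw : ‖x + w‖ ≤ 1 :=
    (IsUltrametricDist.norm_add_le_max x w).trans (max_le hx hw)
  induction n with
  | zero => simp
  | succ n ih =>
    have hnx : (n : C) * x ^ (n - 1) * x = (n : C) * x ^ n := by
      rcases n with _ | n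
      · simp
      · simp [pow_succ, mul_assoc]
    have hid : (x + w) ^ (n + 1) - x ^ (n + 1) - ((n + 1 : ℕ) : C) * x ^ (n + 1 - 1) * w =
        (x + w) * ((x + w) ^ n - x ^ n - (n : C) * x ^ (n - 1) * w) +
          (n : C) * (x ^ (n - 1) * w ^ 2) := by
      have : (x + w) * ((x + w) ^ n - x ^ n - (n : C) * x ^ (n - 1) * w) +
          (n : C) * (x ^ (n - 1) * w ^ 2) =
          (x + w) ^ (n + 1) - x ^ (n + 1) - w * x ^ n - ((n : C) * x ^ (n - 1) * x) * w := by
        ring
      rw [this, hnx]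
      simp only [Nat.add_sub_cancel]
      push_cast
      ring
    rw [hid]
    refine (IsUltrametricDist.norm_add_le_max _ _).trans (max_le ?_ ?_)
    · rw [norm_mul]
      calc ‖x + w‖ * _ ≤ 1 * ‖w‖ ^ 2 := by
            exact mul_le_mul hxw ih (norm_nonneg _) zero_le_one
        _ = ‖w‖ ^ 2 := one_mul _
    · refine (norm_natCast_mul_le n _).trans ?_
      rw [norm_mul, norm_pow, norm_pow]
      calc ‖x‖ ^ (n - 1) * ‖w‖ ^ 2 ≤ 1 * ‖w‖ ^ 2 := by
            gcongr; exact pow_le_one₀ (norm_nonneg _) hx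
        _ = ‖w‖ ^ 2 := one_mul _

/-- One-coordinate Taylor expansion of a series over `𝒪_C`. -/
theorem norm_evMv_update_sub_le (F : MvPowerSeries σ (OC C)) (a : σ → C) (ha : ∀ i, ‖a i‖ < 1)
    (j : σ) (w : C) (hw : ‖w‖ < 1) :
    ‖evMv F (Function.update a j (a j + w)) - evMv F a -
        evMv (MvPowerSeries.pderiv (OC C) j F) a * w‖ ≤ ‖w‖ ^ 2 := by
  have hxw : ‖a j + w‖ < 1 :=
    (IsUltrametricDist.norm_add_le_max _ _).trans_lt (max_lt (ha j) hw)
  have ha' : ∀ i, ‖Function.update a j (a j + w) i‖ < 1 := by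
    intro i
    by_cases hi : i = j
    · subst hi; simpa using hxw
    · simpa [Function.update_of_ne hi] using ha i
  set a' := Function.update a j (a j + w) with ha'def
  -- the reindexed derivative term
  let g : (σ →₀ ℕ) → (σ →₀ ℕ) := fun e => e + Finsupp.single j 1
  have hg : Function.Injective g := add_left_injective _
  let T₃ : (σ →₀ ℕ) → C := fun f => cf F f * ((f j : C) * ∏ i, a i ^ (f - Finsupp.single j 1 : σ →₀ ℕ) i) * w
  have hT₃0 : ∀ f, f ∉ Set.range g → T₃ f = 0 := by
    intro f hf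
    have hfj : f j = 0 := by
      by_contra hne
      apply hf
      refine ⟨f - Finsupp.single j 1, ?_⟩
      ext i
      by_cases hi : i = j
      · subst hi
        have : 1 ≤ f i := Nat.one_le_iff_ne_zero.2 hne
        simp [g]; omega
      · simp [g, Finsupp.single_apply, Ne.symm hi]
    simp [T₃, hfj]
  have hT₃g : ∀ e, T₃ (g e) = cf (MvPowerSeries.pderiv (OC C) j F) e *
      e.prod (fun i x => a i ^ x) * w := by
    intro e
    simp only [T₃, g, add_tsub_cancel_right, monoPow_eq]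
    have : cf (MvPowerSeries.pderiv (OC C) j F) e =
        cf F (e + Finsupp.single j 1) * ((e j : C) + 1) := by
      simp [cf, MvPowerSeries.coeff_pderiv]
    rw [this]
    simp
    left
    ring
  have hsum3 : Summable (T₃ ∘ g) := by
    have := (summable_evMv (MvPowerSeries.pderiv (OC C) j F) a ha).mul_right w
    refine this.congr fun e => ?_
    exact (hT₃g e).symm
  have hsum3' : Summable T₃ := (hg.summable_iff hT₃0).1 hsum3
  have htsum3 : ∑' f, T₃ f = evMv (MvPowerSeries.pderiv (OC C) j F) a * w := by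
    rw [← hg.tsum_eq (by
      intro f hf
      by_contra hne
      exact hf (hT₃0 f hne))]
    unfold evMv
    rw [← tsum_mul_right]
    exact tsum_congr hT₃g
  have hsum1 := summable_evMv F a' ha'
  have hsum2 := summable_evMv F a ha
  have hall : evMv F a' - evMv F a - evMv (MvPowerSeries.pderiv (OC C) j F) a * w =
      ∑' f, (cf F f * f.prod (fun i x => a' i ^ x) - cf F f * f.prod (fun i x => a i ^ x) - T₃ f) := by
    rw [(hsum1.sub hsum2).tsum_sub hsum3', hsum1.tsum_sub hsum2, htsum3]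
    rfl
  rw [hall]
  refine IsUltrametricDist.norm_tsum_le_of_forall_le_of_nonneg (by positivity) fun f => ?_
  -- term estimate
  let P : C := ∏ i ∈ Finset.univ.erase j, a i ^ f i
  have hP : ‖P‖ ≤ 1 := by
    rw [norm_prod]
    refine Finset.prod_le_one (fun _ _ => norm_nonneg _) fun i _ => ?_
    rw [norm_pow]; exact pow_le_one₀ (norm_nonneg _) (ha i).le
  have h1 : f.prod (fun i x => a' i ^ x) = (a j + w) ^ f j * P := by
    rw [monoPow_eq, ← Finset.mul_prod_erase _ _ (Finset.mem_univ j)]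
    congr 1
    · simp [ha'def]
    · refine Finset.prod_congr rfl fun i hi => ?_
      have : i ≠ j := (Finset.mem_erase.1 hi).1
      simp [ha'def, Function.update_of_ne this]
  have h2 : f.prod (fun i x => a i ^ x) = (a j) ^ f j * P := by
    rw [monoPow_eq, ← Finset.mul_prod_erase _ _ (Finset.mem_univ j)]
  have h3 : ∏ i, a i ^ (f - Finsupp.single j 1 : σ →₀ ℕ) i = (a j) ^ (f j - 1) * P := by
    rw [← Finset.mul_prod_erase _ _ (Finset.mem_univ j)]
    congr 1
    · simp
    · refine Finset.prod_congr rfl fun i hi => ?_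
      have : i ≠ j := (Finset.mem_erase.1 hi).1
      simp [Finsupp.single_apply, Ne.symm this]
  have hterm : cf F f * f.prod (fun i x => a' i ^ x) - cf F f * f.prod (fun i x => a i ^ x) - T₃ f =
      cf F f * P * ((a j + w) ^ f j - a j ^ f j - (f j : C) * a j ^ (f j - 1) * w) := by
    simp only [T₃]
    rw [h1, h2, h3]
    ring
  rw [hterm, norm_mul, norm_mul]
  calc ‖cf F f‖ * ‖P‖ * _ ≤ 1 * 1 * ‖w‖ ^ 2 := by
        gcongr
        · exact norm_cf_le F f
        · exact norm_add_pow_sub_le _ _ (ha j).le hw.le _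
    _ = ‖w‖ ^ 2 := by ring

end Taylor

end

end FSA

end Crest.Agent.LT
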