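/-
S0351 package FS, Case 2 core (helper56): a set of `P`-rational power series in characteristic `p`
closed under differences, multiplication by the variables, partial derivatives and `p`-th roots of
rational series, with all constant terms zero, is `{0}`.
-/
import Mathlib

set_option autoImplicit false
set_option linter.style.haveILetI false
set_option linter.unusedSimpArgs false

namespace Crest.Agent.LT

noncomputable section

namespace FSDeriv

open MvPowerSeries Finsupp

variable {σ R : Type*} [DecidableEq σ] [CommRing R]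

/-- Fermat in a domain of characteristic `p`. -/
theorem natCast_pow_sub_one (p : ℕ) [hp : Fact p.Prime] [IsDomain R] [CharP R p] (n : ℕ) (hn : ¬ p ∣ n) :
    (n : R) ^ (p - 1) = 1 := by
  have h1 : ((n : ZMod p)) ≠ 0 := by
    rwa [Ne, ZMod.natCast_eq_zero_iff]
  have h2 := ZMod.pow_card_sub_one_eq_one h1
  have h3 := congrArg (ZMod.castHom (dvd_refl p) R) h2
  simpa using h3

/-- Coefficient of `G^p`: only `p • e ≤ d` can contribute. -/
theorem coeff_pow_char [Finite σ] (p : ℕ) [hp : Fact p.Prime] [CharP R p] (G : MvPowerSeries σ R)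
    (d : σ →₀ ℕ) :
    MvPowerSeries.coeff d (G ^ p) =
      ∑ e ∈ Finset.Iic d, if p • e = d then MvPowerSeries.coeff e G ^ p else 0 := by
  classical
  haveI : CharP (MvPowerSeries σ R) p :=
    charP_of_injective_ringHom (f := (MvPowerSeries.C (σ := σ) (R := R)))
      (fun a b h => by simpa using congrArg (MvPowerSeries.coeff 0) h) p
  let T : MvPowerSeries σ R := ∑ e ∈ Finset.Iic d, monomial e (MvPowerSeries.coeff e G)
  let S : MvPowerSeries σ R := G - T
  have hcoeffT : ∀ e, e ≤ d → MvPowerSeries.coeff e T = MvPowerSeries.coeff e G := by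
    intro e he
    change MvPowerSeries.coeff e (∑ e ∈ Finset.Iic d, monomial e (MvPowerSeries.coeff e G)) = _
    rw [map_sum, Finset.sum_eq_single e]
    · simp [MvPowerSeries.coeff_monomial]
    · intro b _ hb
      rw [MvPowerSeries.coeff_monomial, if_neg (Ne.symm hb)]
    · intro h
      exact absurd (Finset.mem_Iic.2 he) h
  have hS : ∀ e, e ≤ d → MvPowerSeries.coeff e S = 0 := by
    intro e he
    change MvPowerSeries.coeff e (G - T) = 0
    rw [map_sub, hcoeffT e he, sub_self]
  have hG : G = T + S := by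
    change G = T + (G - T)
    ring
  have hp1 : p ≠ 0 := hp.out.ne_zero
  have hSp : MvPowerSeries.coeff d (S ^ p) = 0 := by
    obtain ⟨q, hq⟩ := Nat.exists_eq_succ_of_ne_zero hp1
    rw [hq, pow_succ', MvPowerSeries.coeff_mul]
    refine Finset.sum_eq_zero ?_
    rintro ⟨a, b⟩ hab
    rw [Finset.HasAntidiagonal.mem_antidiagonal] at hab
    have : a ≤ d := by
      rw [← hab]
      exact le_self_add
    simp only at *
    rw [hS a this, zero_mul]
  have hGpp : G ^ p = T ^ p + S ^ p := by
    conv_lhs => rw [hG]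
    exact add_pow_char _ _ _
  rw [hGpp, map_add, hSp, add_zero]
  change MvPowerSeries.coeff d ((∑ e ∈ Finset.Iic d, monomial e (MvPowerSeries.coeff e G)) ^ p) = _
  rw [sum_pow_char, map_sum]
  refine Finset.sum_congr rfl ?_
  intro e _
  rw [MvPowerSeries.monomial_pow, MvPowerSeries.coeff_monomial]
  by_cases h : p • e = d
  · rw [if_pos h.symm, if_pos h]
  · rw [if_neg (Ne.symm h), if_neg h]

variable [Finite σ]

section Core

variable (p h : ℕ) [hp : Fact p.Prime] [IsDomain R] [CharP R p]

/-- The main theorem. `S` is a set of `P`-rational series, `P = p^h`, closed under differences,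
multiplication by variables, partial derivatives, and `p`-th roots (among rational series), with
all constant terms zero. Then `S ⊆ {0}`.

Proof: otherwise, take `F ∈ S` and `e` with `F_e ≠ 0` of minimal degree `d`. `d ≠ 0`. Every
`e_i` is divisible by `p`, otherwise `∂_i F ∈ S` has a nonzero coefficient of degree `d-1`. The operators
`1 - (X_i∂_i)^(p-1)` project on exponents with `p ∣ e_i`, so the projection `g` of `F` lies in `S`, and
it is a `p`-th power `G^p`, `G` rational. `G ∈ S` has a nonzero coefficient of degree `d/p < d`. -/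
theorem eq_zero_of_forall (hh : 1 ≤ h) (S : Set (MvPowerSeries σ R))
    (hrat : ∀ f ∈ S, ∀ e, MvPowerSeries.coeff e f ^ p ^ h = MvPowerSeries.coeff e f)
    (hsub : ∀ f ∈ S, ∀ g ∈ S, f - g ∈ S)
    (hX : ∀ (i : σ), ∀ f ∈ S, (MvPowerSeries.X i : MvPowerSeries σ R) * f ∈ S)
    (hder : ∀ (i : σ), ∀ f ∈ S, (fun d : σ →₀ ℕ => ((d i + 1 : ℕ) : R) *
      MvPowerSeries.coeff (d + single i 1) f : MvPowerSeries σ R) ∈ S)
    (hroot : ∀ G : MvPowerSeries σ R, (∀ e, MvPowerSeries.coeff e G ^ p ^ h = MvPowerSeries.coeff e G) →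
      G ^ p ∈ S → G ∈ S)
    (h0 : ∀ f ∈ S, MvPowerSeries.constantCoeff f = 0) : ∀ f ∈ S, f = 0 := by
  classical
  have hp1 : p ≠ 0 := hp.out.ne_zero
  have hp2 : 2 ≤ p := hp.out.two_le
  -- derivative, with coefficients
  have hder' : ∀ (i : σ), ∀ f ∈ S, ∃ g ∈ S, ∀ d, MvPowerSeries.coeff d g =
      ((d i + 1 : ℕ) : R) * MvPowerSeries.coeff (d + single i 1) f := fun i f hf =>
    ⟨_, hder i f hf, fun d => rfl⟩
  -- `X_i ∂_i`
  have hD : ∀ (i : σ), ∀ f ∈ S, ∃ g ∈ S, ∀ d, MvPowerSeries.coeff d g =
      (d i : R) * MvPowerSeries.coeff d f := by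
    intro i f hf
    obtain ⟨g, hg, hgc⟩ := hder' i f hf
    refine ⟨_, hX i g hg, fun d => ?_⟩
    rw [MvPowerSeries.X_def, MvPowerSeries.coeff_monomial_mul, one_mul]
    by_cases hd : d i = 0
    · rw [if_neg, hd]
      · simp
      · intro hle
        have := hle i
        simp [hd] at this
    · rw [if_pos (by
        intro j
        by_cases hj : j = i
        · subst hj
          simpa using Nat.one_le_iff_ne_zero.2 hd
        · simp [Finsupp.single_apply, Ne.symm hj]), hgc]
      have h1 : d - single i 1 + single i 1 = d := tsub_add_cancel_of_le (by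
        intro j
        by_cases hj : j = i
        · subst hj
          simpa using Nat.one_le_iff_ne_zero.2 hd
        · simp [Finsupp.single_apply, Ne.symm hj])
      rw [h1]
      have h2 : (d - single i 1 : σ →₀ ℕ) i + 1 = d i := by
        simp only [Finsupp.tsub_apply, Finsupp.single_eq_same]
        omega
      rw [h2]
  have hDn : ∀ (i : σ) (n : ℕ), ∀ f ∈ S, ∃ g ∈ S, ∀ d, MvPowerSeries.coeff d g =
      (d i : R) ^ n * MvPowerSeries.coeff d f := by
    intro i n
    induction n with
    | zero => exact fun f hf => ⟨f, hf, fun d => by simp⟩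
    | succ n ih =>
      intro f hf
      obtain ⟨g, hg, hgc⟩ := ih f hf
      obtain ⟨g', hg', hgc'⟩ := hD i g hg
      exact ⟨g', hg', fun d => by rw [hgc', hgc, pow_succ]; ring⟩
  -- projection for one variable
  have hT : ∀ (i : σ), ∀ f ∈ S, ∃ g ∈ S, ∀ d, MvPowerSeries.coeff d g =
      if p ∣ d i then MvPowerSeries.coeff d f else 0 := by
    intro i f hf
    obtain ⟨g, hg, hgc⟩ := hDn i (p - 1) f hf
    refine ⟨f - g, hsub f hf g hg, fun d => ?_⟩
    rw [map_sub, hgc]
    by_cases hd : p ∣ d i
    · rw [if_pos hd]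
      have h1 : (d i : R) = 0 := (CharP.cast_eq_zero_iff R p _).2 hd
      rw [h1, zero_pow (by omega)]
      ring
    · rw [if_neg hd, natCast_pow_sub_one p _ hd]
      ring
  -- projection for all variables
  have hPs : ∀ (s : Finset σ), ∀ f ∈ S, ∃ g ∈ S, ∀ d, MvPowerSeries.coeff d g =
      if ∀ i ∈ s, p ∣ d i then MvPowerSeries.coeff d f else 0 := by
    intro s
    induction s using Finset.induction_on with
    | empty => exact fun f hf => ⟨f, hf, fun d => by simp⟩
    | insert a s ha ih =>
      intro f hf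
      obtain ⟨g, hg, hgc⟩ := ih f hf
      obtain ⟨g', hg', hgc'⟩ := hT a g hg
      refine ⟨g', hg', fun d => ?_⟩
      rw [hgc', hgc]
      simp only [Finset.mem_insert, forall_eq_or_imp]
      by_cases h1 : p ∣ d a <;> by_cases h2 : ∀ i ∈ s, p ∣ d i <;> simp [h1, h2]
  haveI := Fintype.ofFinite σ
  -- minimal degree
  by_contra hcon
  push Not at hcon
  obtain ⟨f₀, hf₀, hf₀0⟩ := hcon
  have hex : ∃ n, ∃ f ∈ S, ∃ e : σ →₀ ℕ, e.degree = n ∧ MvPowerSeries.coeff e f ≠ 0 := by
    have : ∃ e, MvPowerSeries.coeff e f₀ ≠ 0 := by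
      by_contra hc
      push Not at hc
      exact hf₀0 (MvPowerSeries.ext hc)
    obtain ⟨e, he⟩ := this
    exact ⟨_, f₀, hf₀, e, rfl, he⟩
  obtain ⟨F, hF, e, hed, hFe⟩ := Nat.find_spec hex
  set d := Nat.find hex with hd
  have hmin : ∀ f ∈ S, ∀ e' : σ →₀ ℕ, e'.degree < d → MvPowerSeries.coeff e' f = 0 := by
    intro f hf e' he'
    by_contra hne
    exact Nat.find_min hex he' ⟨f, hf, e', rfl, hne⟩
  -- every exponent divisible by p
  have hdiv : ∀ i, p ∣ e i := by
    intro i
    by_contra hi
    have hei : e i ≠ 0 := fun h => hi (h ▸ dvd_zero p)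
    obtain ⟨g, hg, hgc⟩ := hder' i F hF
    have hle : single i 1 ≤ e := by
      intro j
      by_cases hj : j = i
      · subst hj
        simpa using Nat.one_le_iff_ne_zero.2 hei
      · simp [Finsupp.single_apply, Ne.symm hj]
    have h1 : e - single i 1 + single i 1 = e := tsub_add_cancel_of_le hle
    have h2 : (e - single i 1 : σ →₀ ℕ) i + 1 = e i := by
      simp only [Finsupp.tsub_apply, Finsupp.single_eq_same]
      omega
    have h3 := hgc (e - single i 1)
    rw [h1, h2] at h3
    have h4 : ((e i : ℕ) : R) ≠ 0 := by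
      rwa [Ne, CharP.cast_eq_zero_iff R p]
    have h5 : MvPowerSeries.coeff (e - single i 1) g ≠ 0 := by
      rw [h3]
      exact mul_ne_zero h4 hFe
    have hdeg : (e - single i 1).degree < d := by
      have : (e - single i 1).degree + (single i 1 : σ →₀ ℕ).degree = e.degree := by
        rw [← map_add, h1]
      simp only [Finsupp.degree_single] at this
      omega
    exact h5 (hmin g hg _ hdeg)
  -- the exponent `e' = e/p`
  obtain ⟨g, hg, hgc⟩ := hPs Finset.univ F hF
  have hgc' : ∀ d, MvPowerSeries.coeff d g = if ∀ i, p ∣ d i then MvPowerSeries.coeff d F else 0 := by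
    intro d
    rw [hgc]
    simp
  obtain ⟨q, hq⟩ : ∃ q, p ^ h = p * q := by
    obtain ⟨r, rfl⟩ : ∃ r, h = r + 1 := ⟨h - 1, by omega⟩
    exact ⟨p ^ r, by ring⟩
  have hq0 : q ≠ 0 := by
    rintro rfl
    simp [hp1] at hq
  -- the root series
  let G : MvPowerSeries σ R := fun e' => MvPowerSeries.coeff (p • e') g ^ q
  have hGc : ∀ e', MvPowerSeries.coeff e' G = MvPowerSeries.coeff (p • e') g ^ q := fun _ => rfl
  have hGp : ∀ e', MvPowerSeries.coeff e' G ^ p = MvPowerSeries.coeff (p • e') g := by
    intro e'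
    rw [hGc, ← pow_mul, mul_comm, ← hq, hrat g hg]
  have hGrat : ∀ e', MvPowerSeries.coeff e' G ^ p ^ h = MvPowerSeries.coeff e' G := by
    intro e'
    rw [hGc, ← pow_mul, mul_comm, pow_mul, hrat g hg]
  have hinj : Function.Injective (fun x : σ →₀ ℕ => p • x) := by
    intro a b hab
    ext i
    have := DFunLike.congr_fun hab i
    simp only [Finsupp.smul_apply, smul_eq_mul] at this
    exact Nat.eq_of_mul_eq_mul_left (Nat.pos_of_ne_zero hp1) this
  have hGpow : G ^ p = g := by
    ext D
    rw [coeff_pow_char p]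
    by_cases hD : ∀ i, p ∣ D i
    · -- `D = p • e''`
      let e'' : σ →₀ ℕ := Finsupp.equivFunOnFinite.symm (fun i => D i / p)
      have he'' : p • e'' = D := by
        ext i
        simp only [Finsupp.smul_apply, smul_eq_mul, e'', Finsupp.equivFunOnFinite_symm_apply_apply]
        exact Nat.mul_div_cancel' (hD i)
      have hle : e'' ≤ D := by
        rw [← he'']
        intro i
        simp only [Finsupp.smul_apply, smul_eq_mul]
        exact Nat.le_mul_of_pos_left _ (Nat.pos_of_ne_zero hp1)
      rw [Finset.sum_eq_single e'']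
      · rw [if_pos he'', hGp, he'']
      · intro b _ hb
        rw [if_neg]
        intro hbD
        exact hb (hinj (hbD.trans he''.symm))
      · intro h'
        exact absurd (Finset.mem_Iic.2 hle) h'
    · have h1 : MvPowerSeries.coeff D g = 0 := by
        rw [hgc', if_neg hD]
      rw [h1]
      refine Finset.sum_eq_zero ?_
      intro b _
      rw [if_neg]
      intro hb
      apply hD
      intro i
      rw [← hb]
      simp
  have hGS : G ∈ S := hroot G hGrat (by rw [hGpow]; exact hg)
  -- the contradiction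
  let e' : σ →₀ ℕ := Finsupp.equivFunOnFinite.symm (fun i => e i / p)
  have he' : p • e' = e := by
    ext i
    simp only [Finsupp.smul_apply, smul_eq_mul, e', Finsupp.equivFunOnFinite_symm_apply_apply]
    exact Nat.mul_div_cancel' (hdiv i)
  have hd0 : d ≠ 0 := by
    intro hd00
    have he0 : e = 0 := by
      have : e.degree = 0 := hed.trans hd00
      exact (Finsupp.degree_eq_zero_iff e).1 this
    rw [he0] at hFe
    exact hFe (by simpa using h0 F hF)
  have hdeg : e'.degree < d := by
    have h1 : (p • e').degree = p * e'.degree := by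
      simp [Finsupp.degree, map_nsmul]
    rw [he', hed] at h1
    have h2 : e'.degree ≠ 0 := by
      intro h3
      rw [h3, mul_zero] at h1
      exact hd0 h1
    have : 2 * e'.degree ≤ p * e'.degree := Nat.mul_le_mul_right _ hp2
    omega
  have hG0 : MvPowerSeries.coeff e' G ≠ 0 := by
    intro h1
    have h2 := hGp e'
    rw [h1, zero_pow hp1, he', hgc', if_pos hdiv] at h2
    exact hFe h2.symm
  exact hG0 (hmin G hGS e' hdeg)

end Core

end FSDeriv

end

end Crest.Agent.LT
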