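/-
S0351 package GERM, auxiliary part: truncations, order of polynomials, substitution; norm bounds
for polynomials on the unit polydisc. No formal groups, no power series evaluation.
-/
import Mathlib

set_option autoImplicit false

namespace Crest.Agent.LT

noncomputable section

open MvPolynomial

/-- Truncation of a polynomial to total degree `≤ N`. -/
def polyTrunc {σ R : Type*} [CommSemiring R] (N : ℕ) (P : MvPolynomial σ R) : MvPolynomial σ R :=
  ∑ d ∈ P.support.filter (fun d => d.degree ≤ N), MvPolynomial.monomial d (P.coeff d)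

theorem coeff_polyTrunc {σ R : Type*} [CommSemiring R] (N : ℕ) (P : MvPolynomial σ R)
    (e : σ →₀ ℕ) : coeff e (polyTrunc N P) = if e.degree ≤ N then coeff e P else 0 := by
  classical
  unfold polyTrunc
  rw [coeff_sum]
  simp only [coeff_monomial]
  rw [Finset.sum_ite_eq' (P.support.filter (fun d => d.degree ≤ N)) e (fun d => P.coeff d)]
  by_cases he : e.degree ≤ N
  · by_cases hs : e ∈ P.support
    · simp [he, hs]
    · simp only [Finset.mem_filter, hs, false_and, if_false, he, if_true]
      exact (notMem_support_iff.mp hs).symm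
  · simp [he]

/-- Truncation of a power series to a polynomial of total degree `≤ N`. -/
def seriesTrunc {σ R : Type*} [Finite σ] [CommSemiring R] (N : ℕ) (f : MvPowerSeries σ R) :
    MvPolynomial σ R :=
  ∑ d ∈ (Finsupp.finite_of_degree_le (σ := σ) N).toFinset,
    MvPolynomial.monomial d (MvPowerSeries.coeff d f)

theorem coeff_seriesTrunc {σ R : Type*} [Finite σ] [CommSemiring R] (N : ℕ) (f : MvPowerSeries σ R)
    (d : σ →₀ ℕ) : MvPolynomial.coeff d (seriesTrunc N f) =
      if d.degree ≤ N then MvPowerSeries.coeff d f else 0 := by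
  classical
  unfold seriesTrunc
  rw [coeff_sum]
  simp only [coeff_monomial]
  rw [Finset.sum_ite_eq']
  simp

theorem polyTrunc_polyTrunc {σ R : Type*} [CommSemiring R] {a b : ℕ} (h : a ≤ b)
    (P : MvPolynomial σ R) : polyTrunc a (polyTrunc b P) = polyTrunc a P := by
  ext e
  simp only [coeff_polyTrunc]
  by_cases he : e.degree ≤ a
  · simp [he, he.trans h]
  · simp [he]

theorem polyTrunc_add {σ R : Type*} [CommSemiring R] (N : ℕ) (P P' : MvPolynomial σ R) :
    polyTrunc N (P + P') = polyTrunc N P + polyTrunc N P' := by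
  ext e
  simp only [coeff_polyTrunc, coeff_add]
  split_ifs <;> simp

theorem polyTrunc_smul {σ R : Type*} [CommSemiring R] (N : ℕ) (c : R) (P : MvPolynomial σ R) :
    polyTrunc N (c • P) = c • polyTrunc N P := by
  ext e
  simp only [coeff_polyTrunc, coeff_smul]
  split_ifs <;> simp

theorem totalDegree_le_of_degree {σ R : Type*} [CommSemiring R] {N : ℕ} {P : MvPolynomial σ R}
    (h : ∀ d, coeff d P ≠ 0 → d.degree ≤ N) : P.totalDegree ≤ N := by
  unfold totalDegree
  apply Finset.sup_le
  intro s hs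
  have := h s (mem_support_iff.mp hs)
  simpa [Finsupp.degree_apply, Finsupp.sum] using this

theorem degree_le_of_totalDegree {σ R : Type*} [CommSemiring R] {N : ℕ} {P : MvPolynomial σ R}
    (hP : P.totalDegree ≤ N) {d : σ →₀ ℕ} (h : coeff d P ≠ 0) : d.degree ≤ N := by
  have := le_totalDegree (mem_support_iff.mpr h)
  have h2 : d.degree = d.sum fun _ e => e := by simp [Finsupp.degree_apply, Finsupp.sum]
  omega

theorem totalDegree_polyTrunc_le {σ R : Type*} [CommSemiring R] (N : ℕ) (P : MvPolynomial σ R) :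
    (polyTrunc N P).totalDegree ≤ N := by
  apply totalDegree_le_of_degree
  intro d hd
  rw [coeff_polyTrunc] at hd
  by_contra hc
  simp [hc] at hd

theorem polyTrunc_eq_self {σ R : Type*} [CommSemiring R] {N : ℕ} {P : MvPolynomial σ R}
    (hP : P.totalDegree ≤ N) : polyTrunc N P = P := by
  ext e
  rw [coeff_polyTrunc]
  by_cases he : e.degree ≤ N
  · simp [he]
  · rw [if_neg he]
    by_contra hc
    exact he (degree_le_of_totalDegree hP (fun h => hc h.symm))

/-! ### Order of polynomials -/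

section Ord

variable {σ τ R : Type*} [CommRing R]

/-- All monomials of `g` have degree at least `e`. -/
def OrdGe (e : ℕ) (g : MvPolynomial σ R) : Prop := ∀ d : σ →₀ ℕ, d.degree < e → coeff d g = 0

theorem ordGe_zero_left (g : MvPolynomial σ R) : OrdGe 0 g := fun _ h => absurd h (Nat.not_lt_zero _)

theorem OrdGe.mono {e e' : ℕ} {g : MvPolynomial σ R} (h : OrdGe e g) (he : e' ≤ e) : OrdGe e' g :=
  fun d hd => h d (lt_of_lt_of_le hd he)

theorem ordGe_zero (e : ℕ) : OrdGe e (0 : MvPolynomial σ R) := fun d _ => by simp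

theorem OrdGe.add {e : ℕ} {g h : MvPolynomial σ R} (hg : OrdGe e g) (hh : OrdGe e h) :
    OrdGe e (g + h) := fun d hd => by simp [hg d hd, hh d hd]

theorem OrdGe.sub {e : ℕ} {g h : MvPolynomial σ R} (hg : OrdGe e g) (hh : OrdGe e h) :
    OrdGe e (g - h) := fun d hd => by simp [coeff_sub, hg d hd, hh d hd]

theorem OrdGe.neg {e : ℕ} {g : MvPolynomial σ R} (hg : OrdGe e g) : OrdGe e (-g) :=
  fun d hd => by simp [coeff_neg, hg d hd]

theorem OrdGe.sum {ι : Type*} {e : ℕ} (s : Finset ι) {g : ι → MvPolynomial σ R}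
    (hg : ∀ i ∈ s, OrdGe e (g i)) : OrdGe e (∑ i ∈ s, g i) := by
  intro d hd
  rw [coeff_sum]
  exact Finset.sum_eq_zero fun i hi => hg i hi d hd

theorem OrdGe.mul {a b : ℕ} {g h : MvPolynomial σ R} (hg : OrdGe a g) (hh : OrdGe b h) :
    OrdGe (a + b) (g * h) := by
  classical
  intro d hd
  rw [coeff_mul]
  refine Finset.sum_eq_zero fun x hx => ?_
  have hx' := Finset.HasAntidiagonal.mem_antidiagonal.mp hx
  have hdeg : x.1.degree + x.2.degree = d.degree := by rw [← hx', map_add]
  by_cases h1 : x.1.degree < a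
  · simp [hg _ h1]
  · have h2 : x.2.degree < b := by omega
    simp [hh _ h2]

theorem OrdGe.C_mul {e : ℕ} {g : MvPolynomial σ R} (hg : OrdGe e g) (c : R) :
    OrdGe e (C c * g) := fun d hd => by simp [coeff_C_mul, hg d hd]

theorem ordGe_one (e : ℕ) (he : e = 0) : OrdGe e (1 : MvPolynomial σ R) := by
  subst he; exact ordGe_zero_left _

theorem OrdGe.pow {a : ℕ} {g : MvPolynomial σ R} (hg : OrdGe a g) (n : ℕ) : OrdGe (n * a) (g ^ n) := by
  induction n with
  | zero => simpa using ordGe_zero_left _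
  | succ n ih =>
    rw [pow_succ, Nat.succ_mul]
    exact ih.mul hg

theorem OrdGe.prod_pow {ι : Type*} (s : Finset ι) (α : ι → ℕ) {g : ι → MvPolynomial σ R}
    (hg : ∀ i, OrdGe 1 (g i)) : OrdGe (∑ i ∈ s, α i) (∏ i ∈ s, g i ^ α i) := by
  classical
  induction s using Finset.induction_on with
  | empty => simpa using ordGe_zero_left _
  | insert i s hi ih =>
    rw [Finset.sum_insert hi, Finset.prod_insert hi]
    have := (hg i).pow (α i)
    rw [mul_one] at this
    exact this.mul ih

/-- Substitution of series of order `≥ 1` does not lower the order. -/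
theorem OrdGe.bind₁ {e : ℕ} {g : MvPolynomial τ R} (hg : OrdGe e g) {Ψ : τ → MvPolynomial σ R}
    (hΨ : ∀ k, OrdGe 1 (Ψ k)) : OrdGe e (MvPolynomial.bind₁ Ψ g) := by
  classical
  rw [g.as_sum, map_sum]
  refine OrdGe.sum _ fun α hα => ?_
  rw [bind₁_monomial]
  apply OrdGe.C_mul
  have hdeg : e ≤ α.degree := by
    by_contra hc
    exact (mem_support_iff.mp hα) (hg α (not_le.mp hc))
  have := OrdGe.prod_pow (σ := σ) (R := R) α.support (fun i => α i) hΨ
  refine this.mono ?_
  simpa [Finsupp.degree_apply] using hdeg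

/-- Congruence of products: the difference of two products of congruent elements. -/
theorem OrdGe.mul_sub_mul {a b : ℕ} {g g' h h' : MvPolynomial σ R} (hg : OrdGe a g) (hg' : OrdGe a g')
    (hh : OrdGe b h) (hh' : OrdGe b h') (h1 : OrdGe (a + 1) (g - g')) (h2 : OrdGe (b + 1) (h - h')) :
    OrdGe (a + b + 1) (g * h - g' * h') := by
  have e : g * h - g' * h' = (g - g') * h + g' * (h - h') := by ring
  rw [e]
  refine OrdGe.add ?_ ?_
  · have := h1.mul hh
    have e2 : a + 1 + b = a + b + 1 := by ring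
    rwa [e2] at this
  · exact hg'.mul h2

theorem OrdGe.pow_sub_pow {g g' : MvPolynomial σ R} (hg : OrdGe 1 g) (hg' : OrdGe 1 g')
    (h : OrdGe 2 (g - g')) (n : ℕ) : OrdGe (n + 1) (g ^ n - g' ^ n) := by
  induction n with
  | zero => simpa using ordGe_zero 1
  | succ n ih =>
    rw [pow_succ, pow_succ]
    have h1 := hg.pow n
    have h2 := hg'.pow n
    rw [mul_one] at h1 h2
    exact OrdGe.mul_sub_mul h1 h2 hg hg' ih h

theorem OrdGe.prod_pow_sub {ι : Type*} (s : Finset ι) (α : ι → ℕ) {g g' : ι → MvPolynomial σ R}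
    (hg : ∀ i, OrdGe 1 (g i)) (hg' : ∀ i, OrdGe 1 (g' i)) (h : ∀ i, OrdGe 2 (g i - g' i)) :
    OrdGe ((∑ i ∈ s, α i) + 1) (∏ i ∈ s, g i ^ α i - ∏ i ∈ s, g' i ^ α i) := by
  classical
  induction s using Finset.induction_on with
  | empty => simpa using ordGe_zero 1
  | insert i s hi ih =>
    rw [Finset.sum_insert hi, Finset.prod_insert hi, Finset.prod_insert hi]
    have h1 := (hg i).pow (α i)
    have h2 := (hg' i).pow (α i)
    rw [mul_one] at h1 h2
    exact OrdGe.mul_sub_mul h1 h2 (OrdGe.prod_pow s α hg) (OrdGe.prod_pow s α hg')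
      (OrdGe.pow_sub_pow (hg i) (hg' i) (h i) (α i)) ih

/-- Substitution by congruent maps gives a congruence one order higher. -/
theorem OrdGe.bind₁_sub {e : ℕ} {g : MvPolynomial τ R} (hg : OrdGe e g) {Ψ Ψ' : τ → MvPolynomial σ R}
    (hΨ : ∀ k, OrdGe 1 (Ψ k)) (hΨ' : ∀ k, OrdGe 1 (Ψ' k)) (h : ∀ k, OrdGe 2 (Ψ k - Ψ' k)) :
    OrdGe (e + 1) (MvPolynomial.bind₁ Ψ g - MvPolynomial.bind₁ Ψ' g) := by
  classical
  rw [g.as_sum, map_sum, map_sum, ← Finset.sum_sub_distrib]
  refine OrdGe.sum _ fun α hα => ?_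
  rw [bind₁_monomial, bind₁_monomial, ← mul_sub]
  apply OrdGe.C_mul
  have hdeg : e ≤ α.degree := by
    by_contra hc
    exact (mem_support_iff.mp hα) (hg α (not_le.mp hc))
  have := OrdGe.prod_pow_sub (σ := σ) (R := R) α.support (fun i => α i) hΨ hΨ' h
  refine this.mono ?_
  have h3 : α.degree = ∑ i ∈ α.support, α i := rfl
  omega

theorem ordGe_one_of_coeff_zero {g : MvPolynomial σ R} (h : coeff 0 g = 0) : OrdGe 1 g := by
  intro d hd
  have : d = 0 := (Finsupp.degree_eq_zero_iff d).mp (by omega)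
  rw [this, h]

theorem OrdGe.coeff_zero {g : MvPolynomial σ R} (h : OrdGe 1 g) : coeff 0 g = 0 :=
  h 0 (by simp)

theorem polyTrunc_sub_ordGe (N : ℕ) (g : MvPolynomial σ R) : OrdGe (N + 1) (g - polyTrunc N g) := by
  intro d hd
  rw [coeff_sub, coeff_polyTrunc, if_pos (by omega), sub_self]

theorem polyTrunc_eq_of_ordGe_sub {N : ℕ} {g h : MvPolynomial σ R} (H : OrdGe (N + 1) (g - h)) :
    polyTrunc N g = polyTrunc N h := by
  ext e
  simp only [coeff_polyTrunc]
  by_cases he : e.degree ≤ N
  · simp only [he, if_true]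
    have := H e (by omega)
    rw [coeff_sub] at this
    exact sub_eq_zero.mp this
  · simp [he]

end Ord

/-! ### Linear forms -/

section Lin

variable {m : ℕ} {R : Type*} [CommRing R]

/-- The linear form with coefficients the `k`-th row of `M`. -/
def linForm (M : Matrix (Fin m) (Fin m) R) (k : Fin m) : MvPolynomial (Fin m) R :=
  ∑ j, C (M k j) * X j

theorem ordGe_X (j : Fin m) : OrdGe 1 (X j : MvPolynomial (Fin m) R) := by
  apply ordGe_one_of_coeff_zero
  classical
  rw [coeff_X']
  simp [Finsupp.single_eq_zero]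

theorem linForm_ordGe (M : Matrix (Fin m) (Fin m) R) (k : Fin m) : OrdGe 1 (linForm M k) := by
  refine OrdGe.sum _ fun j _ => ?_
  exact (ordGe_X j).C_mul _

theorem coeff_linForm_single (M : Matrix (Fin m) (Fin m) R) (k j : Fin m) :
    coeff (Finsupp.single j 1) (linForm M k) = M k j := by
  classical
  unfold linForm
  rw [coeff_sum, Finset.sum_eq_single j]
  · simp [coeff_C_mul, coeff_X']
  · intro i _ hi
    rw [coeff_C_mul, coeff_X']
    have : Finsupp.single i 1 ≠ Finsupp.single j 1 := by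
      intro h
      exact hi (Finsupp.single_left_inj (one_ne_zero) |>.mp h)
    simp [this]
  · simp

theorem eq_single_of_degree_one {d : Fin m →₀ ℕ} (hd : d.degree = 1) :
    ∃ j, d = Finsupp.single j 1 := by
  have h := (Finsupp.range_single_one (σ := Fin m))
  have : d ∈ Set.range (fun a : Fin m => Finsupp.single a 1) := by rw [h]; exact hd
  obtain ⟨j, hj⟩ := this
  exact ⟨j, hj.symm⟩

/-- A polynomial whose constant and linear terms are those of `linForm M k` is congruent to it. -/
theorem ordGe_two_sub_linForm {Q : MvPolynomial (Fin m) R} {M : Matrix (Fin m) (Fin m) R} {k : Fin m}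
    (h0 : coeff 0 Q = 0) (h1 : ∀ j, coeff (Finsupp.single j 1) Q = M k j) :
    OrdGe 2 (Q - linForm M k) := by
  intro d hd
  rw [coeff_sub]
  by_cases hd0 : d.degree = 0
  · have : d = 0 := (Finsupp.degree_eq_zero_iff d).mp hd0
    rw [this, h0, (linForm_ordGe M k).coeff_zero, sub_zero]
  · obtain ⟨j, rfl⟩ := eq_single_of_degree_one (show d.degree = 1 by omega)
    rw [h1, coeff_linForm_single, sub_self]

theorem bind₁_linForm_comp (M M' : Matrix (Fin m) (Fin m) R) (h : M' * M = 1) (g : MvPolynomial (Fin m) R) :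
    MvPolynomial.bind₁ (linForm M) (MvPolynomial.bind₁ (linForm M') g) = g := by
  classical
  rw [bind₁_bind₁]
  have : (fun i => MvPolynomial.bind₁ (linForm M) (linForm M' i)) = X := by
    funext k
    unfold linForm
    rw [map_sum]
    simp only [map_mul, bind₁_C_right, bind₁_X_right]
    simp only [linForm, Finset.mul_sum]
    rw [Finset.sum_comm]
    have e : ∀ j : Fin m, ∑ i, C (M' k i) * (C (M i j) * X j) = C ((M' * M) k j) * (X j : MvPolynomial (Fin m) R) := by
      intro j
      rw [Matrix.mul_apply, map_sum, Finset.sum_mul]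
      refine Finset.sum_congr rfl fun i _ => ?_
      rw [map_mul, mul_assoc]
    simp only [e, h, Matrix.one_apply]
    rw [Finset.sum_eq_single k]
    · simp
    · intro j _ hj
      simp [Ne.symm hj]
    · simp
  rw [this]
  simp

end Lin

/-! ### Norm bounds on the unit polydisc -/

section Norm

variable {m : ℕ} {C' : Type*} [NormedField C']

/-- The monomial `x^α`. -/
def mono (x : Fin m → C') (α : Fin m →₀ ℕ) : C' := ∏ i, x i ^ α i

theorem norm_mono_le (x : Fin m → C') (α : Fin m →₀ ℕ) : ‖mono x α‖ ≤ ‖x‖ ^ α.degree := by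
  unfold mono
  rw [norm_prod, Finsupp.degree_eq_sum, ← Finset.prod_pow_eq_pow_sum]
  refine Finset.prod_le_prod (fun _ _ => norm_nonneg _) fun i _ => ?_
  rw [norm_pow]
  exact pow_le_pow_left₀ (norm_nonneg _) (norm_le_pi_norm x i) _

theorem mono_add_single (x : Fin m → C') (α : Fin m →₀ ℕ) (j : Fin m) :
    mono x (α + Finsupp.single j 1) = x j * mono x α := by
  classical
  unfold mono
  simp only [Finsupp.add_apply, pow_add]
  rw [Finset.prod_mul_distrib, mul_comm]
  congr 1
  rw [Finset.prod_eq_single j]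
  · simp
  · intro i _ hi
    simp [Finsupp.single_apply, Ne.symm hi]
  · simp

theorem norm_mono_sub_le (x y : Fin m → C') (ρ : ℝ) (hx : ‖x‖ ≤ ρ) (hy : ‖y‖ ≤ ρ) (n : ℕ)
    (α : Fin m →₀ ℕ) (hα : α.degree = n) :
    ‖mono x α - mono y α‖ ≤ n * ρ ^ (n - 1) * ‖x - y‖ := by
  classical
  induction n generalizing α with
  | zero =>
    have : α = 0 := (Finsupp.degree_eq_zero_iff α).mp hα
    subst this
    simp [mono]
  | succ n ih =>
    have hρ : 0 ≤ ρ := (norm_nonneg _).trans hx
    -- choose a variable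
    have hne : α ≠ 0 := by
      rintro rfl
      simp at hα
    obtain ⟨j, hj⟩ : ∃ j, α j ≠ 0 := by
      by_contra hc
      push_neg at hc
      exact hne (Finsupp.ext hc)
    obtain ⟨α', rfl⟩ : ∃ α', α = α' + Finsupp.single j 1 := by
      refine ⟨α - Finsupp.single j 1, ?_⟩
      ext i
      by_cases hi : i = j
      · subst hi
        simp only [Finsupp.add_apply, Finsupp.tsub_apply, Finsupp.single_eq_same]
        omega
      · simp [Finsupp.single_apply, Ne.symm hi]
    have hdeg : α'.degree = n := by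
      rw [map_add, Finsupp.degree_single] at hα
      omega
    rw [mono_add_single, mono_add_single]
    have e : x j * mono x α' - y j * mono y α' = (x j - y j) * mono x α' + y j * (mono x α' - mono y α') := by
      ring
    rw [e]
    refine (norm_add_le _ _).trans ?_
    rw [norm_mul, norm_mul]
    have h1 : ‖x j - y j‖ ≤ ‖x - y‖ := by
      have := norm_le_pi_norm (x - y) j
      simpa using this
    have h2 : ‖mono x α'‖ ≤ ρ ^ n := by
      have := norm_mono_le x α'
      rw [hdeg] at this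
      exact this.trans (pow_le_pow_left₀ (norm_nonneg _) hx _)
    have h3 : ‖y j‖ ≤ ρ := (norm_le_pi_norm y j).trans hy
    have h4 := ih α' hdeg
    have hnn : 0 ≤ ‖x - y‖ := norm_nonneg _
    calc ‖x j - y j‖ * ‖mono x α'‖ + ‖y j‖ * ‖mono x α' - mono y α'‖
        ≤ ‖x - y‖ * ρ ^ n + ρ * (n * ρ ^ (n - 1) * ‖x - y‖) := by
          gcongr
      _ = ((n : ℝ) + 1) * ρ ^ n * ‖x - y‖ := by
          cases n with
          | zero => simp
          | succ n =>
            simp only [Nat.add_sub_cancel, pow_succ]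
            push_cast
            ring
      _ = ((n + 1 : ℕ) : ℝ) * ρ ^ (n + 1 - 1) * ‖x - y‖ := by
          simp

theorem eval_eq_sum_mono (x : Fin m → C') (g : MvPolynomial (Fin m) C') :
    eval x g = ∑ d ∈ g.support, coeff d g * mono x d := eval_eq' x g

/-- A polynomial of order `≥ e` is `O(‖x‖^e)` on the unit ball. -/
theorem exists_bound_ordGe {g : MvPolynomial (Fin m) C'} {e : ℕ} (h : OrdGe e g) :
    ∃ K : ℝ, 0 ≤ K ∧ ∀ x : Fin m → C', ‖x‖ ≤ 1 → ‖eval x g‖ ≤ K * ‖x‖ ^ e := by
  refine ⟨∑ d ∈ g.support, ‖coeff d g‖, Finset.sum_nonneg fun _ _ => norm_nonneg _, fun x hx => ?_⟩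
  rw [eval_eq_sum_mono, Finset.sum_mul]
  refine (norm_sum_le _ _).trans (Finset.sum_le_sum fun d hd => ?_)
  rw [norm_mul]
  refine mul_le_mul_of_nonneg_left ?_ (norm_nonneg _)
  have hdeg : e ≤ d.degree := by
    by_contra hc
    exact (mem_support_iff.mp hd) (h d (not_le.mp hc))
  exact (norm_mono_le x d).trans (pow_le_pow_of_le_one (norm_nonneg _) hx hdeg)

/-- Lipschitz bound with a gain of `ρ^(e-1)`. -/
theorem exists_lip_ordGe {g : MvPolynomial (Fin m) C'} {e : ℕ} (h : OrdGe e g) :
    ∃ K : ℝ, 0 ≤ K ∧ ∀ (x y : Fin m → C') (ρ : ℝ), ‖x‖ ≤ ρ → ‖y‖ ≤ ρ → ρ ≤ 1 →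
      ‖eval x g - eval y g‖ ≤ K * ρ ^ (e - 1) * ‖x - y‖ := by
  refine ⟨∑ d ∈ g.support, ‖coeff d g‖ * d.degree,
    Finset.sum_nonneg fun _ _ => mul_nonneg (norm_nonneg _) (Nat.cast_nonneg _), fun x y ρ hx hy hρ => ?_⟩
  have hρ0 : 0 ≤ ρ := (norm_nonneg _).trans hx
  rw [eval_eq_sum_mono, eval_eq_sum_mono, ← Finset.sum_sub_distrib, Finset.sum_mul, Finset.sum_mul]
  refine (norm_sum_le _ _).trans (Finset.sum_le_sum fun d hd => ?_)
  rw [← mul_sub, norm_mul, mul_assoc, mul_assoc]
  refine mul_le_mul_of_nonneg_left ?_ (norm_nonneg _)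
  have hdeg : e ≤ d.degree := by
    by_contra hc
    exact (mem_support_iff.mp hd) (h d (not_le.mp hc))
  have h1 := norm_mono_sub_le x y ρ hx hy d.degree d rfl
  refine h1.trans ?_
  rw [mul_assoc]
  refine mul_le_mul_of_nonneg_left ?_ (Nat.cast_nonneg _)
  refine mul_le_mul_of_nonneg_right ?_ (norm_nonneg _)
  by_cases hd0 : d.degree = 0
  · -- then the monomial is constant; the bound is trivial
    have : e = 0 := by omega
    subst this
    simp [hd0]
  · exact pow_le_pow_of_le_one hρ0 hρ (by omega)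

end Norm

end

end Crest.Agent.LT
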