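/-
S0351 package GERM: asymptotic inversion of a polynomial chart (no power series here).
-/
import Crest.Agent.LT.Abstract.GermAux

set_option autoImplicit false

namespace Crest.Agent.LT

noncomputable section

open MvPolynomial Asymptotics Filter Topology

variable {ι : Type*} {m : ℕ} {C' : Type*} [NormedField C'] (𝓕 : Filter ι)

theorem eval_linForm (M : Matrix (Fin m) (Fin m) C') (k : Fin m) (x : Fin m → C') :
    eval x (linForm M k) = ∑ j, M k j * x j := by
  simp [linForm]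

theorem eval_bind₁' (x : Fin m → C') (Ψ : Fin m → MvPolynomial (Fin m) C')
    (g : MvPolynomial (Fin m) C') :
    eval x (bind₁ Ψ g) = eval (fun j => eval x (Ψ j)) g := by
  induction g using MvPolynomial.induction_on with
  | C c => simp
  | add p q hp hq => simp [hp, hq]
  | mul_X p i hp => simp [hp]

omit [NormedField C'] in
theorem row_identity {C'' : Type*} [CommRing C''] {L Linv : Matrix (Fin m) (Fin m) C''} (hinv : Linv * L = 1)
    (x : Fin m → C'') (k : Fin m) : ∑ i, Linv k i * ∑ j, L i j * x j = x k := by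
  have := congrFun (Matrix.mulVec_mulVec x Linv L) k
  rw [hinv, Matrix.one_mulVec] at this
  exact this

theorem eventually_norm_le_one {A : ι → Fin m → C'} (hA : Tendsto A 𝓕 (𝓝 0)) :
    ∀ᶠ δ in 𝓕, ‖A δ‖ ≤ 1 := by
  have h := tendsto_zero_iff_norm_tendsto_zero.mp hA
  exact h.eventually_le_const zero_lt_one

theorem isBigO_of_eventually_le {f : ι → C'} {x : ι → Fin m → C'} {n : ℕ} {K : ℝ}
    (h : ∀ᶠ δ in 𝓕, ‖f δ‖ ≤ K * ‖x δ‖ ^ n) : f =O[𝓕] fun δ => ‖x δ‖ ^ n := by
  refine IsBigO.of_bound K ?_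
  filter_upwards [h] with δ hδ
  simpa using hδ

theorem isBigO_eval_ordGe {A : ι → Fin m → C'} (hA : Tendsto A 𝓕 (𝓝 0))
    {g : MvPolynomial (Fin m) C'} {e : ℕ} (h : OrdGe e g) :
    (fun δ => eval (A δ) g) =O[𝓕] fun δ => ‖A δ‖ ^ e := by
  obtain ⟨K, _, hK⟩ := exists_bound_ordGe h
  refine isBigO_of_eventually_le 𝓕 (K := K) ?_
  filter_upwards [eventually_norm_le_one 𝓕 hA] with δ hδ
  exact hK _ hδ

theorem isBigO_pow_of_le {x : ι → Fin m → C'} (hx : Tendsto x 𝓕 (𝓝 0)) {n n' : ℕ} (h : n ≤ n') :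
    (fun δ => ‖x δ‖ ^ n') =O[𝓕] fun δ => ‖x δ‖ ^ n := by
  refine IsBigO.of_bound 1 ?_
  filter_upwards [eventually_norm_le_one 𝓕 hx] with δ hδ
  simp only [norm_pow, norm_norm, one_mul]
  exact pow_le_pow_of_le_one (norm_nonneg _) hδ h

/-- A Lipschitz transfer: a polynomial of order `≥ 2` has `R(x) - R(y) = O(ρ ‖x-y‖)`. -/
theorem isBigO_eval_sub_eval_ordGe_two {x y : ι → Fin m → C'} {ρ : ι → ℝ}
    (hx : ∀ᶠ δ in 𝓕, ‖x δ‖ ≤ ρ δ) (hy : ∀ᶠ δ in 𝓕, ‖y δ‖ ≤ ρ δ) (hρ : ∀ᶠ δ in 𝓕, ρ δ ≤ 1)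
    {g : MvPolynomial (Fin m) C'} (hg : OrdGe 2 g) :
    (fun δ => eval (x δ) g - eval (y δ) g) =O[𝓕] fun δ => ρ δ * ‖x δ - y δ‖ := by
  obtain ⟨K, _, hK⟩ := exists_lip_ordGe hg
  refine IsBigO.of_bound K ?_
  filter_upwards [hx, hy, hρ] with δ h1 h2 h3
  have := hK (x δ) (y δ) (ρ δ) h1 h2 h3
  have h0 : 0 ≤ ρ δ := (norm_nonneg _).trans h1
  simp only [pow_one, Nat.reduceSub] at this
  rw [norm_mul, norm_norm, Real.norm_of_nonneg h0]
  linarith [this, mul_assoc K (ρ δ) ‖x δ - y δ‖]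

theorem isBigO_eval_sub_eval {x y : ι → Fin m → C'} (hx : ∀ᶠ δ in 𝓕, ‖x δ‖ ≤ 1)
    (hy : ∀ᶠ δ in 𝓕, ‖y δ‖ ≤ 1) (g : MvPolynomial (Fin m) C') :
    (fun δ => eval (x δ) g - eval (y δ) g) =O[𝓕] fun δ => x δ - y δ := by
  obtain ⟨K, _, hK⟩ := exists_lip_ordGe (ordGe_zero_left g)
  refine IsBigO.of_bound K ?_
  filter_upwards [hx, hy] with δ h1 h2
  have := hK (x δ) (y δ) 1 h1 h2 le_rfl
  simpa using this

theorem exists_inversion (a A : ι → Fin m → C') (hA : Tendsto A 𝓕 (𝓝 0))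
    (L Linv : Matrix (Fin m) (Fin m) C') (hinv : Linv * L = 1)
    (hchart : ∀ (N : ℕ) (i : Fin m), ∃ Q : MvPolynomial (Fin m) C',
      coeff 0 Q = 0 ∧ (∀ j, coeff (Finsupp.single j 1) Q = L i j) ∧
      ∃ K : ℝ, ∀ᶠ δ in 𝓕, ‖a δ i - eval (A δ) Q‖ ≤ K * ‖A δ‖ ^ (N + 1)) :
    A =O[𝓕] a ∧ Tendsto a 𝓕 (𝓝 0) ∧ ∀ M : ℕ, ∃ Ψ : Fin m → MvPolynomial (Fin m) C',
      (∀ k, OrdGe 2 (Ψ k - linForm Linv k)) ∧
      ∀ k, (fun δ => A δ k - eval (a δ) (Ψ k)) =O[𝓕] fun δ => ‖a δ‖ ^ (M + 2) := by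
  have hA1 := eventually_norm_le_one 𝓕 hA
  have hAn := tendsto_zero_iff_norm_tendsto_zero.mp hA
  -- Step 1
  choose Q1 h10 h11 h1K using hchart 1
  have hR1 : ∀ i, OrdGe 2 (Q1 i - linForm L i) := fun i => ordGe_two_sub_linForm (h10 i) (h11 i)
  have h1 : ∀ i, (fun δ => a δ i - ∑ j, L i j * A δ j) =O[𝓕] fun δ => ‖A δ‖ ^ 2 := by
    intro i
    have e : (fun δ => a δ i - ∑ j, L i j * A δ j) =
        fun δ => (a δ i - eval (A δ) (Q1 i)) + eval (A δ) (Q1 i - linForm L i) := by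
      funext δ
      rw [map_sub, eval_linForm]; ring
    rw [e]
    refine IsBigO.add ?_ (isBigO_eval_ordGe 𝓕 hA (hR1 i))
    obtain ⟨K, hK⟩ := h1K i
    exact isBigO_of_eventually_le 𝓕 hK
  have h2 : ∀ k, (fun δ => A δ k - ∑ i, Linv k i * a δ i) =O[𝓕] fun δ => ‖A δ‖ ^ 2 := by
    intro k
    have e : (fun δ => A δ k - ∑ i, Linv k i * a δ i) =
        fun δ => -∑ i, Linv k i * (a δ i - ∑ j, L i j * A δ j) := by
      funext δ
      simp only [mul_sub, Finset.sum_sub_distrib]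
      rw [row_identity hinv (A δ) k]
      ring
    rw [e]
    refine IsBigO.neg_left (IsBigO.fun_sum fun i _ => (h1 i).const_mul_left _)
  have hb : (fun δ k => ∑ i, Linv k i * a δ i) =O[𝓕] a := by
    rw [isBigO_pi]
    intro k
    refine IsBigO.fun_sum fun i _ => IsBigO.const_mul_left ?_ _
    exact IsBigO.of_bound 1 (Eventually.of_forall fun δ => by
      simpa using norm_le_pi_norm (a δ) i)
  have hAa : A =O[𝓕] a := by
    obtain ⟨c, hc⟩ := (isBigO_pi.mpr h2).bound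
    obtain ⟨c2, hc2⟩ := hb.bound
    have hsmall : ∀ᶠ δ in 𝓕, |c| * ‖A δ‖ ≤ 1 / 2 := by
      have : Tendsto (fun δ => |c| * ‖A δ‖) 𝓕 (𝓝 (|c| * 0)) := hAn.const_mul _
      rw [mul_zero] at this
      exact this.eventually_le_const (by norm_num)
    refine IsBigO.of_bound (2 * c2) ?_
    filter_upwards [hc, hc2, hsmall] with δ h3 h4 h5
    have h6 : ‖A δ‖ ≤ ‖A δ - fun k => ∑ i, Linv k i * a δ i‖ + ‖fun k => ∑ i, Linv k i * a δ i‖ := by
      have := norm_add_le (A δ - fun k => ∑ i, Linv k i * a δ i) (fun k => ∑ i, Linv k i * a δ i)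
      simpa using this
    have h7 : ‖A δ - fun k => ∑ i, Linv k i * a δ i‖ ≤ |c| * ‖A δ‖ * ‖A δ‖ := by
      have h8 : c * ‖(‖A δ‖ ^ 2 : ℝ)‖ ≤ |c| * ‖A δ‖ * ‖A δ‖ := by
        simp only [norm_pow, norm_norm]
        have : c * ‖A δ‖ ^ 2 ≤ |c| * ‖A δ‖ ^ 2 :=
          mul_le_mul_of_nonneg_right (le_abs_self c) (by positivity)
        nlinarith
      exact le_trans h3 h8
    have h9 : |c| * ‖A δ‖ * ‖A δ‖ ≤ 1 / 2 * ‖A δ‖ :=
      mul_le_mul_of_nonneg_right h5 (norm_nonneg _)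
    linarith
  have haA : a =O[𝓕] A := by
    rw [isBigO_pi]
    intro i
    have e : (fun δ => a δ i) = fun δ => (a δ i - ∑ j, L i j * A δ j) + ∑ j, L i j * A δ j := by
      funext δ; ring
    rw [e]
    refine IsBigO.add ?_ ?_
    · refine (h1 i).trans ?_
      refine IsBigO.of_bound 1 ?_
      filter_upwards [hA1] with δ hδ
      simp only [norm_pow, norm_norm, one_mul]
      have := pow_le_pow_of_le_one (norm_nonneg (A δ)) hδ (show 1 ≤ 2 by norm_num)
      simpa using this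
    · refine IsBigO.fun_sum fun j _ => IsBigO.const_mul_left ?_ _
      exact IsBigO.of_bound 1 (Eventually.of_forall fun δ => by
        simpa using norm_le_pi_norm (A δ) j)
  have ha : Tendsto a 𝓕 (𝓝 0) := haA.trans_tendsto hA
  have hApow : ∀ n : ℕ, (fun δ => ‖A δ‖ ^ n) =O[𝓕] fun δ => ‖a δ‖ ^ n := fun n =>
    hAa.norm_norm.pow n
  refine ⟨hAa, ha, ?_⟩
  intro M
  induction M with
  | zero =>
    refine ⟨linForm Linv, fun k => by simpa using ordGe_zero 2, fun k => ?_⟩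
    simp only [eval_linForm]
    exact (h2 k).trans (hApow 2)
  | succ M ih =>
    obtain ⟨Ψ, hΨ, hΨA⟩ := ih
    have hΨ1 : ∀ k, OrdGe 1 (Ψ k) := fun k => by
      have := ((hΨ k).mono (show 1 ≤ 2 by norm_num)).add (linForm_ordGe Linv k)
      simpa using this
    choose Q hQ0 hQ1 hQK using hchart (M + 2)
    have hR : ∀ i, OrdGe 2 (Q i - linForm L i) := fun i => ordGe_two_sub_linForm (hQ0 i) (hQ1 i)
    refine ⟨fun k => linForm Linv k - ∑ i, C (Linv k i) * bind₁ Ψ (Q i - linForm L i), ?_, ?_⟩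
    · intro k
      have := (OrdGe.sum (s := Finset.univ)
        (g := fun i => C (Linv k i) * bind₁ Ψ (Q i - linForm L i))
        (fun i _ => ((hR i).bind₁ hΨ1).C_mul _)).neg
      convert this using 1
      ring
    · intro k
      -- the point `Ψ(a)`
      set x : ι → Fin m → C' := fun δ j => eval (a δ) (Ψ j) with hx
      set ρ : ι → ℝ := fun δ => max ‖x δ‖ ‖A δ‖ with hρ
      have hxO : x =O[𝓕] a := by
        rw [isBigO_pi]
        intro j
        have := isBigO_eval_ordGe 𝓕 ha (hΨ1 j)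
        simp only [pow_one] at this
        exact this.trans (isBigO_refl _ _).norm_left
      have hx0 : Tendsto x 𝓕 (𝓝 0) := hxO.trans_tendsto ha
      have hρO : ρ =O[𝓕] a := by
        obtain ⟨c1, hc1⟩ := hxO.bound
        obtain ⟨c2, hc2⟩ := hAa.bound
        refine IsBigO.of_bound (max c1 c2) ?_
        filter_upwards [hc1, hc2] with δ h3 h4
        rw [Real.norm_of_nonneg (le_max_of_le_left (norm_nonneg _))]
        refine max_le ?_ ?_
        · exact h3.trans (mul_le_mul_of_nonneg_right (le_max_left _ _) (norm_nonneg _))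
        · exact h4.trans (mul_le_mul_of_nonneg_right (le_max_right _ _) (norm_nonneg _))
      have hρ1 : ∀ᶠ δ in 𝓕, ρ δ ≤ 1 := by
        filter_upwards [eventually_norm_le_one 𝓕 hx0, hA1] with δ h3 h4
        exact max_le h3 h4
      have hxA : (fun δ => x δ - A δ) =O[𝓕] fun δ => ‖a δ‖ ^ (M + 2) := by
        rw [isBigO_pi]
        intro j
        have := (hΨA j).neg_left
        refine this.congr_left fun δ => ?_
        simp [hx]
      have hlip : ∀ i, (fun δ => eval (x δ) (Q i - linForm L i) - eval (A δ) (Q i - linForm L i))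
          =O[𝓕] fun δ => ‖a δ‖ ^ (M + 3) := by
        intro i
        have h3 := isBigO_eval_sub_eval_ordGe_two 𝓕 (x := x) (y := A) (ρ := ρ)
          (Eventually.of_forall fun δ => le_max_left _ _)
          (Eventually.of_forall fun δ => le_max_right _ _) hρ1 (hR i)
        refine h3.trans ?_
        have h4 := hρO.norm_right.mul hxA.norm_left
        refine h4.trans ?_
        refine IsBigO.of_bound 1 (Eventually.of_forall fun δ => ?_)
        simp only [norm_mul, norm_pow, norm_norm, one_mul]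
        apply le_of_eq
        ring
      have hrem : ∀ i, (fun δ => a δ i - eval (A δ) (Q i)) =O[𝓕] fun δ => ‖a δ‖ ^ (M + 3) := by
        intro i
        obtain ⟨K, hK⟩ := hQK i
        exact (isBigO_of_eventually_le 𝓕 hK).trans (hApow _)
      have e : (fun δ => A δ k - eval (a δ)
          (linForm Linv k - ∑ i, C (Linv k i) * bind₁ Ψ (Q i - linForm L i))) =
          fun δ => ∑ i, Linv k i * ((eval (x δ) (Q i - linForm L i) - eval (A δ) (Q i - linForm L i))
            - (a δ i - eval (A δ) (Q i))) := by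
        funext δ
        rw [map_sub, eval_linForm, map_sum]
        simp only [map_mul, eval_C, eval_bind₁']
        have e2 : ∀ i, eval (A δ) (Q i - linForm L i) = eval (A δ) (Q i) - ∑ j, L i j * A δ j := by
          intro i
          rw [map_sub, eval_linForm]
        simp only [mul_sub, Finset.sum_sub_distrib, e2]
        rw [row_identity hinv (A δ) k]
        ring
      rw [e]
      exact IsBigO.fun_sum fun i _ => IsBigO.const_mul_left ((hlip i).sub (hrem i)) _

end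

end Crest.Agent.LT
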