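/-
S0351 package GERM: Frobenius-stable spaces of polynomials have rational points; finiteness of
rational polynomials of bounded degree; König's lemma for truncations.
-/
import Crest.Agent.LT.Abstract.GermAux

set_option autoImplicit false

namespace Crest.Agent.LT

noncomputable section

open MvPolynomial

/-- Minimal support argument. `S` is a subspace of polynomials stable under coefficientwise `ρ`.
If a truncation of some element does not vanish, the same holds for a `ρ`-fixed element. -/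
theorem exists_rational_of_stable {K σ : Type*} [Field K] (ρ : K →+* K)
    (S : Set (MvPolynomial σ K))
    (hsub : ∀ T T', T ∈ S → T' ∈ S → T - T' ∈ S)
    (hsmul : ∀ (c : K) T, T ∈ S → c • T ∈ S)
    (hmap : ∀ T, T ∈ S → map ρ T ∈ S)
    (d : ℕ) (T₀ : MvPolynomial σ K) (hT₀ : T₀ ∈ S) (hT₀d : polyTrunc d T₀ ≠ 0) :
    ∃ R ∈ S, polyTrunc d R ≠ 0 ∧ ∀ α, ρ (coeff α R) = coeff α R := by
  classical
  have hex : ∃ n, ∃ T ∈ S, polyTrunc d T ≠ 0 ∧ T.support.card = n := ⟨_, T₀, hT₀, hT₀d, rfl⟩
  obtain ⟨T, hTS, hTd, hTn⟩ := Nat.find_spec hex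
  have hmin : ∀ T' ∈ S, polyTrunc d T' ≠ 0 → T.support.card ≤ T'.support.card := by
    intro T' h1 h2
    rw [hTn]
    by_contra hc
    exact Nat.find_min hex (not_le.mp hc) ⟨T', h1, h2, rfl⟩
  -- a coordinate in the truncation
  obtain ⟨i, hi⟩ : ∃ i, coeff i (polyTrunc d T) ≠ 0 := by
    by_contra hc
    push Not at hc
    exact hTd (MvPolynomial.ext _ _ (by simpa using hc))
  rw [coeff_polyTrunc] at hi
  have hideg : i.degree ≤ d := by
    by_contra hc
    simp [hc] at hi
  rw [if_pos hideg] at hi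
  -- normalise
  obtain ⟨T₁, hT₁⟩ : ∃ x, x = (coeff i T)⁻¹ • T := ⟨_, rfl⟩
  have hT₁S : T₁ ∈ S := hT₁ ▸ hsmul _ _ hTS
  have hT₁i : coeff i T₁ = 1 := by
    rw [hT₁, coeff_smul, smul_eq_mul, inv_mul_cancel₀ hi]
  have hT₁d : polyTrunc d T₁ ≠ 0 := by
    intro h0
    have := congrArg (coeff i) h0
    rw [coeff_polyTrunc, if_pos hideg, hT₁i, coeff_zero] at this
    exact one_ne_zero this
  have hT₁supp : T₁.support = T.support := by
    rw [hT₁]
    exact MvPolynomial.support_smul_eq (inv_ne_zero hi) T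
  obtain ⟨w, hw⟩ : ∃ x, x = T₁ - map ρ T₁ := ⟨_, rfl⟩
  have hwS : w ∈ S := hw ▸ hsub _ _ hT₁S (hmap _ hT₁S)
  have hwsupp : w.support ⊆ T₁.support := by
    intro α hα
    rw [mem_support_iff] at hα ⊢
    intro h0
    apply hα
    rw [hw, coeff_sub, coeff_map, h0, map_zero, sub_zero]
  have hwi : coeff i w = 0 := by
    rw [hw, coeff_sub, coeff_map, hT₁i, map_one, sub_self]
  have hisupp : i ∈ T₁.support := by
    rw [mem_support_iff, hT₁i]
    exact one_ne_zero
  have hw0 : w = 0 := by
    by_contra hwne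
    by_cases hwd : polyTrunc d w = 0
    · -- kill a coordinate of `w`
      obtain ⟨j, hj⟩ : ∃ j, coeff j w ≠ 0 := by
        by_contra hc
        push Not at hc
        exact hwne (MvPolynomial.ext _ _ (by simpa using hc))
      have hjsupp : j ∈ T₁.support := hwsupp (mem_support_iff.mpr hj)
      obtain ⟨c, hc⟩ : ∃ x, x = coeff j T₁ / coeff j w := ⟨_, rfl⟩
      obtain ⟨T₂, hT₂⟩ : ∃ x, x = T₁ - c • w := ⟨_, rfl⟩
      have hT₂S : T₂ ∈ S := hT₂ ▸ hsub _ _ hT₁S (hsmul _ _ hwS)
      have hT₂d : polyTrunc d T₂ ≠ 0 := by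
        intro h0
        apply hT₁d
        have e : T₁ = T₂ + c • w := by rw [hT₂]; ring
        rw [e, polyTrunc_add, polyTrunc_smul, h0, hwd]
        simp
      have hT₂j : coeff j T₂ = 0 := by
        rw [hT₂, coeff_sub, coeff_smul, smul_eq_mul, hc, div_mul_cancel₀ _ hj, sub_self]
      have hlt : T₂.support.card < T.support.card := by
        rw [← hT₁supp]
        apply Finset.card_lt_card
        refine ⟨?_, fun hss => ?_⟩
        · intro α hα
          rw [mem_support_iff] at hα ⊢
          intro h0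
          apply hα
          have h5 : coeff α w = 0 := by
            by_contra h6
            have := hwsupp (mem_support_iff.mpr h6)
            exact (mem_support_iff.mp this) h0
          rw [hT₂, coeff_sub, coeff_smul, h0, h5]
          simp
        · have := hss hjsupp
          exact (mem_support_iff.mp this) hT₂j
      exact absurd (hmin _ hT₂S hT₂d) (not_le.mpr hlt)
    · have hlt : w.support.card < T.support.card := by
        rw [← hT₁supp]
        apply Finset.card_lt_card
        refine ⟨hwsupp, fun hss => ?_⟩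
        have := hss hisupp
        exact (mem_support_iff.mp this) hwi
      exact absurd (hmin _ hwS hwd) (not_le.mpr hlt)
  refine ⟨T₁, hT₁S, hT₁d, fun α => ?_⟩
  have := congrArg (coeff α) hw0
  rw [hw, coeff_sub, coeff_map, coeff_zero, sub_eq_zero] at this
  exact this.symm

/-- Polynomials of bounded degree with coefficients in a finite set form a finite set. -/
theorem finite_polys_of_coeffs {K : Type*} [CommSemiring K] {m : ℕ} (Φ : Set K) (hΦ : Φ.Finite)
    (e : ℕ) :
    {R : MvPolynomial (Fin m) K | R.totalDegree ≤ e ∧ ∀ α, coeff α R ∈ Φ}.Finite := by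
  classical
  have hD : {α : Fin m →₀ ℕ | α.degree ≤ e}.Finite := Finsupp.finite_of_degree_le e
  let _ : Fintype ↥{α : Fin m →₀ ℕ | α.degree ≤ e} := hD.fintype
  refine Set.Finite.of_injOn
    (f := fun R => fun α : ↥{α : Fin m →₀ ℕ | α.degree ≤ e} => coeff α.1 R)
    (t := {u | ∀ α, u α ∈ Φ}) ?_ ?_ (Set.Finite.pi' fun _ => hΦ)
  · intro R hR α
    exact hR.2 _
  · intro R hR R' hR' hEq
    ext α
    by_cases hα : α.degree ≤ e
    · exact congrFun hEq ⟨α, hα⟩
    · have h1 : coeff α R = 0 := by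
        by_contra hc
        exact hα (degree_le_of_totalDegree hR.1 hc)
      have h2 : coeff α R' = 0 := by
        by_contra hc
        exact hα (degree_le_of_totalDegree hR'.1 hc)
      rw [h1, h2]

open CategoryTheory in
/-- König's lemma for truncations. `𝓛 j` are finite, nonempty, and truncation maps `𝓛 j'` to `𝓛 j`
for `j ≤ j'`. -/
theorem exists_compatible_family {K : Type} [CommSemiring K] {m : ℕ} (d : ℕ)
    (𝓛 : ℕ → Set (MvPolynomial (Fin m) K))
    (hfin : ∀ j, (𝓛 j).Finite) (hne : ∀ j, (𝓛 j).Nonempty)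
    (hdeg : ∀ j, ∀ R ∈ 𝓛 j, R.totalDegree ≤ d + j)
    (hmap : ∀ j j', j ≤ j' → ∀ R ∈ 𝓛 j', polyTrunc (d + j) R ∈ 𝓛 j) :
    ∃ Rf : ℕ → MvPolynomial (Fin m) K, (∀ j, Rf j ∈ 𝓛 j) ∧
      ∀ j j', j ≤ j' → polyTrunc (d + j) (Rf j') = Rf j := by
  let F : ℕᵒᵖ ⥤ Type := {
    obj := fun j => ↥(𝓛 j.unop)
    map := fun {j j'} f => TypeCat.ofHom fun x =>
      ⟨polyTrunc (d + j'.unop) x.1, hmap _ _ (CategoryTheory.leOfHom f.unop) _ x.2⟩
    map_id := by
      intro j
      ext x e
      exact congrArg (coeff e) (polyTrunc_eq_self (hdeg _ _ x.2))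
    map_comp := by
      intro j j' j'' f g
      ext x e
      have h1 : d + j''.unop ≤ d + j'.unop := by
        have := CategoryTheory.leOfHom g.unop
        omega
      exact congrArg (coeff e) (polyTrunc_polyTrunc h1 x.1).symm }
  have : ∀ j : ℕᵒᵖ, Finite (F.obj j) := fun j => (hfin j.unop).to_subtype
  have : ∀ j : ℕᵒᵖ, Nonempty (F.obj j) := fun j => (hne j.unop).to_subtype
  obtain ⟨s, hs⟩ := nonempty_sections_of_finite_inverse_system F
  refine ⟨fun j => (s (Opposite.op j)).1, fun j => (s (Opposite.op j)).2, fun j j' hjj' => ?_⟩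
  have := @hs (Opposite.op j') (Opposite.op j) (CategoryTheory.homOfLE hjj').op
  exact congrArg Subtype.val this

/-- Taking roots in exponent: `u^(P^t) ≤ K v^(P^t)` for all large `t` implies `u ≤ v`. -/
theorem le_of_pow_le_mul_pow {u v K : ℝ} (hv : 0 ≤ v) {P : ℕ} (hP : 2 ≤ P) (t₀ : ℕ)
    (h : ∀ t, t₀ ≤ t → u ^ (P ^ t) ≤ K * v ^ (P ^ t)) : u ≤ v := by
  by_contra hc
  have hvu : v < u := not_le.mp hc
  have hu0 : 0 < u := lt_of_le_of_lt hv hvu
  rcases eq_or_lt_of_le hv with hv0 | hv0
  · have h1 := h (t₀) le_rfl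
    rw [← hv0, zero_pow (by positivity), mul_zero] at h1
    have : 0 < u ^ (P ^ t₀) := by positivity
    linarith
  · have hq : 1 < u / v := (one_lt_div hv0).mpr hvu
    have htend := tendsto_pow_atTop_atTop_of_one_lt hq
    obtain ⟨t, ht1, ht2⟩ := ((htend.eventually_gt_atTop K).and (Filter.eventually_ge_atTop t₀)).exists
    have h1 := h t ht2
    have hlt : t < P ^ t := Nat.lt_pow_self (by omega)
    have h2 : (u / v) ^ t ≤ (u / v) ^ (P ^ t) := pow_le_pow_right₀ hq.le hlt.le
    have h3 : (u / v) ^ (P ^ t) ≤ K := by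
      rw [div_pow, div_le_iff₀ (by positivity)]
      exact h1
    linarith

end

end Crest.Agent.LT
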