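/-
S0351 package GERM (abstract valued algebra; no formal groups):
`transfer_lemma`: asymptotic chart + vanishing ⟹ germ polynomials with fixed leading form.
`germ_to_relation`: germ polynomials ⟹ rational power series vanishing exactly.
See BLUEPRINT.md §G.
-/
import Crest.Agent.LT.Eval
import Crest.Agent.LT.Abstract.GermInv
import Crest.Agent.LT.Abstract.GermRat

set_option autoImplicit false

namespace Crest.Agent.LT

noncomputable section

open Asymptotics

set_option linter.unusedSectionVars false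

variable {C : Type} [NontriviallyNormedField C] [IsUltrametricDist C] [CompleteSpace C]

/-- A polynomial over `𝒪_C`, seen as a power series, evaluates as a polynomial. -/
theorem evMv_coe_polynomial {m : ℕ} (p : MvPolynomial (Fin m) (OC C)) (x : Fin m → C)
    (hx : ∀ i, ‖x i‖ < 1) :
    evMv (p : MvPowerSeries (Fin m) (OC C)) x =
      MvPolynomial.eval x (MvPolynomial.map (algebraMap (OC C) C) p) := by
  have key : ((OC C).subtype.comp ((evHom x hx).comp
      (MvPolynomial.coeToMvPowerSeries.ringHom (σ := Fin m) (R := OC C)))) =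
      (MvPolynomial.eval x).comp (MvPolynomial.map (algebraMap (OC C) C)) := by
    apply MvPolynomial.ringHom_ext
    · intro c
      simp only [RingHom.comp_apply, MvPolynomial.coeToMvPowerSeries.ringHom_apply,
        MvPolynomial.coe_C, Subring.subtype_apply, MvPolynomial.map_C, MvPolynomial.eval_C]
      rw [coe_evHom, evMv_C x hx]
      rfl
    · intro i
      simp only [RingHom.comp_apply, MvPolynomial.coeToMvPowerSeries.ringHom_apply,
        MvPolynomial.coe_X, Subring.subtype_apply, MvPolynomial.map_X, MvPolynomial.eval_X]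
      rw [coe_evHom, evMv_X x hx]
  have := RingHom.congr_fun key p
  simp only [RingHom.comp_apply, MvPolynomial.coeToMvPowerSeries.ringHom_apply,
    Subring.subtype_apply] at this
  rw [coe_evHom] at this
  exact this

/-- Tail bound for evaluation. -/
theorem germ_norm_evMv_sub_trunc_le {m : ℕ} (f : MvPowerSeries (Fin m) (OC C)) (N : ℕ) (x : Fin m → C)
    (hx : ‖x‖ < 1) :
    ‖evMv f x - MvPolynomial.eval x (MvPolynomial.map (algebraMap (OC C) C) (seriesTrunc N f))‖ ≤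
      ‖x‖ ^ (N + 1) := by
  have hx' : ∀ i, ‖x i‖ < 1 := fun i => (norm_le_pi_norm x i).trans_lt hx
  set g : MvPowerSeries (Fin m) (OC C) :=
    f - ((seriesTrunc N f : MvPolynomial (Fin m) (OC C)) : MvPowerSeries (Fin m) (OC C)) with hgdef
  have hg : ∀ d : Fin m →₀ ℕ, d.degree < N + 1 → MvPowerSeries.coeff d g = 0 := by
    intro d hd
    rw [hgdef, map_sub, MvPolynomial.coeff_coe, coeff_seriesTrunc, if_pos (by omega), sub_self]
  have h1 := norm_evMv_le_of_order g (N + 1) hg x ‖x‖ hx (norm_nonneg _)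
    (fun i => norm_le_pi_norm x i)
  have e : evMv g x = evMv f x -
      MvPolynomial.eval x (MvPolynomial.map (algebraMap (OC C) C) (seriesTrunc N f)) := by
    rw [← evMv_coe_polynomial _ x hx', ← coe_evHom x hx', ← coe_evHom x hx', ← coe_evHom x hx',
      hgdef, map_sub]
    rfl
  rwa [e] at h1

/-- **Transfer.** `A δ → 0` along `𝓕`; each `a δ i` has, for every `N`, a polynomial approximation
`Q` in `A δ` with error `O(‖A δ‖^(N+1))`, constant term `0` and linear part the `i`-th row of an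
invertible matrix `L`; `f` is a nonzero bounded series vanishing at all `A δ`. Then there are a
degree `d` and a nonzero polynomial `Q` such that for all `N ≥ d` there is a polynomial `P` of
degree `≤ N`, with `polyTrunc d P = Q` and `‖P(a δ)‖ ≤ K ‖a δ‖^(N+1)` eventually.

Paper proof: `d = ord f`, `f_d` lowest form, `Q = f_d ∘ L⁻¹`. First `|A| ≍ |a|`.
By induction on `M ≤ N`, each coordinate `A_k` is `Ψ_M(a) + O(|a|^(M+1))`, `Ψ_M` polynomial with
linear part `L⁻¹`: from `a = L A + R(A) + O(|A|^(M+1))`, `R` polynomial of order `≥ 2`,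
`A = L⁻¹(a - R(A)) + O(|a|^(M+1))`, substitute `Ψ_{M-1}` in `R`.
Then `0 = f(A) = ∑_{|α|≤N} f_α A^α + O(|a|^(N+1)) = ∑_{|α|≤N} f_α Ψ_N(a)^α + O(|a|^(N+1))`,
let `P` be its truncation at degree `N`. -/
theorem transfer_lemma {ι : Type*} (𝓕 : Filter ι) [𝓕.NeBot] {m : ℕ}
    (a A : ι → Fin m → C) (hA : Filter.Tendsto A 𝓕 (nhds 0))
    (L : Matrix (Fin m) (Fin m) C) (hL : IsUnit L.det)
    (hchart : ∀ (N : ℕ) (i : Fin m), ∃ Q : MvPolynomial (Fin m) C,
      MvPolynomial.coeff 0 Q = 0 ∧ (∀ j, MvPolynomial.coeff (Finsupp.single j 1) Q = L i j) ∧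
      ∃ K : ℝ, ∀ᶠ δ in 𝓕, ‖a δ i - MvPolynomial.eval (A δ) Q‖ ≤ K * ‖A δ‖ ^ (N + 1))
    (f : MvPowerSeries (Fin m) (OC C)) (hf : f ≠ 0) (hvan : ∀ᶠ δ in 𝓕, evMv f (A δ) = 0) :
    ∃ (d : ℕ) (Q : MvPolynomial (Fin m) C), Q ≠ 0 ∧ ∀ N, d ≤ N →
      ∃ P : MvPolynomial (Fin m) C, P.totalDegree ≤ N ∧ polyTrunc d P = Q ∧
        ∃ K : ℝ, ∀ᶠ δ in 𝓕, ‖MvPolynomial.eval (a δ) P‖ ≤ K * ‖a δ‖ ^ (N + 1) := by
  classical
  have hinv : L⁻¹ * L = 1 := Matrix.nonsing_inv_mul L hL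
  obtain ⟨hAa, ha, hinvert⟩ := exists_inversion 𝓕 a A hA L L⁻¹ hinv hchart
  have hApow : ∀ n : ℕ, (fun δ => ‖A δ‖ ^ n) =O[𝓕] fun δ => ‖a δ‖ ^ n := fun n =>
    hAa.norm_norm.pow n
  -- the order of `f`
  have hex : ∃ n, ∃ e : Fin m →₀ ℕ, e.degree = n ∧ MvPowerSeries.coeff e f ≠ 0 := by
    by_contra hc
    push Not at hc
    apply hf
    ext e
    simpa using hc _ e rfl
  set d := Nat.find hex with hd
  obtain ⟨e₀, he₀, hne₀⟩ := Nat.find_spec hex
  have hmin : ∀ e : Fin m →₀ ℕ, e.degree < d → MvPowerSeries.coeff e f = 0 := by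
    intro e he
    by_contra hc
    exact Nat.find_min hex he ⟨e, rfl, hc⟩
  set tr : ℕ → MvPolynomial (Fin m) C := fun N =>
    MvPolynomial.map (algebraMap (OC C) C) (seriesTrunc N f) with htr
  have coeff_tr : ∀ N (e : Fin m →₀ ℕ), MvPolynomial.coeff e (tr N) =
      if e.degree ≤ N then ((MvPowerSeries.coeff e f : OC C) : C) else 0 := by
    intro N e
    simp only [htr, MvPolynomial.coeff_map, coeff_seriesTrunc]
    split_ifs
    · rfl
    · exact map_zero _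
  have htrd : ∀ N, OrdGe d (tr N) := by
    intro N e he
    rw [coeff_tr, hmin e he]
    simp
  have htrsub : ∀ N, d ≤ N → OrdGe (d + 1) (tr N - tr d) := by
    intro N hN e he
    rw [MvPolynomial.coeff_sub, coeff_tr, coeff_tr, if_pos (by omega), if_pos (by omega), sub_self]
  have htr_not : ¬ OrdGe (d + 1) (tr d) := by
    intro h
    have := h e₀ (by omega)
    rw [coeff_tr, if_pos (by omega)] at this
    exact hne₀ (Subtype.ext this)
  set H : MvPolynomial (Fin m) C := MvPolynomial.bind₁ (linForm L⁻¹) (tr d) with hH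
  refine ⟨d, polyTrunc d H, ?_, ?_⟩
  · intro hQ0
    apply htr_not
    have h1 := polyTrunc_sub_ordGe d H
    rw [hQ0, sub_zero] at h1
    have h2 := h1.bind₁ (linForm_ordGe L)
    rwa [hH, bind₁_linForm_comp L L⁻¹ hinv] at h2
  · intro N hN
    obtain ⟨Ψ, hΨ, hΨA⟩ := hinvert N
    have hΨ1 : ∀ k, OrdGe 1 (Ψ k) := fun k => by
      have := ((hΨ k).mono (show 1 ≤ 2 by norm_num)).add (linForm_ordGe L⁻¹ k)
      simpa using this
    set G := MvPolynomial.bind₁ Ψ (tr N) with hG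
    refine ⟨polyTrunc N G, totalDegree_polyTrunc_le _ _, ?_, ?_⟩
    · rw [polyTrunc_polyTrunc hN]
      apply polyTrunc_eq_of_ordGe_sub
      have e : G - H = MvPolynomial.bind₁ Ψ (tr N - tr d) +
          (MvPolynomial.bind₁ Ψ (tr d) - MvPolynomial.bind₁ (linForm L⁻¹) (tr d)) := by
        rw [hG, hH, map_sub]
        ring
      rw [e]
      exact OrdGe.add ((htrsub N hN).bind₁ hΨ1)
        ((htrd d).bind₁_sub hΨ1 (linForm_ordGe L⁻¹) hΨ)
    · set x : ι → Fin m → C := fun δ j => MvPolynomial.eval (a δ) (Ψ j) with hx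
      have hxO : x =O[𝓕] a := by
        rw [isBigO_pi]
        intro j
        have := isBigO_eval_ordGe 𝓕 ha (hΨ1 j)
        simp only [pow_one] at this
        exact this.trans (isBigO_refl _ _).norm_left
      have hx0 : Filter.Tendsto x 𝓕 (nhds 0) := hxO.trans_tendsto ha
      have hxA : (fun δ => x δ - A δ) =O[𝓕] fun δ => ‖a δ‖ ^ (N + 2) := by
        rw [isBigO_pi]
        intro j
        have := (hΨA j).neg_left
        refine this.congr_left fun δ => ?_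
        simp [hx]
      have h1 : (fun δ => MvPolynomial.eval (x δ) (tr N) - MvPolynomial.eval (A δ) (tr N))
          =O[𝓕] fun δ => ‖a δ‖ ^ (N + 1) :=
        (isBigO_eval_sub_eval 𝓕 (eventually_norm_le_one 𝓕 hx0) (eventually_norm_le_one 𝓕 hA)
          (tr N)).trans (hxA.trans (isBigO_pow_of_le 𝓕 ha (by omega)))
      have h2 : (fun δ => MvPolynomial.eval (A δ) (tr N)) =O[𝓕] fun δ => ‖a δ‖ ^ (N + 1) := by
        refine IsBigO.trans ?_ (hApow _)
        refine isBigO_of_eventually_le 𝓕 (K := 1) ?_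
        have hlt : ∀ᶠ δ in 𝓕, ‖A δ‖ < 1 :=
          (tendsto_zero_iff_norm_tendsto_zero.mp hA).eventually_lt_const zero_lt_one
        filter_upwards [hvan, hlt] with δ h3 h4
        have := germ_norm_evMv_sub_trunc_le f N (A δ) h4
        rw [h3, zero_sub, norm_neg] at this
        linarith
      have h3 : (fun δ => MvPolynomial.eval (a δ) (G - polyTrunc N G)) =O[𝓕]
          fun δ => ‖a δ‖ ^ (N + 1) :=
        isBigO_eval_ordGe 𝓕 ha (polyTrunc_sub_ordGe N G)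
      have h4 : (fun δ => MvPolynomial.eval (a δ) (polyTrunc N G)) =O[𝓕]
          fun δ => ‖a δ‖ ^ (N + 1) := by
        have e : (fun δ => MvPolynomial.eval (a δ) (polyTrunc N G)) = fun δ =>
            (MvPolynomial.eval (x δ) (tr N) - MvPolynomial.eval (A δ) (tr N)) +
              MvPolynomial.eval (A δ) (tr N) -
              MvPolynomial.eval (a δ) (G - polyTrunc N G) := by
          funext δ
          rw [map_sub, hG, eval_bind₁']
          ring
        rw [e]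
        exact (h1.add h2).sub h3
      obtain ⟨K, hK⟩ := h4.bound
      refine ⟨K, ?_⟩
      filter_upwards [hK] with δ hδ
      simpa using hδ

section Rational

variable {P : ℕ} (hP : 2 ≤ P)

/-- `P`-rational element (in `𝔽_P ⊂ C`). -/
abbrev IsRat (P : ℕ) (x : C) : Prop := x ^ P = x

/-- Coordinatewise `P`-th power. -/
def frobVec {m : ℕ} (P : ℕ) (a : Fin m → C) : Fin m → C := fun i => a i ^ P

theorem frobVec_iterate_mem {m P : ℕ} {𝔸 : Set (Fin m → C)}
    (hfrob : ∀ a ∈ 𝔸, frobVec P a ∈ 𝔸) (t : ℕ) {a : Fin m → C} (ha : a ∈ 𝔸) :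
    (frobVec P)^[t] a ∈ 𝔸 := by
  induction t with
  | zero => simpa using ha
  | succ t ih =>
    rw [Function.iterate_succ_apply']
    exact hfrob _ ih

theorem norm_frobVec_le {m P : ℕ} (x : Fin m → C) : ‖frobVec P x‖ ≤ ‖x‖ ^ P := by
  refine (pi_norm_le_iff_of_nonneg (by positivity)).mpr fun i => ?_
  simp only [frobVec, norm_pow]
  exact pow_le_pow_left₀ (norm_nonneg _) (norm_le_pi_norm x i) _

theorem norm_le_one_of_isRat {P : ℕ} (hP : 2 ≤ P) {x : C} (hx : IsRat P x) : ‖x‖ ≤ 1 := by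
  by_contra hc
  have h1 : 1 < ‖x‖ := not_le.mp hc
  have h2 : ‖x‖ ^ P = ‖x‖ := by rw [← norm_pow, hx]
  have h3 : ‖x‖ ^ 1 < ‖x‖ ^ P := pow_lt_pow_right₀ h1 (by omega)
  rw [pow_one, h2] at h3
  exact lt_irrefl _ h3

/-- The space `T_N` of the paper proof. -/
def TN {m : ℕ} (𝔸 : Set (Fin m → C)) (P N : ℕ) : Set (MvPolynomial (Fin m) C) :=
  {T | T.totalDegree ≤ N ∧ ∃ (K : ℝ) (t : ℕ), ∀ a ∈ 𝔸,
    ‖MvPolynomial.eval ((frobVec P)^[t] a) T‖ ≤ K * ‖(frobVec P)^[t] a‖ ^ (N + 1)}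

theorem TN_bound_mono {m P N : ℕ} {𝔸 : Set (Fin m → C)} (hfrob : ∀ a ∈ 𝔸, frobVec P a ∈ 𝔸)
    {T : MvPolynomial (Fin m) C} {K : ℝ} {t t' : ℕ}
    (h : ∀ a ∈ 𝔸, ‖MvPolynomial.eval ((frobVec P)^[t] a) T‖ ≤ K * ‖(frobVec P)^[t] a‖ ^ (N + 1))
    (htt' : t ≤ t') :
    ∀ a ∈ 𝔸, ‖MvPolynomial.eval ((frobVec P)^[t'] a) T‖ ≤ K * ‖(frobVec P)^[t'] a‖ ^ (N + 1) := by
  intro a ha
  obtain ⟨s, rfl⟩ := Nat.exists_eq_add_of_le htt'
  rw [Function.iterate_add_apply]
  exact h _ (frobVec_iterate_mem hfrob s ha)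

theorem TN_sub {m P N : ℕ} {𝔸 : Set (Fin m → C)} (hfrob : ∀ a ∈ 𝔸, frobVec P a ∈ 𝔸)
    (T T' : MvPolynomial (Fin m) C) (hT : T ∈ TN 𝔸 P N) (hT' : T' ∈ TN 𝔸 P N) :
    T - T' ∈ TN 𝔸 P N := by
  obtain ⟨h1, K, t, hK⟩ := hT
  obtain ⟨h2, K', t', hK'⟩ := hT'
  refine ⟨(MvPolynomial.totalDegree_sub T T').trans (max_le h1 h2), K + K', max t t', ?_⟩
  intro a ha
  have h3 := TN_bound_mono hfrob hK (le_max_left t t') a ha
  have h4 := TN_bound_mono hfrob hK' (le_max_right t t') a ha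
  rw [map_sub]
  refine (norm_sub_le _ _).trans ?_
  rw [add_mul]
  exact add_le_add h3 h4

theorem TN_smul {m P N : ℕ} {𝔸 : Set (Fin m → C)} (c : C)
    (T : MvPolynomial (Fin m) C) (hT : T ∈ TN 𝔸 P N) : c • T ∈ TN 𝔸 P N := by
  obtain ⟨h1, K, t, hK⟩ := hT
  refine ⟨(MvPolynomial.totalDegree_smul_le c T).trans h1, ‖c‖ * K, t, ?_⟩
  intro a ha
  rw [MvPolynomial.smul_eval, norm_mul, mul_assoc]
  exact mul_le_mul_of_nonneg_left (hK a ha) (norm_nonneg _)

theorem frob_eval_map_symm {m : ℕ} (φ : C ≃+* C) (x : Fin m → C) (T : MvPolynomial (Fin m) C) :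
    φ (MvPolynomial.eval x (MvPolynomial.map (φ.symm : C →+* C) T)) =
      MvPolynomial.eval (fun i => φ (x i)) T := by
  induction T using MvPolynomial.induction_on with
  | C c => simp
  | add p q hp hq => rw [map_add, map_add, map_add, map_add, hp, hq]
  | mul_X p i hp =>
    rw [map_mul, map_mul, map_mul, map_mul, hp, MvPolynomial.map_X, MvPolynomial.eval_X,
      MvPolynomial.eval_X]

theorem le_mul_of_pow_le_mul_pow {u v K : ℝ} (hv : 0 ≤ v) (hK : 1 ≤ K) {P : ℕ} (hP : 1 ≤ P)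
    (h : u ^ P ≤ K * v ^ P) : u ≤ K * v := by
  by_contra hc
  have h1 : K * v < u := not_le.mp hc
  have h2 : (K * v) ^ P < u ^ P := pow_lt_pow_left₀ h1 (by positivity) (by omega)
  have h3 : K ≤ K ^ P := le_self_pow₀ hK (by omega)
  have h4 : K * v ^ P ≤ K ^ P * v ^ P := mul_le_mul_of_nonneg_right h3 (by positivity)
  rw [mul_pow] at h2
  linarith

theorem TN_root (p h : ℕ) [Fact p.Prime] [CharP C p] [IsAlgClosed C] (hh : 1 ≤ p ^ h) {m N : ℕ}
    {𝔸 : Set (Fin m → C)} (hfrob : ∀ a ∈ 𝔸, frobVec (p ^ h) a ∈ 𝔸)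
    (T : MvPolynomial (Fin m) C) (hT : T ∈ TN 𝔸 (p ^ h) N) :
    MvPolynomial.map ((iterateFrobeniusEquiv C p h).symm : C →+* C) T ∈ TN 𝔸 (p ^ h) N := by
  obtain ⟨h1, K, t, hK⟩ := hT
  refine ⟨?_, max K 1, t, ?_⟩
  · apply totalDegree_le_of_degree
    intro d hd
    rw [MvPolynomial.coeff_map] at hd
    apply degree_le_of_totalDegree h1
    intro h0
    rw [h0, map_zero] at hd
    exact hd rfl
  · intro a ha
    set σ := frobVec (C := C) (m := m) (p ^ h) with hσ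
    set x := σ^[t] a with hx
    have e1 : σ^[t] (σ a) = σ x := by
      rw [hx, ← Function.iterate_succ_apply, Function.iterate_succ_apply']
    have h2 := hK (σ a) (hfrob a ha)
    rw [e1] at h2
    have h3 : ‖MvPolynomial.eval x (MvPolynomial.map
        ((iterateFrobeniusEquiv C p h).symm : C →+* C) T)‖ ^ (p ^ h) =
        ‖MvPolynomial.eval (σ x) T‖ := by
      rw [← norm_pow]
      have := frob_eval_map_symm (iterateFrobeniusEquiv C p h) x T
      simp only [iterateFrobeniusEquiv_def] at this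
      rw [this]
      rfl
    have h4 : ‖σ x‖ ^ (N + 1) ≤ (‖x‖ ^ (N + 1)) ^ (p ^ h) := by
      rw [← pow_mul, mul_comm, pow_mul]
      exact pow_le_pow_left₀ (norm_nonneg _) (norm_frobVec_le x) _
    have hK1 : (1 : ℝ) ≤ max K 1 := le_max_right _ _
    refine le_mul_of_pow_le_mul_pow (by positivity) hK1 hh ?_
    rw [h3]
    calc ‖MvPolynomial.eval (σ x) T‖ ≤ K * ‖σ x‖ ^ (N + 1) := h2
      _ ≤ max K 1 * ‖σ x‖ ^ (N + 1) :=
          mul_le_mul_of_nonneg_right (le_max_left _ _) (by positivity)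
      _ ≤ max K 1 * (‖x‖ ^ (N + 1)) ^ (p ^ h) :=
          mul_le_mul_of_nonneg_left h4 (by positivity)

theorem TN_trunc {m P : ℕ} {𝔸 : Set (Fin m → C)} (hfrob : ∀ a ∈ 𝔸, frobVec P a ∈ 𝔸)
    (h𝔸 : ∀ a ∈ 𝔸, ‖a‖ ≤ 1) {N N' : ℕ} (hNN' : N ≤ N') {T : MvPolynomial (Fin m) C}
    (hT : T ∈ TN 𝔸 P N') : polyTrunc N T ∈ TN 𝔸 P N := by
  obtain ⟨_, K, t, hK⟩ := hT
  obtain ⟨K₂, hK₂0, hK₂⟩ := exists_bound_ordGe (polyTrunc_sub_ordGe N T)
  refine ⟨totalDegree_polyTrunc_le _ _, max K 0 + K₂, t, fun a ha => ?_⟩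
  set x := (frobVec P)^[t] a with hx
  have hx1 : ‖x‖ ≤ 1 := h𝔸 _ (frobVec_iterate_mem hfrob t ha)
  have h1 := hK a ha
  have h2 := hK₂ x hx1
  have e : MvPolynomial.eval x (polyTrunc N T) = MvPolynomial.eval x T -
      MvPolynomial.eval x (T - polyTrunc N T) := by
    rw [map_sub]; ring
  rw [e]
  refine (norm_sub_le _ _).trans ?_
  rw [add_mul]
  refine add_le_add ?_ h2
  calc ‖MvPolynomial.eval x T‖ ≤ K * ‖x‖ ^ (N' + 1) := h1
    _ ≤ max K 0 * ‖x‖ ^ (N' + 1) :=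
        mul_le_mul_of_nonneg_right (le_max_left _ _) (by positivity)
    _ ≤ max K 0 * ‖x‖ ^ (N + 1) :=
        mul_le_mul_of_nonneg_left (pow_le_pow_of_le_one (norm_nonneg _) hx1 (by omega))
          (le_max_right _ _)

/-- Rational series commute with Frobenius. -/
theorem evMv_frobVec (p h : ℕ) [Fact p.Prime] [CharP C p] {m : ℕ}
    (F : MvPowerSeries (Fin m) (OC C)) (hF : ∀ e, IsRat (p ^ h) (cf F e)) (x : Fin m → C)
    (hx : ∀ i, ‖x i‖ < 1) : evMv F (frobVec (p ^ h) x) = (evMv F x) ^ (p ^ h) := by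
  have hcont : Continuous (iterateFrobenius C p h) := by
    have : (iterateFrobenius C p h : C → C) = fun y => y ^ (p ^ h) := by
      funext y
      exact iterateFrobenius_def _ _ _
    rw [this]
    exact continuous_pow _
  have h1 := (summable_evMv F x hx).map_tsum (iterateFrobenius C p h) hcont
  rw [iterateFrobenius_def] at h1
  unfold evMv
  rw [h1]
  refine tsum_congr fun d => ?_
  rw [iterateFrobenius_def, mul_pow, hF d]
  congr 1
  unfold Finsupp.prod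
  rw [← Finset.prod_pow]
  refine Finset.prod_congr rfl fun i _ => ?_
  simp only [frobVec]
  rw [pow_right_comm]

theorem evMv_frobVec_iterate (p h : ℕ) [Fact p.Prime] [CharP C p] {m : ℕ}
    (F : MvPowerSeries (Fin m) (OC C)) (hF : ∀ e, IsRat (p ^ h) (cf F e)) {𝔸 : Set (Fin m → C)}
    (h𝔸 : ∀ a ∈ 𝔸, ∀ i, ‖a i‖ < 1) (hfrob : ∀ a ∈ 𝔸, frobVec (p ^ h) a ∈ 𝔸)
    {a : Fin m → C} (ha : a ∈ 𝔸) (t : ℕ) :
    evMv F ((frobVec (p ^ h))^[t] a) = (evMv F a) ^ ((p ^ h) ^ t) := by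
  induction t with
  | zero => simp
  | succ t ih =>
    rw [Function.iterate_succ_apply', evMv_frobVec p h F hF _
      (h𝔸 _ (frobVec_iterate_mem hfrob t ha)), ih, ← pow_mul, pow_succ]

theorem norm_frobVec_iterate_le {m P : ℕ} (x : Fin m → C) (t : ℕ) :
    ‖(frobVec P)^[t] x‖ ≤ ‖x‖ ^ (P ^ t) := by
  induction t with
  | zero => simp
  | succ t ih =>
    rw [Function.iterate_succ_apply']
    refine (norm_frobVec_le _).trans ?_
    rw [pow_succ, pow_mul]
    exact pow_le_pow_left₀ (norm_nonneg _) ih _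

/-- The root trick. -/
theorem evMv_eq_zero_of_bounds (p h : ℕ) [Fact p.Prime] [CharP C p] (hh : 1 ≤ h) {m : ℕ}
    {𝔸 : Set (Fin m → C)} {r : ℝ} (hr0 : 0 ≤ r) (hr : r < 1) (h𝔸 : ∀ a ∈ 𝔸, ∀ i, ‖a i‖ ≤ r)
    (hfrob : ∀ a ∈ 𝔸, frobVec (p ^ h) a ∈ 𝔸) (F : MvPowerSeries (Fin m) (OC C))
    (hF : ∀ e, IsRat (p ^ h) (cf F e))
    (hbd : ∀ N : ℕ, ∃ (K : ℝ) (t₀ : ℕ), ∀ t, t₀ ≤ t → ∀ a ∈ 𝔸,
      ‖evMv F ((frobVec (p ^ h))^[t] a)‖ ≤ K * ‖(frobVec (p ^ h))^[t] a‖ ^ (N + 1))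
    {a : Fin m → C} (ha : a ∈ 𝔸) : evMv F a = 0 := by
  have hP2 : 2 ≤ p ^ h := by
    have hp := (Fact.out : p.Prime).two_le
    calc 2 ≤ p ^ 1 := by simpa using hp
      _ ≤ p ^ h := Nat.pow_le_pow_right (by omega) hh
  have ha1 : ‖a‖ ≤ r := (pi_norm_le_iff_of_nonneg hr0).mpr (h𝔸 a ha)
  have key : ∀ N : ℕ, ‖evMv F a‖ ≤ r ^ (N + 1) := by
    intro N
    obtain ⟨K, t₀, hK⟩ := hbd N
    have h1 : ‖evMv F a‖ ≤ ‖a‖ ^ (N + 1) := by
      refine le_of_pow_le_mul_pow (K := max K 0) (by positivity) hP2 t₀ fun t ht => ?_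
      rw [← norm_pow, ← evMv_frobVec_iterate p h F hF
        (fun b hb i => (h𝔸 b hb i).trans_lt hr) hfrob ha t]
      refine (hK t ht a ha).trans ?_
      have h2 : ‖(frobVec (p ^ h))^[t] a‖ ^ (N + 1) ≤ (‖a‖ ^ (N + 1)) ^ ((p ^ h) ^ t) := by
        rw [← pow_mul, mul_comm, pow_mul]
        exact pow_le_pow_left₀ (norm_nonneg _) (norm_frobVec_iterate_le a t) _
      calc K * ‖(frobVec (p ^ h))^[t] a‖ ^ (N + 1)
          ≤ max K 0 * ‖(frobVec (p ^ h))^[t] a‖ ^ (N + 1) :=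
            mul_le_mul_of_nonneg_right (le_max_left _ _) (by positivity)
        _ ≤ max K 0 * (‖a‖ ^ (N + 1)) ^ ((p ^ h) ^ t) :=
            mul_le_mul_of_nonneg_left h2 (le_max_right _ _)
    exact h1.trans (pow_le_pow_left₀ (norm_nonneg _) ha1 _)
  have hlim : Filter.Tendsto (fun N : ℕ => r ^ (N + 1)) Filter.atTop (nhds 0) :=
    (tendsto_pow_atTop_nhds_zero_of_lt_one hr0 hr).comp (Filter.tendsto_add_atTop_nat 1)
  have h0 : ‖evMv F a‖ ≤ 0 := ge_of_tendsto' hlim key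
  exact norm_le_zero_iff.mp h0

/-- **Rationality + König + root trick.** `𝔸 ⊂ C^m`, `sup ‖a‖ < 1`, stable under coordinatewise
`P`-th powers (`P = p^h`, `CharP C p`, `C` perfect: here `IsAlgClosed`).
Let `T_N = {T polynomial of degree ≤ N : ∃ K t, ∀ a ∈ Frob^t 𝔸, ‖T(a)‖ ≤ K ‖a‖^(N+1)}`.
If `Q ≠ 0` lies in `polyTrunc d (T_N)` for all `N ≥ d`, there is a nonzero power series `F` with
`P`-rational coefficients, `F(a) = 0` for all `a ∈ 𝔸`.

Paper proof. (R) `T_N` is a `C`-subspace of a finite-dimensional space, stable under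
`σ⁻¹ :` coefficientwise `P`-th root: `|T^{σ⁻¹}(a)|^P = |T(a^P)| ≤ K |a^P|^(N+1)`. An injective semilinear
map has image a subspace of the same dimension, so `σ⁻¹ T_N = T_N`, whence `T_N` is spanned by rational
polynomials (reduced echelon form is `σ`-fixed, or minimal support). (I) `S_d^N = polyTrunc d T_N`, decreasing
in `N`, rational, stabilises to `S_d`; contains `Q`, so contains a nonzero rational `Q₀`.
Truncation `S_{N+1} → S_N` is surjective on rational points. Finite sets: rational polynomials of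
degree `≤ N` are finite (roots of `x^P - x`), König gives `F` rational with all truncations in `T_N`.
(V) For `a ∈ 𝔸` and all `N`, `t`: `|F(a)|^(P^t) = |F(a^(P^t))| ≤ K_N |a|^((N+1) P^t)` for large `t`,
roots: `|F(a)| ≤ K_N^(1/P^t) |a|^(N+1)`, `t → ∞`, then `N → ∞`: `F(a) = 0`.

The nonzero form `Q₀` (the `d`-truncation of `F`) lies in the stable space `S_d`; lemma FS uses
`d = 1` to obtain a rational series with nonzero rational linear part. -/
theorem germ_to_relation (p h : ℕ) [Fact p.Prime] [CharP C p] [IsAlgClosed C] (hh : 1 ≤ h) {m : ℕ}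
    (𝔸 : Set (Fin m → C)) (r : ℝ) (hr : r < 1) (h𝔸 : ∀ a ∈ 𝔸, ∀ i, ‖a i‖ ≤ r)
    (hfrob : ∀ a ∈ 𝔸, frobVec (p ^ h) a ∈ 𝔸)
    (d : ℕ) (Q : MvPolynomial (Fin m) C) (hQ : Q ≠ 0)
    (hT : ∀ N, d ≤ N → ∃ T : MvPolynomial (Fin m) C, T.totalDegree ≤ N ∧ polyTrunc d T = Q ∧
      ∃ (K : ℝ) (t : ℕ), ∀ a ∈ 𝔸, ‖MvPolynomial.eval ((frobVec (p ^ h))^[t] a) T‖ ≤
        K * ‖(frobVec (p ^ h))^[t] a‖ ^ (N + 1)) :
    ∃ F : MvPowerSeries (Fin m) (OC C), F ≠ 0 ∧ (∀ e, IsRat (p ^ h) (cf F e)) ∧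
      (∀ a ∈ 𝔸, evMv F a = 0) ∧
      (∃ Q₀ : MvPolynomial (Fin m) C, Q₀ ≠ 0 ∧ polyTrunc d (MvPolynomial.map (algebraMap (OC C) C)
        (seriesTrunc d F)) = Q₀ ∧ (∀ e, IsRat (p ^ h) (MvPolynomial.coeff e Q₀))) := by
  classical
  have hP2 : 2 ≤ p ^ h := by
    have hp := (Fact.out : p.Prime).two_le
    calc 2 ≤ p ^ 1 := by simpa using hp
      _ ≤ p ^ h := Nat.pow_le_pow_right (by omega) hh
  have hP1 : 1 ≤ p ^ h := by omega
  obtain ⟨r', hr'0, hr'1, h𝔸'⟩ : ∃ r' : ℝ, 0 ≤ r' ∧ r' < 1 ∧ ∀ a ∈ 𝔸, ∀ i, ‖a i‖ ≤ r' :=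
    ⟨max r 0, le_max_right _ _, max_lt hr one_pos,
      fun a ha i => (h𝔸 a ha i).trans (le_max_left _ _)⟩
  have h𝔸1 : ∀ a ∈ 𝔸, ‖a‖ ≤ 1 := fun a ha =>
    (pi_norm_le_iff_of_nonneg zero_le_one).mpr fun i => (h𝔸' a ha i).trans hr'1.le
  -- the inverse system
  set 𝓛 : ℕ → Set (MvPolynomial (Fin m) C) := fun e =>
    {R | R ∈ TN 𝔸 (p ^ h) (d + e) ∧ polyTrunc d R ≠ 0 ∧ ∀ α, IsRat (p ^ h) (MvPolynomial.coeff α R)}
    with h𝓛
  have hΦ : {x : C | x ^ (p ^ h) = x}.Finite := by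
    have h1 := Polynomial.finite_setOfPred_isRoot
      (FiniteField.X_pow_card_sub_X_ne_zero C (p := p ^ h) (by omega))
    refine h1.subset ?_
    intro x hx
    change x ^ (p ^ h) = x at hx
    change Polynomial.IsRoot _ x
    simp [Polynomial.IsRoot, hx]
  have hfin : ∀ e, (𝓛 e).Finite := by
    intro e
    refine (finite_polys_of_coeffs (m := m) _ hΦ (d + e)).subset ?_
    intro R hR
    exact ⟨hR.1.1, hR.2.2⟩
  have hne : ∀ e, (𝓛 e).Nonempty := by
    intro e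
    obtain ⟨T, hTdeg, hTQ, K, t, hK⟩ := hT (d + e) (by omega)
    obtain ⟨R, hRS, hRd, hRrat⟩ := exists_rational_of_stable
      ((iterateFrobeniusEquiv C p h).symm : C →+* C) (TN 𝔸 (p ^ h) (d + e))
      (TN_sub hfrob) TN_smul (TN_root p h hP1 hfrob) d T ⟨hTdeg, K, t, hK⟩ (by rw [hTQ]; exact hQ)
    refine ⟨R, hRS, hRd, fun α => ?_⟩
    have h1 := hRrat α
    have h2 := congrArg (iterateFrobeniusEquiv C p h) h1
    simp only [RingEquiv.coe_toRingHom, RingEquiv.apply_symm_apply] at h2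
    rw [iterateFrobeniusEquiv_def] at h2
    exact h2.symm
  have hmap : ∀ j j', j ≤ j' → ∀ R ∈ 𝓛 j', polyTrunc (d + j) R ∈ 𝓛 j := by
    intro j j' hjj' R hR
    refine ⟨TN_trunc hfrob h𝔸1 (by omega) hR.1, ?_, fun α => ?_⟩
    · rw [polyTrunc_polyTrunc (by omega)]
      exact hR.2.1
    · rw [IsRat, coeff_polyTrunc]
      split_ifs
      · exact hR.2.2 α
      · exact zero_pow (by omega)
  obtain ⟨Rf, hRf, hRfc⟩ := exists_compatible_family d 𝓛 hfin hne (fun j R hR => hR.1.1) hmap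
  have hcoeff : ∀ (α : Fin m →₀ ℕ) (j j' : ℕ), α.degree ≤ d + j → α.degree ≤ d + j' →
      MvPolynomial.coeff α (Rf j) = MvPolynomial.coeff α (Rf j') := by
    intro α j j' h1 h2
    have e1 := congrArg (MvPolynomial.coeff α) (hRfc j (max j j') (le_max_left _ _))
    have e2 := congrArg (MvPolynomial.coeff α) (hRfc j' (max j j') (le_max_right _ _))
    rw [coeff_polyTrunc, if_pos h1] at e1
    rw [coeff_polyTrunc, if_pos h2] at e2
    rw [← e1, ← e2]
  -- the series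
  let F : MvPowerSeries (Fin m) (OC C) := fun α =>
    ⟨MvPolynomial.coeff α (Rf α.degree), norm_le_one_of_isRat hP2 ((hRf _).2.2 α)⟩
  have hcf : ∀ α, cf F α = MvPolynomial.coeff α (Rf α.degree) := fun α => rfl
  have hFrat : ∀ e, IsRat (p ^ h) (cf F e) := fun e => (hRf _).2.2 e
  have htrunc : ∀ e, MvPolynomial.map (algebraMap (OC C) C) (seriesTrunc (d + e) F) = Rf e := by
    intro e
    ext α
    rw [MvPolynomial.coeff_map, coeff_seriesTrunc]
    split_ifs with hα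
    · change cf F α = _
      rw [hcf]
      exact hcoeff α _ _ (by omega) hα
    · rw [map_zero]
      symm
      by_contra hc
      exact hα (degree_le_of_totalDegree (hRf e).1.1 (fun h0 => hc h0))
  have htrunc0 : MvPolynomial.map (algebraMap (OC C) C) (seriesTrunc d F) = Rf 0 := htrunc 0
  have hR0 : polyTrunc d (Rf 0) ≠ 0 := (hRf 0).2.1
  refine ⟨F, ?_, hFrat, ?_, polyTrunc d (Rf 0), hR0, by rw [htrunc0], ?_⟩
  · intro hF0
    apply hR0
    rw [← htrunc0, hF0]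
    ext α
    rw [coeff_polyTrunc, MvPolynomial.coeff_map, coeff_seriesTrunc]
    simp
  · intro a ha
    refine evMv_eq_zero_of_bounds p h hh hr'0 hr'1 h𝔸' hfrob F hFrat ?_ ha
    intro N
    obtain ⟨_, K, t, hK⟩ := (hRf N).1
    refine ⟨max K 0 + 1, t, fun t' ht' b hb => ?_⟩
    have h1 := TN_bound_mono hfrob hK ht' b hb
    set x := (frobVec (p ^ h))^[t'] b with hx
    have hxmem : x ∈ 𝔸 := frobVec_iterate_mem hfrob t' hb
    have hx1 : ‖x‖ < 1 := (pi_norm_lt_iff one_pos).mpr fun i => (h𝔸' x hxmem i).trans_lt hr'1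
    have hx2 : ‖x‖ ≤ 1 := hx1.le
    have h2 := germ_norm_evMv_sub_trunc_le F (d + N) x hx1
    rw [htrunc N] at h2
    have h3 : ‖evMv F x‖ ≤ ‖evMv F x - MvPolynomial.eval x (Rf N)‖ +
        ‖MvPolynomial.eval x (Rf N)‖ := by
      have := norm_add_le (evMv F x - MvPolynomial.eval x (Rf N)) (MvPolynomial.eval x (Rf N))
      simpa using this
    have h4 : ‖x‖ ^ (d + N + 1) ≤ ‖x‖ ^ (N + 1) :=
      pow_le_pow_of_le_one (norm_nonneg _) hx2 (by omega)
    have h5 : K * ‖x‖ ^ (d + N + 1) ≤ max K 0 * ‖x‖ ^ (N + 1) := by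
      calc K * ‖x‖ ^ (d + N + 1) ≤ max K 0 * ‖x‖ ^ (d + N + 1) :=
            mul_le_mul_of_nonneg_right (le_max_left _ _) (by positivity)
        _ ≤ max K 0 * ‖x‖ ^ (N + 1) := mul_le_mul_of_nonneg_left h4 (le_max_right _ _)
    rw [add_mul, one_mul]
    linarith
  · intro e
    rw [IsRat, coeff_polyTrunc]
    split_ifs
    · exact (hRf 0).2.2 e
    · exact zero_pow (by omega)

end Rational

end

end Crest.Agent.LT
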