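/-
S0351 package FS, part 2 (helper3): truncations, the law `H₀`, translation of a series by a point,
invariant derivation, and "Case 2" of Lemma FS.
-/
import Crest.Agent.LT.Abstract.FSAux
import Crest.Agent.LT.Abstract.FSDeriv
import Crest.Agent.LT.Abstract.Germ
import Crest.Agent.LT.Tokens

set_option autoImplicit false
set_option linter.unusedSectionVars false
set_option linter.unusedVariables false
set_option linter.unusedSimpArgs false
set_option linter.style.haveILetI false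

open Crest.LubinTate

namespace Crest.Agent.LT

noncomputable section

variable {C : Type} [NontriviallyNormedField C] [IsUltrametricDist C] [CompleteSpace C]

/-- The Honda-type law `H₀` of height `h` over `𝒪_C` (in char. `p`: `[p] = X^(p^h)`). -/
abbrev H0C (p h : ℕ) [Fact p.Prime] (C : Type) [NontriviallyNormedField C] [IsUltrametricDist C] :
    FormalGroup (OC C) := hzv p (eParam h : ℕ → OC C)

/-- `P`-rational power series in one variable (coefficients in `𝔽_P`). -/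
def IsRatSeries (P : ℕ) (f : PowerSeries (OC C)) : Prop :=
  ∀ j, (((PowerSeries.coeff j f : OC C)) : C) ^ P = ((PowerSeries.coeff j f : OC C) : C)

namespace FSA

/-! ### Truncations -/

section Trunc

variable {m : ℕ}

/-- The truncation of a series over `𝒪_C` at total degree `≤ N`, as a polynomial over `C`. -/
def mapTrunc (N : ℕ) (G : MvPowerSeries (Fin m) (OC C)) : MvPolynomial (Fin m) C :=
  MvPolynomial.map (algebraMap (OC C) C) (seriesTrunc N G)

theorem coeff_mapTrunc (N : ℕ) (G : MvPowerSeries (Fin m) (OC C)) (d : Fin m →₀ ℕ) :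
    MvPolynomial.coeff d (mapTrunc N G) = if d.degree ≤ N then cf G d else 0 := by
  unfold mapTrunc
  rw [MvPolynomial.coeff_map, coeff_seriesTrunc]
  split_ifs
  · rfl
  · simp

theorem polyTrunc_mapTrunc {d N : ℕ} (h : d ≤ N) (G : MvPowerSeries (Fin m) (OC C)) :
    polyTrunc d (mapTrunc N G) = mapTrunc d G := by
  ext e
  rw [coeff_polyTrunc, coeff_mapTrunc, coeff_mapTrunc]
  split_ifs with h1 h2 <;> first | rfl | omega

theorem totalDegree_mapTrunc_le (N : ℕ) (G : MvPowerSeries (Fin m) (OC C)) :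
    (mapTrunc N G).totalDegree ≤ N := by
  apply totalDegree_le_of_degree
  intro d hd
  by_contra hlt
  rw [coeff_mapTrunc, if_neg hlt] at hd
  exact hd rfl

/-- The hypothesis of `germ_to_relation`. -/
def HT (p h : ℕ) (S : Set (Fin m → C)) (d : ℕ) (Q : MvPolynomial (Fin m) C) : Prop :=
  ∀ N, d ≤ N → ∃ T : MvPolynomial (Fin m) C, T.totalDegree ≤ N ∧ polyTrunc d T = Q ∧
    ∃ (K : ℝ) (t : ℕ), ∀ a ∈ S, ‖MvPolynomial.eval ((frobVec (p ^ h))^[t] a) T‖ ≤
      K * ‖(frobVec (p ^ h))^[t] a‖ ^ (N + 1)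

/-- Tail bound for evaluation. -/
theorem norm_evMv_sub_mapTrunc_le (f : MvPowerSeries (Fin m) (OC C)) (N : ℕ) (x : Fin m → C)
    (hx : ‖x‖ < 1) :
    ‖evMv f x - MvPolynomial.eval x (mapTrunc N f)‖ ≤ ‖x‖ ^ (N + 1) := by
  have hx' : ∀ i, ‖x i‖ < 1 := fun i => (norm_le_pi_norm x i).trans_lt hx
  set g : MvPowerSeries (Fin m) (OC C) :=
    f - ((seriesTrunc N f : MvPolynomial (Fin m) (OC C)) : MvPowerSeries (Fin m) (OC C)) with hgdef
  have hg : ∀ d : Fin m →₀ ℕ, d.degree < N + 1 → MvPowerSeries.coeff d g = 0 := by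
    intro d hd
    rw [hgdef, map_sub, MvPolynomial.coeff_coe, coeff_seriesTrunc, if_pos (by omega), sub_self]
  have h1 := norm_evMv_le_of_order g (N + 1) hg x ‖x‖ hx (norm_nonneg _)
    (fun i => norm_le_pi_norm x i)
  have e : evMv g x = evMv f x - MvPolynomial.eval x (mapTrunc N f) := by
    unfold mapTrunc
    rw [← evMv_coe_polynomial _ x hx', ← coe_evHom x hx', ← coe_evHom x hx', ← coe_evHom x hx',
      hgdef, map_sub]
    rfl
  rwa [e] at h1

theorem ht_of_vanish (p h : ℕ) (S : Set (Fin m → C)) (hS : ∀ a ∈ S, ‖a‖ < 1)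
    (G : MvPowerSeries (Fin m) (OC C)) (hG : ∀ a ∈ S, evMv G a = 0) (d : ℕ) :
    HT p h S d (mapTrunc d G) := by
  intro N hN
  refine ⟨mapTrunc N G, totalDegree_mapTrunc_le N G, polyTrunc_mapTrunc hN G, 1, 0, ?_⟩
  intro a ha
  simp only [Function.iterate_zero, id, one_mul]
  have := norm_evMv_sub_mapTrunc_le G N a (hS a ha)
  rw [hG a ha, zero_sub, norm_neg] at this
  exact this

end Trunc

/-! ### Rational elements -/

section Rat

variable (p h : ℕ) [Fact p.Prime] [CharP C p]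

theorem expChar_C : ExpChar C p := ExpChar.prime (Fact.out : p.Prime)

theorem isRat_add {x y : C} (hx : IsRat (p ^ h) x) (hy : IsRat (p ^ h) y) :
    IsRat (p ^ h) (x + y) := by
  haveI := expChar_C (C := C) p
  show (x + y) ^ (p ^ h) = _
  rw [add_pow_expChar_pow, hx, hy]

theorem isRat_sub {x y : C} (hx : IsRat (p ^ h) x) (hy : IsRat (p ^ h) y) :
    IsRat (p ^ h) (x - y) := by
  haveI := expChar_C (C := C) p
  show (x - y) ^ (p ^ h) = _
  rw [sub_pow_expChar_pow, hx, hy]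

theorem isRat_mul {x y : C} (hx : IsRat (p ^ h) x) (hy : IsRat (p ^ h) y) :
    IsRat (p ^ h) (x * y) := by
  show (x * y) ^ (p ^ h) = _
  rw [mul_pow, hx, hy]

theorem isRat_pow {x : C} (hx : IsRat (p ^ h) x) (k : ℕ) : IsRat (p ^ h) (x ^ k) := by
  show (x ^ k) ^ (p ^ h) = _
  rw [← pow_mul, mul_comm, pow_mul, hx]

theorem isRat_natCast (n : ℕ) : IsRat (p ^ h) (n : C) := by
  haveI := expChar_C (C := C) p
  have := map_natCast (iterateFrobenius C p h) n
  rwa [iterateFrobenius_def] at this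

theorem isRat_zero : IsRat (p ^ h) (0 : C) := by
  show (0 : C) ^ (p ^ h) = 0
  exact zero_pow (pow_ne_zero _ (Fact.out : p.Prime).ne_zero)

theorem isRat_one : IsRat (p ^ h) (1 : C) := one_pow _

/-- A nonzero rational element has norm one. -/
theorem norm_eq_one_of_isRat (hh : 1 ≤ h) {x : C} (hx : IsRat (p ^ h) x) (h0 : x ≠ 0) : ‖x‖ = 1 := by
  have hP : 1 < p ^ h := Nat.one_lt_pow (by omega) (Fact.out : p.Prime).one_lt
  have h1 : ‖x‖ ^ (p ^ h) = ‖x‖ := by rw [← norm_pow]; exact congrArg _ hx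
  have hpos : 0 < ‖x‖ := norm_pos_iff.2 h0
  have h2 : ‖x‖ ^ (p ^ h - 1) = 1 := by
    have h3 : ‖x‖ ^ (p ^ h - 1) * ‖x‖ = 1 * ‖x‖ := by
      rw [one_mul, ← pow_succ, Nat.sub_add_cancel hP.le, h1]
    exact mul_right_cancel₀ hpos.ne' h3
  exact (pow_eq_one_iff_of_nonneg hpos.le (by omega)).1 h2

/-- `(n : C) ^ (p - 1)` is `1` if `p ∤ n`, and `0` if `p ∣ n`. -/
theorem natCast_pow_pred_eq_one {n : ℕ} (hn : ¬ p ∣ n) : ((n : C)) ^ (p - 1) = 1 := by
  have hp : p.Prime := Fact.out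
  have h0 : (n : C) ≠ 0 := by
    rw [Ne, CharP.cast_eq_zero_iff C p]; exact hn
  have h1 : (n : C) ^ p = n := by simpa using isRat_natCast (C := C) p 1 n
  have h3 : (n : C) ^ (p - 1) * (n : C) = 1 * n := by
    rw [one_mul, ← pow_succ, Nat.sub_add_cancel hp.one_lt.le, h1]
  exact mul_right_cancel₀ h0 h3

theorem natCast_pow_pred_eq_zero {n : ℕ} (hn : p ∣ n) : ((n : C)) ^ (p - 1) = 0 := by
  have hp : p.Prime := Fact.out
  rw [(CharP.cast_eq_zero_iff C p n).2 hn]
  exact zero_pow (by have := hp.one_lt; omega)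

end Rat

/-! ### The law `H₀` and its points -/

/-- Values of a tuple of points. -/
def vals {F : FormalGroup (OC C)} {m : ℕ} (a : Fin m → LawPt F) : Fin m → C := fun i => (a i).val

theorem vals_lt {F : FormalGroup (OC C)} {m : ℕ} (a : Fin m → LawPt F) (i : Fin m) :
    ‖vals a i‖ < 1 := (a i).norm_lt

/-- Values of a subgroup of points. -/
def valSet {F : FormalGroup (OC C)} [F.IsComm] {m : ℕ} (𝔸 : AddSubgroup (Fin m → LawPt F)) :
    Set (Fin m → C) := vals '' (𝔸 : Set (Fin m → LawPt F))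

section Points

variable (p h : ℕ) [Fact p.Prime] [CharP C p]

theorem charP_OC : CharP (OC C) p :=
  (RingHom.charP_iff (OC C).subtype Subtype.val_injective p).2 ‹_›

theorem ev1_X_pow (n : ℕ) (x : C) : ev1 ((PowerSeries.X : PowerSeries (OC C)) ^ n) x = x ^ n := by
  classical
  unfold ev1
  rw [tsum_eq_single n]
  · simp [PowerSeries.coeff_X_pow]
  · intro b hb
    simp [PowerSeries.coeff_X_pow, hb]

/-- `p • x` has value `x ^ P` on `H₀`. -/
theorem val_p_nsmul (hh : 1 ≤ h) (x : LawPt (H0C p h C)) : (p • x).val = x.val ^ (p ^ h) := by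
  haveI := charP_OC (C := C) p
  rw [LawPt.val_nsmul, hzv_eParam_pSeries p h hh, ev1_X_pow]

theorem frobVec_vals (hh : 1 ≤ h) {m : ℕ} (a : Fin m → LawPt (H0C p h C)) :
    frobVec (p ^ h) (vals a) = vals (p • a) := by
  funext i
  simp only [frobVec, vals, Pi.smul_apply]
  rw [val_p_nsmul p h hh]

theorem frob_valSet (hh : 1 ≤ h) {m : ℕ} (𝔸 : AddSubgroup (Fin m → LawPt (H0C p h C))) :
    ∀ a ∈ valSet 𝔸, frobVec (p ^ h) a ∈ valSet 𝔸 := by
  rintro _ ⟨a, ha, rfl⟩
  exact ⟨p • a, 𝔸.nsmul_mem ha p, (frobVec_vals p h hh a).symm⟩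

end Points

/-! ### Translation of a series by a point of a formal group -/

section Transl

variable {m : ℕ} (F : FormalGroup (OC C))

/-- `y_i +_F b_i`, a series in `(y, b)`. -/
def addS (i : Fin m) : MvPowerSeries (Fin m ⊕ Fin m) (OC C) :=
  F.toPowerSeries.subst ![MvPowerSeries.X (Sum.inl i), MvPowerSeries.X (Sum.inr i)]

theorem constantCoeff_addS (i : Fin m) : MvPowerSeries.constantCoeff (addS F i) = 0 :=
  MvPowerSeries.constantCoeff_subst_eq_zero MvPowerSeries.HasSubst.X_X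
    (by intro t; fin_cases t <;> simp) F.zero_constantCoeff

theorem elim_lt {a b : Fin m → C} (ha : ∀ i, ‖a i‖ < 1) (hb : ∀ i, ‖b i‖ < 1) :
    ∀ i, ‖Sum.elim a b i‖ < 1 := by
  rintro (i | i)
  · exact ha i
  · exact hb i

theorem evMv_addS {a b : Fin m → C} (ha : ∀ i, ‖a i‖ < 1) (hb : ∀ i, ‖b i‖ < 1) (i : Fin m) :
    evMv (addS F i) (Sum.elim a b) = lawAdd F (a i) (b i) := by
  classical
  have hab := elim_lt ha hb
  unfold addS lawAdd
  rw [evMv_subst_pair _ _ _ (by simp) (by simp) _ hab, evMv_X _ hab, evMv_X _ hab]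
  rfl

/-- `G(y +_F b)`, a series in `(y, b)`. -/
def transl (G : MvPowerSeries (Fin m) (OC C)) : MvPowerSeries (Fin m ⊕ Fin m) (OC C) :=
  G.subst (addS F)

theorem evMv_transl (G : MvPowerSeries (Fin m) (OC C)) {a b : Fin m → C}
    (ha : ∀ i, ‖a i‖ < 1) (hb : ∀ i, ‖b i‖ < 1) :
    evMv (transl F G) (Sum.elim a b) = evMv G (fun i => lawAdd F (a i) (b i)) := by
  unfold transl
  rw [evMv_subst G (addS F) (constantCoeff_addS F) _ (elim_lt ha hb)]
  congr 1
  funext i
  exact evMv_addS F ha hb i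

/-- `G(a₀ +_F b)`, a series in `b`. -/
def tr (a₀ : Fin m → C) (ha₀ : ∀ i, ‖a₀ i‖ < 1) (G : MvPowerSeries (Fin m) (OC C)) :
    MvPowerSeries (Fin m) (OC C) :=
  pev a₀ ha₀ (transl F G)

theorem evMv_tr (a₀ : Fin m → C) (ha₀ : ∀ i, ‖a₀ i‖ < 1) (G : MvPowerSeries (Fin m) (OC C))
    {b : Fin m → C} (hb : ∀ i, ‖b i‖ < 1) :
    evMv (tr F a₀ ha₀ G) b = evMv G (fun i => lawAdd F (a₀ i) (b i)) := by
  unfold tr
  rw [evMv_pev a₀ ha₀ b hb, evMv_transl F G ha₀ hb]

/-- The invariant differential coefficient `∂₂F(x, 0)`. -/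
def invU (x : C) : C := evMv (MvPowerSeries.pderiv (OC C) 1 F.toPowerSeries) ![x, 0]

theorem pair_lt {x y : C} (hx : ‖x‖ < 1) (hy : ‖y‖ < 1) : ∀ i, ‖(![x, y] : Fin 2 → C) i‖ < 1 := by
  intro i; fin_cases i
  · simpa using hx
  · simpa using hy

theorem norm_invU_le {x : C} (hx : ‖x‖ < 1) : ‖invU F x‖ ≤ 1 :=
  norm_evMv_le_one _ _ (pair_lt hx (by simp))

theorem invU_ne_zero {x : C} (hx : ‖x‖ < 1) : invU F x ≠ 0 := by
  classical
  intro h0
  have hpd : MvPowerSeries.constantCoeff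
      (MvPowerSeries.pderiv (OC C) 1 F.toPowerSeries - 1) = 0 := by
    rw [map_sub, map_one, ← MvPowerSeries.coeff_zero_eq_constantCoeff_apply,
      MvPowerSeries.coeff_pderiv]
    simp [F.lin_coeff_Y]
  have hb := norm_evMv_le_of_constantCoeff _ hpd ![x, 0] ‖x‖ hx (norm_nonneg _) (by
    intro i; fin_cases i <;> simp)
  rw [evMv_sub _ _ _ (pair_lt hx (by simp)), evMv_one _ (pair_lt hx (by simp))] at hb
  change ‖invU F x - 1‖ ≤ ‖x‖ at hb
  rw [h0, zero_sub, norm_neg, norm_one] at hb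
  exact absurd hb (not_le.2 hx)

theorem norm_lawAdd_expand {x t : C} (hx : ‖x‖ < 1) (ht : ‖t‖ < 1) :
    ‖lawAdd F x t - x - invU F x * t‖ ≤ ‖t‖ ^ 2 := by
  classical
  have h := norm_evMv_update_sub_le F.toPowerSeries ![x, 0] (pair_lt hx (by simp)) 1 t ht
  have hupd : Function.update (![x, 0] : Fin 2 → C) 1 ((![x, 0] : Fin 2 → C) 1 + t) = ![x, t] := by
    funext i; fin_cases i <;> simp
  rw [hupd] at h
  have hx0 : evMv F.toPowerSeries ![x, 0] = x := lawAdd_zero_right F x hx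
  rw [hx0] at h
  exact h

/-- `‖x +_F t - x‖ ≤ ‖t‖`. -/
theorem norm_lawAdd_sub_le {x t : C} (hx : ‖x‖ < 1) (ht : ‖t‖ < 1) :
    ‖lawAdd F x t - x‖ ≤ ‖t‖ := by
  have e : lawAdd F x t - x = (lawAdd F x t - x - invU F x * t) + invU F x * t := by ring
  rw [e]
  refine (IsUltrametricDist.norm_add_le_max _ _).trans (max_le ?_ ?_)
  · refine (norm_lawAdd_expand F hx ht).trans ?_
    rw [pow_two]
    calc ‖t‖ * ‖t‖ ≤ 1 * ‖t‖ := mul_le_mul_of_nonneg_right ht.le (norm_nonneg _)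
      _ = ‖t‖ := one_mul _
  · rw [norm_mul]
    calc ‖invU F x‖ * ‖t‖ ≤ 1 * ‖t‖ := by gcongr; exact norm_invU_le F hx
      _ = ‖t‖ := one_mul _

/-- Expansion along a coordinate axis of a series. -/
theorem norm_evMv_single_sub_le (G : MvPowerSeries (Fin m) (OC C)) (j : Fin m) {t : C}
    (ht : ‖t‖ < 1) :
    ‖evMv G (Function.update (0 : Fin m → C) j t) - cf G 0 - cf G (Finsupp.single j 1) * t‖ ≤
      ‖t‖ ^ 2 := by
  classical
  set y : Fin m → C := Function.update (0 : Fin m → C) j t with hy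
  have hyj : y j = t := by simp [hy]
  have hyi : ∀ i, i ≠ j → y i = 0 := fun i hi => by simp [hy, Function.update_of_ne hi]
  have hy1 : ∀ i, ‖y i‖ < 1 := by
    intro i
    by_cases hi : i = j
    · rw [hi, hyj]; exact ht
    · rw [hyi i hi]; simp
  set c₀ : OC C := MvPowerSeries.coeff 0 G with hc₀
  set c₁ : OC C := MvPowerSeries.coeff (Finsupp.single j 1) G with hc₁
  let G' : MvPowerSeries (Fin m) (OC C) :=
    G - MvPowerSeries.C c₀ - MvPowerSeries.C c₁ * MvPowerSeries.X j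
  have hval : evMv G' y = evMv G y - cf G 0 - cf G (Finsupp.single j 1) * t := by
    simp only [G']
    rw [evMv_sub _ _ _ hy1, evMv_sub _ _ _ hy1, evMv_C _ hy1, evMv_mul _ _ _ hy1, evMv_C _ hy1,
      evMv_X _ hy1, hyj]
  rw [← hval]
  have h0 : MvPowerSeries.coeff 0 G' = 0 := by
    simp only [G', map_sub, hc₀]
    rw [MvPowerSeries.coeff_zero_C, MvPowerSeries.coeff_C_mul]
    simp
  have h1 : MvPowerSeries.coeff (Finsupp.single j 1) G' = 0 := by
    simp only [G', map_sub]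
    rw [MvPowerSeries.coeff_C_mul, MvPowerSeries.coeff_index_single_X, MvPowerSeries.coeff_C]
    have : (Finsupp.single j 1 : Fin m →₀ ℕ) ≠ 0 := by simp
    simp [this, hc₁]
  unfold evMv
  refine IsUltrametricDist.norm_tsum_le_of_forall_le_of_nonneg (by positivity) fun d => ?_
  rw [monoPow_eq]
  by_cases hd0 : d = 0
  · subst hd0; simp [cf, h0]
  by_cases hd1 : d = Finsupp.single j 1
  · subst hd1; simp [cf, h1]
  by_cases hi : ∃ i, i ≠ j ∧ d i ≠ 0
  · obtain ⟨i, hij, hdi⟩ := hi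
    rw [Finset.prod_eq_zero (Finset.mem_univ i) (by rw [hyi i hij, zero_pow hdi]), mul_zero,
      norm_zero]
    positivity
  · push Not at hi
    have hds : d = Finsupp.single j (d j) := by
      ext i
      by_cases hij : i = j
      · subst hij; simp
      · simp [hi i hij, Finsupp.single_apply, Ne.symm hij]
    have hk : 2 ≤ d j := by
      by_contra hlt
      have : d j = 0 ∨ d j = 1 := by omega
      rcases this with h | h
      · apply hd0; rw [hds, h]; simp
      · apply hd1; rw [hds, h]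
    rw [Finset.prod_eq_single j (fun i _ hij => by rw [hi i hij, pow_zero])
      (fun h => absurd (Finset.mem_univ j) h), hyj, norm_mul, norm_pow]
    calc ‖cf G' d‖ * ‖t‖ ^ d j ≤ 1 * ‖t‖ ^ 2 :=
          mul_le_mul (norm_cf_le G' d) (pow_le_pow_of_le_one (norm_nonneg _) ht.le hk)
            (by positivity) zero_le_one
      _ = ‖t‖ ^ 2 := one_mul _

/-- The linear coefficient of `G(a₀ +_F b)` at `b_j` is `(∂_j G)(a₀) · U(a₀ j)`. -/
theorem cf_tr_single (a₀ : Fin m → C) (ha₀ : ∀ i, ‖a₀ i‖ < 1) (G : MvPowerSeries (Fin m) (OC C))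
    (j : Fin m) :
    cf (tr F a₀ ha₀ G) (Finsupp.single j 1) =
      evMv (MvPowerSeries.pderiv (OC C) j G) a₀ * invU F (a₀ j) := by
  classical
  set g₁ := cf (tr F a₀ ha₀ G) (Finsupp.single j 1) with hg₁
  set D := evMv (MvPowerSeries.pderiv (OC C) j G) a₀ with hD
  set U := invU F (a₀ j) with hU
  have hD1 : ‖D‖ ≤ 1 := norm_evMv_le_one _ _ ha₀
  have hU1 : ‖U‖ ≤ 1 := norm_invU_le F (ha₀ j)
  -- the constant term
  have h0pt : ∀ i, ‖(0 : Fin m → C) i‖ < 1 := by intro i; simp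
  have hg₀ : cf (tr F a₀ ha₀ G) 0 = evMv G a₀ := by
    have h1 := evMv_zero_pt (tr F a₀ ha₀ G)
    rw [evMv_tr F a₀ ha₀ G h0pt] at h1
    have h2 : (fun i => lawAdd F (a₀ i) ((0 : Fin m → C) i)) = a₀ := by
      funext i
      exact lawAdd_zero_right F _ (ha₀ i)
    rw [h2] at h1
    rw [h1]
    simp [cf]
  -- main estimate for small `t`
  have hest : ∀ t : C, ‖t‖ < 1 → ‖(g₁ - D * U) * t‖ ≤ ‖t‖ ^ 2 := by
    intro t ht
    set y : Fin m → C := Function.update (0 : Fin m → C) j t with hy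
    have hy1 : ∀ i, ‖y i‖ < 1 := by
      intro i
      by_cases hi : i = j
      · subst hi; simpa [hy] using ht
      · simp [hy, Function.update_of_ne hi]
    set w := lawAdd F (a₀ j) t - a₀ j with hw
    have hw1 : ‖w‖ ≤ ‖t‖ := norm_lawAdd_sub_le F (ha₀ j) ht
    have hw1' : ‖w‖ < 1 := hw1.trans_lt ht
    have hpt : (fun i => lawAdd F (a₀ i) (y i)) = Function.update a₀ j (a₀ j + w) := by
      funext i
      by_cases hi : i = j
      · subst hi; simp [hy, hw]
      · simp only [hy, Function.update_of_ne hi, Pi.zero_apply]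
        exact lawAdd_zero_right F _ (ha₀ i)
    have e1 : evMv (tr F a₀ ha₀ G) y = evMv G (Function.update a₀ j (a₀ j + w)) := by
      rw [evMv_tr F a₀ ha₀ G hy1, hpt]
    have b1 := norm_evMv_single_sub_le (tr F a₀ ha₀ G) j ht
    rw [hg₀, e1] at b1
    have b2 := norm_evMv_update_sub_le G a₀ ha₀ j w hw1'
    have b3 := norm_lawAdd_expand F (ha₀ j) ht
    have e2 : (g₁ - D * U) * t =
        (evMv G (Function.update a₀ j (a₀ j + w)) - evMv G a₀ - D * w) -
        (evMv G (Function.update a₀ j (a₀ j + w)) - evMv G a₀ - g₁ * t) +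
        D * (w - U * t) := by ring
    rw [e2]
    have hw2 : ‖w‖ ^ 2 ≤ ‖t‖ ^ 2 := by gcongr
    refine (IsUltrametricDist.norm_add_le_max _ _).trans (max_le ?_ ?_)
    · rw [sub_eq_add_neg]
      refine (IsUltrametricDist.norm_add_le_max _ _).trans (max_le ?_ ?_)
      · exact b2.trans hw2
      · rw [norm_neg]; exact b1
    · rw [norm_mul]
      calc ‖D‖ * ‖w - U * t‖ ≤ 1 * ‖t‖ ^ 2 :=
            mul_le_mul hD1 b3 (norm_nonneg _) zero_le_one
        _ = ‖t‖ ^ 2 := one_mul _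
  by_contra hne
  have hpos : 0 < ‖g₁ - D * U‖ := norm_pos_iff.2 (sub_ne_zero.2 hne)
  obtain ⟨t, ht0, htlt⟩ := NormedField.exists_norm_lt C (lt_min one_pos hpos)
  have h1 := hest t (htlt.trans_le (min_le_left _ _))
  rw [norm_mul, pow_two] at h1
  have h2 : ‖g₁ - D * U‖ ≤ ‖t‖ := le_of_mul_le_mul_right h1 ht0
  exact absurd h2 (not_le.2 (htlt.trans_le (min_le_right _ _)))

end Transl

/-! ### Case 2 -/

section Case2

variable (p h : ℕ) [Fact p.Prime] [CharP C p] {m : ℕ}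

/-- Rational series vanishing on `𝔸`. -/
def InI (𝔸 : AddSubgroup (Fin m → LawPt (H0C p h C))) : Set (MvPowerSeries (Fin m) (OC C)) :=
  {S | (∀ e, IsRat (p ^ h) (cf S e)) ∧ ∀ a ∈ 𝔸, evMv S (vals a) = 0}

theorem isRat_coe_iff (x : OC C) : IsRat (p ^ h) (x : C) ↔ x ^ (p ^ h) = x := by
  constructor
  · intro hx
    apply Subtype.ext
    push_cast
    exact hx
  · intro hx
    have := congrArg (Subtype.val) hx
    simpa using this

theorem vals_add (a b : Fin m → LawPt (H0C p h C)) (i : Fin m) :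
    vals (a + b) i = lawAdd (H0C p h C) (vals a i) (vals b i) := rfl

theorem vals_zero : vals (0 : Fin m → LawPt (H0C p h C)) = 0 := rfl

theorem pderiv_eq_fun (j : Fin m) (f : MvPowerSeries (Fin m) (OC C)) :
    (fun d : Fin m →₀ ℕ => ((d j + 1 : ℕ) : OC C) *
      MvPowerSeries.coeff (d + Finsupp.single j 1) f : MvPowerSeries (Fin m) (OC C)) =
      MvPowerSeries.pderiv (OC C) j f := by
  refine MvPowerSeries.ext fun d => ?_
  rw [MvPowerSeries.coeff_pderiv, mul_comm]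
  push_cast
  rfl

theorem pderiv_vanish (𝔸 : AddSubgroup (Fin m → LawPt (H0C p h C)))
    (hno : ∀ Q, HT p h (valSet 𝔸) 1 Q → Q = 0)
    {S : MvPowerSeries (Fin m) (OC C)} (hS : ∀ a ∈ 𝔸, evMv S (vals a) = 0)
    (a₀ : Fin m → LawPt (H0C p h C)) (ha₀ : a₀ ∈ 𝔸) (j : Fin m) :
    evMv (MvPowerSeries.pderiv (OC C) j S) (vals a₀) = 0 := by
  classical
  set G := tr (H0C p h C) (vals a₀) (vals_lt a₀) S with hG
  have hvan : ∀ a ∈ valSet 𝔸, evMv G a = 0 := by
    rintro _ ⟨b, hb, rfl⟩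
    rw [hG, evMv_tr _ _ _ _ (vals_lt b)]
    exact hS _ (𝔸.add_mem ha₀ hb)
  have hlt : ∀ a ∈ valSet 𝔸, ‖a‖ < 1 := by
    rintro _ ⟨b, hb, rfl⟩
    exact norm_lt_one_of_pi (vals_lt b)
  have hQ := hno _ (ht_of_vanish p h _ hlt G hvan 1)
  have hcf : cf G (Finsupp.single j 1) = 0 := by
    have := coeff_mapTrunc 1 G (Finsupp.single j 1)
    rw [hQ, if_pos (by simp), MvPolynomial.coeff_zero] at this
    exact this.symm
  rw [hG, cf_tr_single] at hcf
  exact (mul_eq_zero.1 hcf).resolve_right (invU_ne_zero _ (vals_lt a₀ j))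

/-- **Case 2.** If no nonzero linear form is a germ, the only rational series vanishing on `𝔸` is
`0`. -/
theorem case2 (hh : 1 ≤ h) (𝔸 : AddSubgroup (Fin m → LawPt (H0C p h C)))
    (hno : ∀ Q, HT p h (valSet 𝔸) 1 Q → Q = 0)
    (S : MvPowerSeries (Fin m) (OC C)) (hrat : ∀ e, IsRat (p ^ h) (cf S e))
    (hS : ∀ a ∈ 𝔸, evMv S (vals a) = 0) : S = 0 := by
  classical
  haveI := charP_OC (C := C) p
  refine FSDeriv.eq_zero_of_forall (R := OC C) p h hh (InI p h 𝔸) ?_ ?_ ?_ ?_ ?_ ?_ S ⟨hrat, hS⟩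
  · intro f hf e
    exact (isRat_coe_iff p h _).1 (hf.1 e)
  · intro f hf g hg
    refine ⟨fun e => ?_, fun a ha => ?_⟩
    · have : cf (f - g) e = cf f e - cf g e := by simp [cf]
      rw [this]
      exact isRat_sub p h (hf.1 e) (hg.1 e)
    · rw [evMv_sub _ _ _ (vals_lt a), hf.2 a ha, hg.2 a ha, sub_zero]
  · intro i f hf
    refine ⟨fun e => ?_, fun a ha => ?_⟩
    · unfold cf
      rw [MvPowerSeries.X_def, MvPowerSeries.coeff_monomial_mul, one_mul]
      split_ifs
      · exact hf.1 _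
      · exact isRat_zero p h
    · rw [evMv_mul _ _ _ (vals_lt a), hf.2 a ha, mul_zero]
  · intro i f hf
    refine ⟨fun e => ?_, fun a ha => ?_⟩
    · show IsRat (p ^ h) (((((e i + 1 : ℕ) : OC C) *
        MvPowerSeries.coeff (e + Finsupp.single i 1) f : OC C)) : C)
      push_cast
      exact isRat_mul p h (by exact_mod_cast isRat_natCast (C := C) p h (e i + 1)) (hf.1 _)
    · rw [pderiv_eq_fun]
      exact pderiv_vanish p h 𝔸 hno hf.2 a ha i
  · intro G hG hGp
    refine ⟨fun e => (isRat_coe_iff p h _).2 (hG e), fun a ha => ?_⟩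
    have := hGp.2 a ha
    rw [evMv_pow _ _ _ (vals_lt a)] at this
    exact eq_zero_of_pow_eq_zero this
  · intro f hf
    have h1 := hf.2 0 𝔸.zero_mem
    rw [vals_zero, evMv_zero_pt] at h1
    exact Subtype.ext h1

end Case2

end FSA

end

end Crest.Agent.LT
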