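/-
S0351 package FS, part 3 (helper3): homomorphisms by evaluation, negation series, coordinate series of an
additive series, additivity by density.
-/
import Crest.Agent.LT.Abstract.FSCase2

set_option autoImplicit false
set_option linter.unusedSectionVars false
set_option linter.unusedVariables false
set_option linter.unusedSimpArgs false
set_option linter.style.haveILetI false

open Crest.LubinTate

namespace Crest.Agent.LT

noncomputable section

variable {C : Type} [NontriviallyNormedField C] [IsUltrametricDist C] [CompleteSpace C]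

namespace FSA

/-! ### Homomorphisms by evaluation -/

/-- A series with zero constant term commuting with the laws on the open ball is a homomorphism. -/
theorem isFGHom_of_eval (F G : FormalGroup (OC C)) (θ : PowerSeries (OC C))
    (h0 : PowerSeries.constantCoeff θ = 0)
    (h : ∀ x y : C, ‖x‖ < 1 → ‖y‖ < 1 → ev1 θ (lawAdd F x y) = lawAdd G (ev1 θ x) (ev1 θ y)) :
    IsFGHom F G θ := by
  classical
  refine ⟨h0, ?_⟩
  rw [← sub_eq_zero]
  apply eq_zero_of_forall_ball
  intro y hy
  have hy' : y = ![y 0, y 1] := by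
    funext i; fin_cases i <;> rfl
  have hx : ‖y 0‖ < 1 := hy 0
  have hz : ‖y 1‖ < 1 := hy 1
  have ha := norm_ball_pair hx hz
  have hc : ∀ i : Fin 2, MvPowerSeries.constantCoeff
      (PowerSeries.subst (MvPowerSeries.X i : MvPowerSeries (Fin 2) (OC C)) θ) = 0 := by
    intro i
    rw [PowerSeries.subst_def]
    exact MvPowerSeries.constantCoeff_subst_eq_zero
      (MvPowerSeries.hasSubst_of_constantCoeff_zero (by intro t; simp))
      (by intro t; simp) h0
  have e0 : evMv (MvPowerSeries.X 0 : MvPowerSeries (Fin 2) (OC C)) ![y 0, y 1] = y 0 := evMv_X _ ha 0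
  have e1 : evMv (MvPowerSeries.X 1 : MvPowerSeries (Fin 2) (OC C)) ![y 0, y 1] = y 1 := evMv_X _ ha 1
  rw [evMv_sub _ _ _ hy, hy', evMv_subst_two θ _ F.zero_constantCoeff _ _ hx hz,
    evMv_subst_pair _ _ _ (hc 0) (hc 1) _ ha, evMv_psubst θ _ (by simp) _ ha,
    evMv_psubst θ _ (by simp) _ ha, e0, e1]
  rw [sub_eq_zero]
  exact h _ _ hx hz

theorem isFGHom_zero (F G : FormalGroup (OC C)) : IsFGHom F G (0 : PowerSeries (OC C)) := by
  refine isFGHom_of_eval F G 0 (by simp) fun x y hx hy => ?_
  rw [ev1_zero _ ((norm_lawAdd_le F x y hx hy).trans_lt (max_lt hx hy)), ev1_zero _ hx, ev1_zero _ hy,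
    lawAdd_zero_zero]

/-! ### Negation -/

section Neg

variable (F : FormalGroup (OC C)) [F.IsComm]

theorem ev1_negSeries (x : LawPt F) : ev1 (negSeries F) x.val = (-x).val := by
  have hs := subst_negSeries F
  have hev := congrArg (fun f : PowerSeries (OC C) => ev1 f x.val) hs
  have h0 : PowerSeries.constantCoeff (negSeries F) = 0 := constantCoeff_negSeries F
  rw [ev1_lawAdd_subst F _ _ (by simp) h0 _ x.norm_lt, ev1_X _ x.norm_lt,
    ev1_zero _ x.norm_lt] at hev
  let y : LawPt F := LawPt.mk (ev1 (negSeries F) x.val)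
    ((norm_ev1_le_of_constantCoeff _ h0 _ x.norm_lt).trans_lt x.norm_lt)
  have hxy : x + y = 0 := LawPt.ext' hev
  have : y = -x := (neg_eq_of_add_eq_zero_right hxy).symm
  exact congrArg LawPt.val this

theorem isFGHom_negSeries : IsFGHom F F (negSeries F) := by
  refine isFGHom_of_eval F F _ (constantCoeff_negSeries F) fun x y hx hy => ?_
  let X : LawPt F := LawPt.mk x hx
  let Y : LawPt F := LawPt.mk y hy
  have h1 : ev1 (negSeries F) (lawAdd F x y) = (-(X + Y)).val := ev1_negSeries F (X + Y)
  have h2 : ev1 (negSeries F) x = (-X).val := ev1_negSeries F X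
  have h3 : ev1 (negSeries F) y = (-Y).val := ev1_negSeries F Y
  rw [h1, h2, h3, neg_add]
  rfl

end Neg

section NegRat

variable (p h : ℕ) [Fact p.Prime] [CharP C p]

/-- The `P`-Frobenius of `𝒪_C`. -/
def frobOC : OC C →+* OC C :=
  haveI := charP_OC (C := C) p
  haveI : ExpChar (OC C) p := ExpChar.prime (Fact.out : p.Prime)
  iterateFrobenius (OC C) p h

theorem frobOC_apply (x : OC C) : frobOC p h x = x ^ (p ^ h) := by
  haveI := charP_OC (C := C) p
  haveI : ExpChar (OC C) p := ExpChar.prime (Fact.out : p.Prime)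
  exact iterateFrobenius_def _ _ _

theorem map_frob_H0C : (H0C p h C).map (frobOC p h) = H0C p h C := by
  unfold H0C
  rw [hzv_map]
  congr 1
  funext i
  rw [frobOC_apply]
  unfold eParam
  split_ifs
  · exact one_pow _
  · exact zero_pow (pow_ne_zero _ (Fact.out : p.Prime).ne_zero)

theorem isRatSeries_negSeries : IsRatSeries (p ^ h) (negSeries (H0C p h C)) := by
  intro j
  have h1 := negSeries_map (frobOC p h) (H0C p h C)
  rw [map_frob_H0C] at h1
  have h2 := congrArg (PowerSeries.coeff j) h1
  rw [PowerSeries.coeff_map, frobOC_apply] at h2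
  have h3 := congrArg Subtype.val h2
  push_cast at h3
  exact h3.symm

theorem isRatSeries_zero : IsRatSeries (p ^ h) (0 : PowerSeries (OC C)) := by
  intro j
  simpa using isRat_zero (C := C) p h

end NegRat

/-! ### Coordinate series -/

section Coord

variable {m : ℕ}

/-- The restriction of a series to the `j`-th axis. -/
def coordS (φ : MvPowerSeries (Fin m) (OC C)) (j : Fin m) : PowerSeries (OC C) :=
  PowerSeries.mk fun k => MvPowerSeries.coeff (Finsupp.single j k) φ

theorem constantCoeff_coordS (φ : MvPowerSeries (Fin m) (OC C))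
    (h0 : MvPowerSeries.constantCoeff φ = 0) (j : Fin m) :
    PowerSeries.constantCoeff (coordS φ j) = 0 := by
  rw [← PowerSeries.coeff_zero_eq_constantCoeff_apply, coordS, PowerSeries.coeff_mk,
    Finsupp.single_zero]
  simpa using h0

theorem ev1_coordS (φ : MvPowerSeries (Fin m) (OC C)) (j : Fin m) (x : C) :
    ev1 (coordS φ j) x = evMv φ (Function.update (0 : Fin m → C) j x) := by
  classical
  unfold evMv ev1
  have hinj : Function.Injective (fun k : ℕ => (Finsupp.single j k : Fin m →₀ ℕ)) :=
    Finsupp.single_injective j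
  rw [← hinj.tsum_eq]
  · refine tsum_congr fun k => ?_
    rw [monoPow_eq, coordS, PowerSeries.coeff_mk]
    congr 1
    rw [Finset.prod_eq_single j]
    · simp
    · intro i _ hij
      simp [Finsupp.single_apply, Ne.symm hij]
    · intro hj; exact absurd (Finset.mem_univ j) hj
  · intro d hd
    by_contra hnot
    apply hd
    rw [Function.mem_support] at hd
    rw [monoPow_eq] at hd
    have hall : ∀ i, i ≠ j → d i = 0 := by
      intro i hij
      by_contra hdi
      apply hd
      rw [Finset.prod_eq_zero (Finset.mem_univ i) (by simp [Function.update_of_ne hij, hdi]),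
        mul_zero]
    have : d = Finsupp.single j (d j) := by
      ext i
      by_cases hij : i = j
      · subst hij; simp
      · simp [hall i hij, Finsupp.single_apply, Ne.symm hij]
    exact absurd ⟨d j, this.symm⟩ hnot

theorem isRatSeries_coordS (P : ℕ) (φ : MvPowerSeries (Fin m) (OC C))
    (hφ : ∀ e, IsRat P (cf φ e)) (j : Fin m) : IsRatSeries P (coordS φ j) := by
  intro k
  rw [coordS, PowerSeries.coeff_mk]
  exact hφ _

theorem isFGHom_coordS (F G : FormalGroup (OC C)) (φ : MvPowerSeries (Fin m) (OC C))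
    (h0 : MvPowerSeries.constantCoeff φ = 0)
    (hadd : ∀ y z : Fin m → C, (∀ i, ‖y i‖ < 1) → (∀ i, ‖z i‖ < 1) →
      evMv φ (fun i => lawAdd F (y i) (z i)) = lawAdd G (evMv φ y) (evMv φ z)) (j : Fin m) :
    IsFGHom F G (coordS φ j) := by
  classical
  refine isFGHom_of_eval F G _ (constantCoeff_coordS φ h0 j) fun x y hx hy => ?_
  rw [ev1_coordS, ev1_coordS, ev1_coordS]
  have hupd : ∀ w : C, ‖w‖ < 1 → ∀ i, ‖Function.update (0 : Fin m → C) j w i‖ < 1 := by
    intro w hw i
    by_cases hi : i = j
    · subst hi; simpa using hw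
    · simp [Function.update_of_ne hi]
  rw [← hadd _ _ (hupd x hx) (hupd y hy)]
  congr 1
  funext i
  by_cases hi : i = j
  · subst hi; simp
  · simp only [Function.update_of_ne hi, Pi.zero_apply]
    exact (lawAdd_zero_zero F).symm

end Coord

/-! ### Additivity by density -/

section Density

variable {m : ℕ} (F : FormalGroup (OC C)) [F.IsComm]

/-- `φ(y +_F z) - (φ(y) +_F φ(z))`, a series in `(y, z)`. -/
def defect (φ : MvPowerSeries (Fin m) (OC C)) : MvPowerSeries (Fin m ⊕ Fin m) (OC C) :=
  transl F φ - F.toPowerSeries.subst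
    ![φ.subst (fun i => (MvPowerSeries.X (Sum.inl i) : MvPowerSeries (Fin m ⊕ Fin m) (OC C))),
      φ.subst (fun i => (MvPowerSeries.X (Sum.inr i) : MvPowerSeries (Fin m ⊕ Fin m) (OC C)))]

theorem evMv_defect (φ : MvPowerSeries (Fin m) (OC C)) (h0 : MvPowerSeries.constantCoeff φ = 0)
    {y z : Fin m → C} (hy : ∀ i, ‖y i‖ < 1) (hz : ∀ i, ‖z i‖ < 1) :
    evMv (defect F φ) (Sum.elim y z) =
      evMv φ (fun i => lawAdd F (y i) (z i)) - lawAdd F (evMv φ y) (evMv φ z) := by
  classical
  have hyz := elim_lt hy hz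
  have hcX : ∀ s : Fin m ⊕ Fin m, MvPowerSeries.constantCoeff
      (MvPowerSeries.X s : MvPowerSeries (Fin m ⊕ Fin m) (OC C)) = 0 := fun s => by simp
  have hc : ∀ f : Fin m → (Fin m ⊕ Fin m), MvPowerSeries.constantCoeff
      (φ.subst (fun i => (MvPowerSeries.X (f i) : MvPowerSeries (Fin m ⊕ Fin m) (OC C)))) = 0 := by
    intro f
    exact MvPowerSeries.constantCoeff_subst_eq_zero
      (MvPowerSeries.hasSubst_of_constantCoeff_zero (fun i => hcX _)) (fun i => hcX _) h0
  have hval : ∀ (f : Fin m → (Fin m ⊕ Fin m)), evMv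
      (φ.subst (fun i => (MvPowerSeries.X (f i) : MvPowerSeries (Fin m ⊕ Fin m) (OC C))))
        (Sum.elim y z) = evMv φ (fun i => Sum.elim y z (f i)) := by
    intro f
    rw [evMv_subst φ _ (fun i => hcX _) _ hyz]
    congr 1
    funext i
    exact evMv_X _ hyz _
  unfold defect
  rw [evMv_sub _ _ _ hyz, evMv_transl F φ hy hz,
    evMv_subst_pair _ _ _ (hc _) (hc _) _ hyz, hval, hval]
  rfl

theorem eq_zero_of_coeffSeries {σ τ : Type} [Fintype σ] [Fintype τ]
    (S : MvPowerSeries (σ ⊕ τ) (OC C)) (h : ∀ e, coeffSeries S e = 0) : S = 0 := by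
  refine MvPowerSeries.ext fun q => ?_
  have := congrFun (h (Finsupp.sumFinsuppEquivProdFinsupp q).2) (Finsupp.sumFinsuppEquivProdFinsupp q).1
  rw [map_zero]
  have h2 : coeffSeries S (Finsupp.sumFinsuppEquivProdFinsupp q).2 (Finsupp.sumFinsuppEquivProdFinsupp q).1
      = MvPowerSeries.coeff q S := by
    simp [coeffSeries]
  rw [← h2, this]
  rfl

/-- A series additive on a dense (in the sense of `hdense`) subgroup is additive. -/
theorem additive_of_density (𝔸 : AddSubgroup (Fin m → LawPt F))
    (hdense : ∀ S : MvPowerSeries (Fin m) (OC C), (∀ a ∈ 𝔸, evMv S (vals a) = 0) → S = 0)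
    (φ : MvPowerSeries (Fin m) (OC C)) (h0 : MvPowerSeries.constantCoeff φ = 0)
    (hadd : ∀ b ∈ 𝔸, ∀ c ∈ 𝔸, evMv φ (vals (b + c)) = lawAdd F (evMv φ (vals b)) (evMv φ (vals c)))
    (y z : Fin m → C) (hy : ∀ i, ‖y i‖ < 1) (hz : ∀ i, ‖z i‖ < 1) :
    evMv φ (fun i => lawAdd F (y i) (z i)) = lawAdd F (evMv φ y) (evMv φ z) := by
  classical
  have hE : defect F φ = 0 := by
    apply eq_zero_of_coeffSeries
    intro e
    apply hdense
    intro b hb
    have hpev : pev (vals b) (vals_lt b) (defect F φ) = 0 := by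
      apply hdense
      intro c hc
      rw [evMv_pev _ _ _ (vals_lt c), evMv_defect F φ h0 (vals_lt b) (vals_lt c), sub_eq_zero]
      exact hadd b hb c hc
    rw [← cf_pev (vals b) (vals_lt b), hpev]
    simp [cf]
  have h1 := evMv_defect F φ h0 hy hz
  rw [hE, evMv_zero _ (elim_lt hy hz)] at h1
  exact (sub_eq_zero.1 h1.symm)

end Density

end FSA

end

end Crest.Agent.LT
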