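/-
S0351 package FS: the formal implicit function, with rational coefficients (helper56).
-/
import Crest.Agent.LT.Abstract.Germ

set_option autoImplicit false
set_option linter.style.haveILetI false
set_option linter.unusedSimpArgs false
set_option linter.unusedVariables false

namespace Crest.Agent.LT

noncomputable section

namespace FSImplicit

open MvPowerSeries Finsupp

section Formal

variable {R : Type*} [CommRing R] {m' : ℕ}

/-- Order at least `n`. -/
def Ord (n : ℕ) (f : MvPowerSeries (Fin m') R) : Prop :=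
  ∀ e : Fin m' →₀ ℕ, e.degree < n → coeff e f = 0

theorem Ord.sub {n : ℕ} {f g : MvPowerSeries (Fin m') R} (hf : Ord n f) (hg : Ord n g) :
    Ord n (f - g) := fun e he => by rw [map_sub, hf e he, hg e he, sub_zero]

theorem Ord.mono {n k : ℕ} {f : MvPowerSeries (Fin m') R} (hf : Ord n f) (h : k ≤ n) : Ord k f :=
  fun e he => hf e (lt_of_lt_of_le he h)

theorem Ord.mul {n k : ℕ} {f g : MvPowerSeries (Fin m') R} (hf : Ord n f) (hg : Ord k g) :
    Ord (n + k) (f * g) := by
  intro e he
  classical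
  rw [coeff_mul]
  refine Finset.sum_eq_zero ?_
  rintro ⟨a, b⟩ hab
  rw [Finset.HasAntidiagonal.mem_antidiagonal] at hab
  simp only at hab ⊢
  have hdeg : a.degree + b.degree = e.degree := by rw [← map_add, hab]
  by_cases ha : a.degree < n
  · rw [hf a ha, zero_mul]
  · have hb : b.degree < k := by omega
    rw [hg b hb, mul_zero]

theorem ord_zero (f : MvPowerSeries (Fin m') R) : Ord 0 f := fun e he => absurd he (Nat.not_lt_zero _)

theorem ord_one_iff {f : MvPowerSeries (Fin m') R} : Ord 1 f ↔ constantCoeff f = 0 := by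
  constructor
  · intro h
    have := h 0 (by simp)
    simpa using this
  · intro h e he
    have he0 : e = 0 := (Finsupp.degree_eq_zero_iff e).1 (by omega)
    subst he0
    simpa using h

theorem ord_zero_series (n : ℕ) : Ord n (0 : MvPowerSeries (Fin m') R) := fun e _ => map_zero _

/-- Substitution vector: `ψ` at `j₀`, variables elsewhere. -/
def ins (j₀ : Fin (m' + 1)) (ψ : MvPowerSeries (Fin m') R) : Fin (m' + 1) → MvPowerSeries (Fin m') R :=
  Fin.insertNth j₀ ψ (fun k => (X k : MvPowerSeries (Fin m') R))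

@[simp] theorem ins_same (j₀ : Fin (m' + 1)) (ψ : MvPowerSeries (Fin m') R) : ins j₀ ψ j₀ = ψ :=
  Fin.insertNth_apply_same _ _ _

@[simp] theorem ins_succAbove (j₀ : Fin (m' + 1)) (ψ : MvPowerSeries (Fin m') R) (k : Fin m') :
    ins j₀ ψ (j₀.succAbove k) = X k := Fin.insertNth_apply_succAbove _ _ _ _

theorem constantCoeff_ins (j₀ : Fin (m' + 1)) {ψ : MvPowerSeries (Fin m') R}
    (hψ : constantCoeff ψ = 0) (i : Fin (m' + 1)) : constantCoeff (ins j₀ ψ i) = 0 := by
  induction i using Fin.succAboveCases j₀ with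
  | x => simpa using hψ
  | p k => simp

theorem hasSubst_ins (j₀ : Fin (m' + 1)) {ψ : MvPowerSeries (Fin m') R}
    (hψ : constantCoeff ψ = 0) : HasSubst (ins j₀ ψ) :=
  hasSubst_of_constantCoeff_zero (constantCoeff_ins j₀ hψ)

/-- The monomial `y^α ψ^k`. -/
theorem prod_ins (j₀ : Fin (m' + 1)) (ψ : MvPowerSeries (Fin m') R) (d : Fin (m' + 1) →₀ ℕ) :
    (d.prod fun s e => ins j₀ ψ s ^ e) =
      ψ ^ d j₀ * ∏ k : Fin m', (X k : MvPowerSeries (Fin m') R) ^ d (j₀.succAbove k) := by
  rw [Finsupp.prod_fintype _ _ (fun i => pow_zero _), Fin.prod_univ_succAbove _ j₀]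
  simp

theorem ord_prod_X (j₀ : Fin (m' + 1)) (d : Fin (m' + 1) →₀ ℕ)
    (h : ∃ k : Fin m', d (j₀.succAbove k) ≠ 0) :
    Ord 1 (∏ k : Fin m', (X k : MvPowerSeries (Fin m') R) ^ d (j₀.succAbove k)) := by
  rw [ord_one_iff, map_prod]
  obtain ⟨k, hk⟩ := h
  refine Finset.prod_eq_zero (Finset.mem_univ k) ?_
  simp [hk]

/-- Key contraction for one monomial. -/
theorem ord_mon_sub (j₀ : Fin (m' + 1)) {ψ ψ' : MvPowerSeries (Fin m') R}
    (hψ : constantCoeff ψ = 0) (hψ' : constantCoeff ψ' = 0) {n : ℕ} (h : Ord n (ψ - ψ'))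
    (d : Fin (m' + 1) →₀ ℕ) (hd : d ≠ single j₀ 1) :
    Ord (n + 1) ((d.prod fun s e => ins j₀ ψ s ^ e) - d.prod fun s e => ins j₀ ψ' s ^ e) := by
  classical
  rw [prod_ins, prod_ins, ← sub_mul]
  set U := ∏ k : Fin m', (X k : MvPowerSeries (Fin m') R) ^ d (j₀.succAbove k) with hU
  by_cases hk0 : d j₀ = 0
  · rw [hk0, pow_zero, pow_zero, sub_self, zero_mul]
    exact ord_zero_series _
  have hgeom : ψ ^ d j₀ - ψ' ^ d j₀ =
      (∑ i ∈ Finset.range (d j₀), ψ ^ i * ψ' ^ (d j₀ - 1 - i)) * (ψ - ψ') :=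
    (geom_sum₂_mul ψ ψ' (d j₀)).symm
  rw [hgeom, mul_assoc, mul_comm (ψ - ψ'), ← mul_assoc, add_comm n 1]
  refine Ord.mul ?_ h
  -- cofactor has zero constant term
  rw [ord_one_iff, map_mul]
  by_cases hk1 : d j₀ = 1
  · -- then some other exponent is nonzero
    have hex : ∃ k : Fin m', d (j₀.succAbove k) ≠ 0 := by
      by_contra hc
      push Not at hc
      apply hd
      ext i
      induction i using Fin.succAboveCases j₀ with
      | x => simp [hk1]
      | p k =>
        have hne : j₀ ≠ j₀.succAbove k := (Fin.succAbove_ne j₀ k).symm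
        simp [hc k, Finsupp.single_apply, hne]
    have := (ord_one_iff.1 (ord_prod_X (R := R) j₀ d hex))
    rw [this, mul_zero]
  · have hk2 : 2 ≤ d j₀ := by omega
    have : constantCoeff (∑ i ∈ Finset.range (d j₀), ψ ^ i * ψ' ^ (d j₀ - 1 - i)) = 0 := by
      rw [map_sum]
      refine Finset.sum_eq_zero ?_
      intro i hi
      have hi' : i < d j₀ := Finset.mem_range.1 hi
      rw [map_mul, map_pow, map_pow, hψ, hψ']
      by_cases hi0 : i = 0
      · rw [zero_pow (by omega : d j₀ - 1 - i ≠ 0), mul_zero]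
      · rw [zero_pow hi0, zero_mul]
    rw [this, zero_mul]

theorem prod_ins_single (j₀ : Fin (m' + 1)) (ψ : MvPowerSeries (Fin m') R) :
    ((single j₀ 1 : Fin (m' + 1) →₀ ℕ).prod fun s e => ins j₀ ψ s ^ e) = ψ := by
  rw [Finsupp.prod_single_index (by simp), ins_same, pow_one]

/-- The coefficient formula for differences of substitutions. -/
theorem coeff_subst_sub (F : MvPowerSeries (Fin (m' + 1)) R) (j₀ : Fin (m' + 1))
    {ψ ψ' : MvPowerSeries (Fin m') R} (hψ : constantCoeff ψ = 0) (hψ' : constantCoeff ψ' = 0)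
    {n : ℕ} (h : Ord n (ψ - ψ')) (e : Fin m' →₀ ℕ) (he : e.degree < n + 1) :
    coeff e (F.subst (ins j₀ ψ)) - coeff e (F.subst (ins j₀ ψ')) =
      coeff (single j₀ 1) F * coeff e (ψ - ψ') := by
  classical
  have ha := hasSubst_ins j₀ hψ
  have ha' := hasSubst_ins j₀ hψ'
  rw [coeff_subst ha, coeff_subst ha', ← finsum_sub_distrib (coeff_subst_finite ha F e)
    (coeff_subst_finite ha' F e)]
  rw [finsum_eq_single _ (single j₀ 1)]
  · rw [prod_ins_single, prod_ins_single, smul_eq_mul, smul_eq_mul, ← mul_sub, map_sub]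
  · intro d hd
    have := ord_mon_sub j₀ hψ hψ' h d hd e he
    rw [map_sub] at this
    rw [smul_eq_mul, smul_eq_mul, ← mul_sub, this, mul_zero]

/-- **Formal implicit function.** -/
theorem exists_formal (F : MvPowerSeries (Fin (m' + 1)) R) (j₀ : Fin (m' + 1))
    (h0 : constantCoeff F = 0) (c' : R) (hc' : coeff (single j₀ 1) F * c' = 1) :
    ∃ ψ : MvPowerSeries (Fin m') R, constantCoeff ψ = 0 ∧ F.subst (ins j₀ ψ) = 0 := by
  classical
  set c := coeff (single j₀ 1) F with hc
  let G : MvPowerSeries (Fin m') R → MvPowerSeries (Fin m') R := fun ψ =>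
    ψ - C c' * F.subst (ins j₀ ψ)
  have hG0 : ∀ ψ, constantCoeff ψ = 0 → constantCoeff (G ψ) = 0 := by
    intro ψ hψ
    have h1 : constantCoeff (F.subst (ins j₀ ψ)) = 0 :=
      constantCoeff_subst_eq_zero (hasSubst_ins j₀ hψ) (constantCoeff_ins j₀ hψ) h0
    simp only [G]
    rw [map_sub, map_mul, h1, hψ, mul_zero, sub_zero]
  have hGcontr : ∀ ψ ψ', constantCoeff ψ = 0 → constantCoeff ψ' = 0 → ∀ n, Ord n (ψ - ψ') →
      Ord (n + 1) (G ψ - G ψ') := by
    intro ψ ψ' hψ hψ' n h e he
    have h1 := coeff_subst_sub F j₀ hψ hψ' h e he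
    simp only [G]
    have h2 : coeff e (ψ - C c' * F.subst (ins j₀ ψ) - (ψ' - C c' * F.subst (ins j₀ ψ'))) =
        coeff e (ψ - ψ') - c' * (coeff e (F.subst (ins j₀ ψ)) - coeff e (F.subst (ins j₀ ψ'))) := by
      simp only [map_sub, coeff_C_mul]
      ring
    rw [h2, h1, ← mul_assoc, mul_comm c', hc', one_mul, sub_self]
  let s : ℕ → MvPowerSeries (Fin m') R := fun n => Nat.rec 0 (fun _ x => G x) n
  have hs0 : ∀ n, constantCoeff (s n) = 0 := by
    intro n
    induction n with
    | zero => exact map_zero _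
    | succ n ih => exact hG0 _ ih
  have hsOrd : ∀ n, Ord (n + 1) (s (n + 1) - s n) := by
    intro n
    induction n with
    | zero =>
      rw [ord_one_iff, map_sub]
      exact sub_eq_zero.2 ((hs0 (0 + 1)).trans (hs0 0).symm)
    | succ n ih => exact hGcontr (s (n + 1)) (s n) (hs0 (n + 1)) (hs0 n) (n + 1) ih
  have hstable : ∀ e : Fin m' →₀ ℕ, ∀ N, e.degree < N → coeff e (s N) = coeff e (s (e.degree + 1)) := by
    intro e N hN
    induction N, (Nat.succ_le_of_lt hN : e.degree + 1 ≤ N) using Nat.le_induction with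
    | base => rfl
    | succ N hN' ih =>
      have := hsOrd N e (by omega)
      rw [map_sub, sub_eq_zero] at this
      rw [this]
      exact ih (by omega)
  let ψ : MvPowerSeries (Fin m') R := fun e => coeff e (s (e.degree + 1))
  have hψc : ∀ e, coeff e ψ = coeff e (s (e.degree + 1)) := fun e => rfl
  have hψs : ∀ N, Ord N (ψ - s N) := by
    intro N e he
    rw [map_sub, hψc, hstable e N he, sub_self]
  have hψ0 : constantCoeff ψ = 0 := by
    have h1 : constantCoeff (ψ - s 1) = 0 := ord_one_iff.1 (hψs 1)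
    rw [map_sub, hs0, sub_zero] at h1
    exact h1
  refine ⟨ψ, hψ0, ?_⟩
  -- fixed point
  have hfix : G ψ = ψ := by
    ext e
    have hN : e.degree < e.degree + 1 := Nat.lt_succ_self _
    have h1 := hGcontr ψ (s (e.degree + 1)) hψ0 (hs0 (e.degree + 1)) (e.degree + 1) (hψs (e.degree + 1)) e (by omega)
    rw [map_sub, sub_eq_zero] at h1
    have h2 : coeff e (G (s (e.degree + 1))) = coeff e ψ := by
      exact (hstable e (e.degree + 1 + 1) (by omega)).trans (hψc e).symm
    rw [h1, h2]
  have h3 : C c' * F.subst (ins j₀ ψ) = 0 := by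
    have : ψ - C c' * F.subst (ins j₀ ψ) = ψ := hfix
    simpa using this
  have h4 : C c * (C c' * F.subst (ins j₀ ψ)) = F.subst (ins j₀ ψ) := by
    rw [← mul_assoc, ← map_mul, hc', map_one, one_mul]
  rw [← h4, h3, mul_zero]

end Formal

section Analysis

variable {C : Type} [NontriviallyNormedField C] [IsUltrametricDist C] [CompleteSpace C]

/-- One-coordinate first-order estimate. -/
theorem norm_eval_sub_sub_le {m' : ℕ} (F : MvPowerSeries (Fin (m' + 1)) (OC C)) (j₀ : Fin (m' + 1))
    (y : Fin m' → C) (t t' : C) (ρ : ℝ) (hρ0 : 0 ≤ ρ) (hρ1 : ρ ≤ 1) (hy : ∀ i, ‖y i‖ ≤ ρ) (ht : ‖t‖ ≤ ρ)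
    (ht' : ‖t'‖ ≤ ρ) (hρ : ρ < 1) :
    ‖evMv F (Fin.insertNth j₀ t y) - evMv F (Fin.insertNth j₀ t' y) -
        cf F (single j₀ 1) * (t - t')‖ ≤ ρ * ‖t - t'‖ := by
  classical
  have hb : ∀ x : C, ‖x‖ ≤ ρ → ∀ i, ‖(Fin.insertNth j₀ x y : Fin (m' + 1) → C) i‖ < 1 := by
    intro x hx i
    induction i using Fin.succAboveCases j₀ with
    | x => simpa using hx.trans_lt hρ
    | p k => simpa using (hy k).trans_lt hρ
  have hs1 := summable_evMv F _ (hb t ht)
  have hs2 := summable_evMv F _ (hb t' ht')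
  have hmon : ∀ (x : C) (d : Fin (m' + 1) →₀ ℕ), mon (Fin.insertNth j₀ x y) d =
      x ^ d j₀ * ∏ k : Fin m', y k ^ d (j₀.succAbove k) := by
    intro x d
    unfold mon
    rw [Finsupp.prod_fintype _ _ (fun i => pow_zero _), Fin.prod_univ_succAbove _ j₀]
    simp
  have hnn : 0 ≤ ρ * ‖t - t'‖ := by positivity
  unfold evMv
  rw [← hs1.tsum_sub hs2]
  have hsingle : cf F (single j₀ 1) * (t - t') =
      ∑' d : Fin (m' + 1) →₀ ℕ, if d = single j₀ 1 then cf F (single j₀ 1) * (t - t') else 0 := by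
    rw [tsum_ite_eq]
  rw [hsingle, ← (hs1.sub hs2).tsum_sub (summable_of_hasFiniteSupport ?_)]
  · apply IsUltrametricDist.norm_tsum_le_of_forall_le_of_nonneg hnn
    intro d
    change ‖cf F d * mon (Fin.insertNth j₀ t y) d - cf F d * mon (Fin.insertNth j₀ t' y) d -
      (if d = single j₀ 1 then cf F (single j₀ 1) * (t - t') else 0)‖ ≤ _
    by_cases hd : d = single j₀ 1
    · rw [if_pos hd]
      subst hd
      have h1 : mon (Fin.insertNth j₀ t y) (single j₀ 1) = t := by
        unfold mon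
        rw [Finsupp.prod_single_index (by simp)]
        simp
      have h2 : mon (Fin.insertNth j₀ t' y) (single j₀ 1) = t' := by
        unfold mon
        rw [Finsupp.prod_single_index (by simp)]
        simp
      rw [h1, h2, ← mul_sub, sub_self, norm_zero]
      exact hnn
    · rw [if_neg hd, sub_zero, ← mul_sub, norm_mul, hmon, hmon, ← sub_mul]
      have hcf : ‖cf F d‖ ≤ 1 := norm_cf_le F d
      set U := ∏ k : Fin m', y k ^ d (j₀.succAbove k) with hU
      have hU1 : ‖U‖ ≤ 1 := by
        rw [hU, norm_prod]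
        refine Finset.prod_le_one (fun _ _ => norm_nonneg _) (fun k _ => ?_)
        rw [norm_pow]
        exact pow_le_one₀ (norm_nonneg _) ((hy k).trans hρ1)
      have hgoal : ‖(t ^ d j₀ - t' ^ d j₀) * U‖ ≤ ρ * ‖t - t'‖ := by
        by_cases hk0 : d j₀ = 0
        · rw [hk0, pow_zero, pow_zero, sub_self, zero_mul, norm_zero]
          exact hnn
        have hgeom : t ^ d j₀ - t' ^ d j₀ =
            (∑ i ∈ Finset.range (d j₀), t ^ i * t' ^ (d j₀ - 1 - i)) * (t - t') :=
          (geom_sum₂_mul t t' (d j₀)).symm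
        rw [hgeom, norm_mul, norm_mul]
        by_cases hk1 : d j₀ = 1
        · -- then another exponent is nonzero: `‖U‖ ≤ ρ`
          have hex : ∃ k : Fin m', d (j₀.succAbove k) ≠ 0 := by
            by_contra hc
            push Not at hc
            apply hd
            ext i
            induction i using Fin.succAboveCases j₀ with
            | x => simp [hk1]
            | p k =>
              have hne : j₀ ≠ j₀.succAbove k := (Fin.succAbove_ne j₀ k).symm
              simp [hc k, Finsupp.single_apply, hne]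
          obtain ⟨k₀, hk₀⟩ := hex
          have hUρ : ‖U‖ ≤ ρ := by
            rw [hU, norm_prod, ← Finset.mul_prod_erase _ _ (Finset.mem_univ k₀)]
            have h1 : ‖y k₀ ^ d (j₀.succAbove k₀)‖ ≤ ρ := by
              rw [norm_pow]
              calc ‖y k₀‖ ^ d (j₀.succAbove k₀) ≤ ‖y k₀‖ ^ 1 :=
                    pow_le_pow_of_le_one (norm_nonneg _) ((hy k₀).trans hρ1)
                      (Nat.one_le_iff_ne_zero.2 hk₀)
                _ = ‖y k₀‖ := pow_one _
                _ ≤ ρ := hy k₀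
            have h2 : ∏ k ∈ Finset.univ.erase k₀, ‖y k ^ d (j₀.succAbove k)‖ ≤ 1 := by
              refine Finset.prod_le_one (fun _ _ => norm_nonneg _) (fun k _ => ?_)
              rw [norm_pow]
              exact pow_le_one₀ (norm_nonneg _) ((hy k).trans hρ1)
            calc _ ≤ ρ * 1 := mul_le_mul h1 h2 (Finset.prod_nonneg fun _ _ => norm_nonneg _) hρ0
              _ = ρ := mul_one _
          have hsum1 : ‖∑ i ∈ Finset.range (d j₀), t ^ i * t' ^ (d j₀ - 1 - i)‖ ≤ 1 := by
            rw [hk1]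
            simp
          calc _ ≤ 1 * ‖t - t'‖ * ρ := by
                gcongr
            _ = ρ * ‖t - t'‖ := by ring
        · have hsum : ‖∑ i ∈ Finset.range (d j₀), t ^ i * t' ^ (d j₀ - 1 - i)‖ ≤ ρ := by
            apply IsUltrametricDist.norm_sum_le_of_forall_le_of_nonneg hρ0
            intro i hi
            have hi' : i < d j₀ := Finset.mem_range.1 hi
            rw [norm_mul, norm_pow, norm_pow]
            by_cases hi0 : i = 0
            · subst hi0
              rw [pow_zero, one_mul]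
              calc ‖t'‖ ^ (d j₀ - 1 - 0) ≤ ‖t'‖ ^ 1 :=
                    pow_le_pow_of_le_one (norm_nonneg _) (ht'.trans hρ1) (by omega)
                _ = ‖t'‖ := pow_one _
                _ ≤ ρ := ht'
            · have h1 : ‖t‖ ^ i ≤ ρ := by
                calc ‖t‖ ^ i ≤ ‖t‖ ^ 1 :=
                      pow_le_pow_of_le_one (norm_nonneg _) (ht.trans hρ1)
                        (Nat.one_le_iff_ne_zero.2 hi0)
                  _ = ‖t‖ := pow_one _
                  _ ≤ ρ := ht
              have h2 : ‖t'‖ ^ (d j₀ - 1 - i) ≤ 1 :=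
                pow_le_one₀ (norm_nonneg _) (ht'.trans hρ1)
              calc _ ≤ ρ * 1 := mul_le_mul h1 h2 (by positivity) hρ0
                _ = ρ := mul_one _
          calc _ ≤ ρ * ‖t - t'‖ * 1 := by gcongr
            _ = ρ * ‖t - t'‖ := mul_one _
      calc ‖cf F d‖ * ‖(t ^ d j₀ - t' ^ d j₀) * U‖ ≤ 1 * (ρ * ‖t - t'‖) := by gcongr
        _ = _ := one_mul _
  · refine (Set.finite_singleton (single j₀ 1)).subset ?_
    intro d hd
    by_contra hne
    exact hd (if_neg hne)

end Analysis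

section Rational

variable {C : Type} [NontriviallyNormedField C] [IsUltrametricDist C]

/-- The subring of `p^h`-rational elements of `𝒪_C`. -/
def ratSub (p h : ℕ) [Fact p.Prime] [CharP C p] : Subring (OC C) :=
  (RingHom.eqLocus (iterateFrobenius C p h) (RingHom.id C)).comap (OC C).subtype

theorem mem_ratSub (p h : ℕ) [Fact p.Prime] [CharP C p] (x : OC C) :
    x ∈ ratSub (C := C) p h ↔ ((x : OC C) : C) ^ p ^ h = x := by
  change iterateFrobenius C p h (x : C) = (x : C) ↔ _
  rw [iterateFrobenius_def]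

end Rational

end FSImplicit

open MvPowerSeries Finsupp in
/-- **Formal implicit function with rational coefficients.** -/
theorem implicit_function {C : Type} [NontriviallyNormedField C] [IsUltrametricDist C] [CompleteSpace C]
    {m' : ℕ} (p h : ℕ) [Fact p.Prime] [CharP C p] (hh : 1 ≤ h) (j₀ : Fin (m' + 1))
    (F₁ : MvPowerSeries (Fin (m' + 1)) (OC C)) (h0 : constantCoeff F₁ = 0)
    (hrat : ∀ e, IsRat (p ^ h) (cf F₁ e)) (hc : coeff (single j₀ 1) F₁ ≠ 0) :
    ∃ φ : MvPowerSeries (Fin m') (OC C), constantCoeff φ = 0 ∧ (∀ e, IsRat (p ^ h) (cf φ e)) ∧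
      (∀ y : Fin m' → C, (∀ i, ‖y i‖ < 1) → evMv F₁ (Fin.insertNth j₀ (evMv φ y) y) = 0) ∧
      (∀ a : Fin (m' + 1) → C, (∀ i, ‖a i‖ < 1) → evMv F₁ a = 0 →
        a j₀ = evMv φ (fun i => a (j₀.succAbove i))) := by
  classical
  open FSImplicit in
  have hP2 : 2 ≤ p ^ h := by
    have hp2 : 2 ≤ p := (Fact.out : p.Prime).two_le
    calc 2 ≤ p := hp2
      _ = p ^ 1 := (pow_one p).symm
      _ ≤ p ^ h := Nat.pow_le_pow_right (by omega) hh
  set A : Subring (OC C) := FSImplicit.ratSub (C := C) p h with hA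
  -- the series over `A`
  let F' : MvPowerSeries (Fin (m' + 1)) A := fun e =>
    ⟨coeff e F₁, (FSImplicit.mem_ratSub (C := C) p h _).2 (hrat e)⟩
  have hF' : map A.subtype F' = F₁ := by
    ext e
    rfl
  set c : OC C := coeff (single j₀ 1) F₁ with hcdef
  have hcC : (c : C) ≠ 0 := fun h' => hc (Subtype.ext h')
  have hc1 : (c : C) ^ (p ^ h - 1) = 1 := by
    have h1 : (c : C) ^ (p ^ h) = c := hrat _
    have h2 : (c : C) ^ (p ^ h - 1) * c = c := by
      rw [← pow_succ, Nat.sub_add_cancel (by omega)]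
      exact h1
    exact mul_right_cancel₀ hcC (h2.trans (one_mul _).symm)
  have hcnorm : ‖(c : C)‖ = 1 := by
    have h1 := congrArg norm hc1
    rw [norm_pow, norm_one] at h1
    exact (pow_eq_one_iff_of_nonneg (norm_nonneg _) (by omega)).1 h1
  let c₀ : A := ⟨c, (FSImplicit.mem_ratSub (C := C) p h _).2 (hrat _)⟩
  let c' : A := c₀ ^ (p ^ h - 2)
  have hcc' : coeff (single j₀ 1) F' * c' = 1 := by
    apply Subtype.ext
    apply Subtype.ext
    change (c : C) * (c : C) ^ (p ^ h - 2) = 1
    rw [← pow_succ']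
    have : p ^ h - 2 + 1 = p ^ h - 1 := by omega
    rw [this, hc1]
  have h0' : constantCoeff F' = 0 := by
    apply Subtype.ext
    exact h0
  obtain ⟨ψ, hψ0, hψ⟩ := FSImplicit.exists_formal F' j₀ h0' c' hcc'
  let φ : MvPowerSeries (Fin m') (OC C) := map A.subtype ψ
  have hφ0 : constantCoeff φ = 0 := by
    have : constantCoeff φ = A.subtype (constantCoeff ψ) := by
      simp [φ, MvPowerSeries.constantCoeff_map]
    rw [this, hψ0, map_zero]
  have hφrat : ∀ e, IsRat (p ^ h) (cf φ e) := fun e =>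
    (FSImplicit.mem_ratSub (C := C) p h _).1 (coeff e ψ).2
  have hinsmap : ∀ i, map A.subtype (FSImplicit.ins j₀ ψ i) = FSImplicit.ins j₀ φ i := by
    intro i
    induction i using Fin.succAboveCases j₀ with
    | x => simp [φ]
    | p k => simp
  have hsubst : F₁.subst (FSImplicit.ins j₀ φ) = 0 := by
    have h1 := map_subst (FSImplicit.hasSubst_ins j₀ hψ0) (h := A.subtype) F'
    rw [hψ, hF'] at h1
    simp only [hinsmap] at h1
    rw [← h1]
    exact map_zero _
  have hinseval : ∀ y : Fin m' → C, (∀ i, ‖y i‖ < 1) →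
      (fun t => evMv (FSImplicit.ins j₀ φ t) y) = Fin.insertNth j₀ (evMv φ y) y := by
    intro y hy
    funext t
    induction t using Fin.succAboveCases j₀ with
    | x => simp
    | p k =>
      simp only [FSImplicit.ins_succAbove, Fin.insertNth_apply_succAbove]
      exact evMv_X y hy k
  have hzero : ∀ y : Fin m' → C, (∀ i, ‖y i‖ < 1) →
      evMv F₁ (Fin.insertNth j₀ (evMv φ y) y) = 0 := by
    intro y hy
    have h1 := evMv_subst F₁ (FSImplicit.ins j₀ φ) (FSImplicit.constantCoeff_ins j₀ hφ0) y hy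
    rw [hsubst, evMv_zero y hy, hinseval y hy] at h1
    exact h1.symm
  refine ⟨φ, hφ0, hφrat, hzero, ?_⟩
  intro a ha hFa
  set y : Fin m' → C := fun i => a (j₀.succAbove i) with hydef
  have hy : ∀ i, ‖y i‖ < 1 := fun i => ha _
  have haeq : a = Fin.insertNth j₀ (a j₀) y := by
    funext i
    induction i using Fin.succAboveCases j₀ with
    | x => simp
    | p k => simp [hydef]
  obtain ⟨r, hr0, hr1, hr⟩ := exists_radius a ha
  set t' := evMv φ y with ht'def
  have hyr : ∀ i, ‖y i‖ ≤ r := fun i => hr _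
  have ht' : ‖t'‖ ≤ r := norm_evMv_le_of_constantCoeff φ hφ0 y r hr1 hr0 hyr
  have hkey := FSImplicit.norm_eval_sub_sub_le F₁ j₀ y (a j₀) t' r hr0 hr1.le hyr (hr _) ht' hr1
  rw [← haeq, hFa, hzero y hy, sub_zero, zero_sub, norm_neg, norm_mul] at hkey
  have hcf : ‖cf F₁ (single j₀ 1)‖ = 1 := hcnorm
  rw [hcf, one_mul] at hkey
  by_contra hne
  have hpos : 0 < ‖a j₀ - t'‖ := norm_pos_iff.2 (sub_ne_zero.2 hne)
  have : 1 * ‖a j₀ - t'‖ ≤ r * ‖a j₀ - t'‖ := by rwa [one_mul]
  have := le_of_mul_le_mul_right this hpos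
  linarith

end

end Crest.Agent.LT
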