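/-
S0351 package FS: a Frobenius-stable subgroup of `H₀(𝔪_C)^m` annihilated by a nonzero rational
power series lies in the kernel of a nonzero homomorphism `H₀^m → H₀` over `𝔽_P`.
See BLUEPRINT.md §FS.
-/
import Crest.Agent.LT.Abstract.Germ
import Crest.Agent.LT.Abstract.FSCase2
import Crest.Agent.LT.Abstract.FSHom
import Crest.Agent.LT.Abstract.FSImplicit
import Crest.Agent.LT.Hazewinkel

set_option autoImplicit false
set_option linter.unusedSectionVars false
set_option linter.unusedVariables false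
set_option linter.unusedSimpArgs false
set_option linter.style.haveILetI false

open Crest.LubinTate

namespace Crest.Agent.LT

noncomputable section

variable {C : Type} [NontriviallyNormedField C] [IsUltrametricDist C] [CompleteSpace C]

namespace FSA

section Main

variable (p h : ℕ) [Fact p.Prime] [CharP C p] [IsAlgClosed C]

/-- A germ gives a rational series, vanishing on `𝔸`, with a nonzero coefficient of degree `≤ d`. -/
theorem exists_rel (hh : 1 ≤ h) {m : ℕ} (𝔸 : AddSubgroup (Fin m → LawPt (H0C p h C))) (r : ℝ)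
    (hr : r < 1) (h𝔸 : ∀ a ∈ 𝔸, ∀ i, ‖(a i).val‖ ≤ r) (d : ℕ) (Q : MvPolynomial (Fin m) C)
    (hQ : Q ≠ 0) (hT : HT p h (valSet 𝔸) d Q) :
    ∃ F₁ : MvPowerSeries (Fin m) (OC C), F₁ ≠ 0 ∧ (∀ e, IsRat (p ^ h) (cf F₁ e)) ∧
      (∀ a ∈ 𝔸, evMv F₁ (vals a) = 0) ∧
      ∃ e : Fin m →₀ ℕ, e.degree ≤ d ∧ MvPowerSeries.coeff e F₁ ≠ 0 := by
  classical
  obtain ⟨F₁, hF₁, hrat, hvan, Q₀, hQ₀, htr, -⟩ := germ_to_relation p h hh (valSet 𝔸) r hr
    (by rintro _ ⟨b, hb, rfl⟩ i; exact h𝔸 b hb i) (frob_valSet p h hh 𝔸) d Q hQ hT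
  refine ⟨F₁, hF₁, hrat, fun a ha => hvan _ ⟨a, ha, rfl⟩, ?_⟩
  have htr' : mapTrunc d F₁ = Q₀ := by
    rw [← htr]
    exact (polyTrunc_mapTrunc le_rfl F₁).symm
  obtain ⟨e, he⟩ := MvPolynomial.ne_zero_iff.1 hQ₀
  rw [← htr', coeff_mapTrunc] at he
  by_cases hde : e.degree ≤ d
  · rw [if_pos hde] at he
    refine ⟨e, hde, fun h0 => he ?_⟩
    simp [cf, h0]
  · rw [if_neg hde] at he
    exact absurd rfl he

theorem norm_evMv_lt_one {m : ℕ} (φ : MvPowerSeries (Fin m) (OC C))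
    (h0 : MvPowerSeries.constantCoeff φ = 0) (y : Fin m → C) (hy : ∀ i, ‖y i‖ < 1) :
    ‖evMv φ y‖ < 1 := by
  obtain ⟨r, hr0, hr1, hr⟩ := exists_radius y hy
  exact (norm_evMv_le_of_constantCoeff φ h0 y r hr1 hr0 hr).trans_lt hr1

theorem exists_single_of_degree_le_one {m : ℕ} (e : Fin m →₀ ℕ) (h1 : e.degree ≤ 1) (h0 : e ≠ 0) :
    ∃ j, e = Finsupp.single j 1 := by
  classical
  obtain ⟨j, hj⟩ : ∃ j, e j ≠ 0 := by
    by_contra hc
    push Not at hc
    exact h0 (Finsupp.ext hc)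
  refine ⟨j, ?_⟩
  have hsum : ∑ i, e i ≤ 1 := by
    rw [← Finsupp.degree_eq_sum]; exact h1
  have hle : ∀ i ∈ Finset.univ, e i ≤ ∑ k, e k := fun i hi =>
    Finset.single_le_sum (f := fun i => e i) (fun _ _ => Nat.zero_le _) hi
  have hj1 : e j = 1 := by
    have := hle j (Finset.mem_univ _)
    omega
  have hothers : ∀ i, i ≠ j → e i = 0 := by
    intro i hij
    by_contra hi
    have h2 : e j + e i ≤ ∑ k, e k := by
      have := Finset.sum_le_sum_of_subset (f := fun k => e k) (Finset.subset_univ {j, i})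
      rw [Finset.sum_pair (Ne.symm hij)] at this
      exact this
    omega
  ext i
  by_cases hij : i = j
  · subst hij; simpa using hj1
  · simp [hothers i hij, Finsupp.single_apply, Ne.symm hij]

theorem lemma_FS_aux (hh : 1 ≤ h) (r : ℝ) (hr : r < 1) (m : ℕ) :
    ∀ (𝔸 : AddSubgroup (Fin m → LawPt (H0C p h C))), (∀ a ∈ 𝔸, ∀ i, ‖(a i).val‖ ≤ r) →
    ∀ F : MvPowerSeries (Fin m) (OC C), F ≠ 0 → (∀ e, IsRat (p ^ h) (cf F e)) →
    (∀ a ∈ 𝔸, evMv F (vals a) = 0) →
    ∃ Θ : Fin m → PowerSeries (OC C), (∀ i, IsRatSeries (p ^ h) (Θ i)) ∧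
      (∃ hom : ∀ i, IsFGHom (H0C p h C) (H0C p h C) (Θ i),
        (∃ i, Θ i ≠ 0) ∧ ∀ a ∈ 𝔸, ∑ i, homPt (Θ i) (hom i) (a i) = 0) := by
  classical
  induction m with
  | zero =>
    intro 𝔸 h𝔸 F hF hFrat hvan
    refine absurd ?_ hF
    refine MvPowerSeries.ext fun d => ?_
    have hd : d = 0 := Subsingleton.elim _ _
    subst hd
    have h1 := hvan 0 𝔸.zero_mem
    rw [vals_zero, evMv_zero_pt] at h1
    simpa using Subtype.ext h1
  | succ m' ih =>
    intro 𝔸 h𝔸 F hF hFrat hvan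
    -- a linear germ
    obtain ⟨Q, hQ, hT⟩ : ∃ Q, Q ≠ 0 ∧ HT p h (valSet 𝔸) 1 Q := by
      by_contra hcon
      push Not at hcon
      exact hF (case2 p h hh 𝔸 (fun Q hq => by_contra fun hne => hcon Q hne hq) F hFrat hvan)
    obtain ⟨F₁, -, hF₁rat, hF₁van, e, he, hce⟩ := exists_rel p h hh 𝔸 r hr h𝔸 1 Q hQ hT
    have h00 : MvPowerSeries.constantCoeff F₁ = 0 := by
      have h1 := hF₁van 0 𝔸.zero_mem
      rw [vals_zero, evMv_zero_pt] at h1
      exact Subtype.ext h1
    have he0 : e ≠ 0 := by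
      rintro rfl
      exact hce (by simpa using h00)
    obtain ⟨j₀, rfl⟩ := exists_single_of_degree_le_one e he he0
    obtain ⟨φ, hφ0, hφrat, -, huniq⟩ := implicit_function p h hh j₀ F₁ h00 hF₁rat hce
    have hrel : ∀ a ∈ 𝔸, (a j₀).val = evMv φ (vals (fun i => a (j₀.succAbove i))) :=
      fun a ha => huniq (vals a) (vals_lt a) (hF₁van a ha)
    -- the projection
    let π : (Fin (m' + 1) → LawPt (H0C p h C)) →+ (Fin m' → LawPt (H0C p h C)) :=
      { toFun := fun a i => a (j₀.succAbove i)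
        map_zero' := rfl
        map_add' := fun _ _ => rfl }
    let 𝔸' : AddSubgroup (Fin m' → LawPt (H0C p h C)) := 𝔸.map π
    have h𝔸' : ∀ b ∈ 𝔸', ∀ i, ‖(b i).val‖ ≤ r := by
      rintro _ ⟨a, ha, rfl⟩ i
      exact h𝔸 a ha _
    by_cases hex : ∃ S : MvPowerSeries (Fin m') (OC C), S ≠ 0 ∧ (∀ e, IsRat (p ^ h) (cf S e)) ∧
        ∀ a ∈ 𝔸', evMv S (vals a) = 0
    · -- the projection is annihilated: induct
      obtain ⟨S, hS, hSrat, hSvan⟩ := hex
      obtain ⟨Θ', hΘ'rat, hom', ⟨i₀, hi₀⟩, hsum⟩ := ih 𝔸' h𝔸' S hS hSrat hSvan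
      let Θ : Fin (m' + 1) → PowerSeries (OC C) := Fin.insertNth j₀ 0 Θ'
      have hj : Θ j₀ = 0 := Fin.insertNth_apply_same _ _ _
      have hs : ∀ i, Θ (j₀.succAbove i) = Θ' i := fun i => Fin.insertNth_apply_succAbove _ _ _ _
      have hom : ∀ i, IsFGHom (H0C p h C) (H0C p h C) (Θ i) :=
        (Fin.forall_iff_succAbove j₀).2 ⟨by rw [hj]; exact isFGHom_zero _ _,
          fun i => by rw [hs]; exact hom' i⟩
      refine ⟨Θ, (Fin.forall_iff_succAbove j₀).2 ⟨by rw [hj]; exact isRatSeries_zero p h,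
        fun i => by rw [hs]; exact hΘ'rat i⟩, hom, ⟨j₀.succAbove i₀, by rw [hs]; exact hi₀⟩, ?_⟩
      intro a ha
      rw [Fin.sum_univ_succAbove _ j₀]
      have t1 : homPt (Θ j₀) (hom j₀) (a j₀) = 0 :=
        LawPt.ext' (by rw [homPt_val, hj, ev1_zero _ (a j₀).norm_lt]; rfl)
      have t2 : ∀ i, homPt (Θ (j₀.succAbove i)) (hom (j₀.succAbove i)) (a (j₀.succAbove i)) =
          homPt (Θ' i) (hom' i) (π a i) :=
        fun i => LawPt.ext' (by rw [homPt_val, homPt_val, hs]; rfl)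
      rw [t1, zero_add, Finset.sum_congr rfl (fun i _ => t2 i)]
      exact hsum (π a) ⟨a, ha, rfl⟩
    · -- density
      push Not at hex
      have hnoRat : ∀ S : MvPowerSeries (Fin m') (OC C), (∀ e, IsRat (p ^ h) (cf S e)) →
          (∀ a ∈ 𝔸', evMv S (vals a) = 0) → S = 0 := by
        intro S hrat hvan'
        by_contra hne
        obtain ⟨a, ha, hna⟩ := hex S hne hrat
        exact hna (hvan' a ha)
      have hlt : ∀ a ∈ valSet 𝔸', ‖a‖ < 1 := by
        rintro _ ⟨b, hb, rfl⟩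
        exact norm_lt_one_of_pi (vals_lt b)
      have hdense : ∀ S : MvPowerSeries (Fin m') (OC C), (∀ a ∈ 𝔸', evMv S (vals a) = 0) →
          S = 0 := by
        intro S hS
        by_contra hne
        obtain ⟨e, he⟩ : ∃ e, MvPowerSeries.coeff e S ≠ 0 := by
          by_contra hc
          push Not at hc
          exact hne (MvPowerSeries.ext fun d => by simpa using hc d)
        have hQ' : mapTrunc e.degree S ≠ 0 := by
          intro h0
          have := coeff_mapTrunc e.degree S e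
          rw [h0, if_pos le_rfl, MvPolynomial.coeff_zero] at this
          exact he (Subtype.ext this.symm)
        have hT' := ht_of_vanish p h (valSet 𝔸') hlt S
          (by rintro _ ⟨b, hb, rfl⟩; exact hS b hb) e.degree
        obtain ⟨F', hF', hF'rat, hF'van, -⟩ := exists_rel p h hh 𝔸' r hr h𝔸' _ _ hQ' hT'
        exact hF' (hnoRat F' hF'rat hF'van)
      -- additivity of `φ`
      have hadd : ∀ b ∈ 𝔸', ∀ c ∈ 𝔸', evMv φ (vals (b + c)) =
          lawAdd (H0C p h C) (evMv φ (vals b)) (evMv φ (vals c)) := by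
        rintro _ ⟨a₁, ha₁, rfl⟩ _ ⟨a₂, ha₂, rfl⟩
        have h1 := hrel a₁ ha₁
        have h2 := hrel a₂ ha₂
        have h3 := hrel (a₁ + a₂) (𝔸.add_mem ha₁ ha₂)
        change evMv φ (vals (fun i => (a₁ + a₂) (j₀.succAbove i))) =
          lawAdd (H0C p h C) (evMv φ (vals (fun i => a₁ (j₀.succAbove i))))
            (evMv φ (vals (fun i => a₂ (j₀.succAbove i))))
        rw [← h1, ← h2, ← h3]
        rfl
      have hall := additive_of_density (H0C p h C) 𝔸' hdense φ hφ0 hadd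
      let Φ : (Fin m' → LawPt (H0C p h C)) →+ LawPt (H0C p h C) :=
        AddMonoidHom.mk' (fun b => LawPt.mk (evMv φ (vals b)) (norm_evMv_lt_one φ hφ0 _ (vals_lt b)))
          (fun b c => LawPt.ext' (hall _ _ (vals_lt b) (vals_lt c)))
      let Θ : Fin (m' + 1) → PowerSeries (OC C) :=
        Fin.insertNth j₀ (negSeries (H0C p h C)) (coordS φ)
      have hj : Θ j₀ = negSeries (H0C p h C) := Fin.insertNth_apply_same _ _ _
      have hs : ∀ i, Θ (j₀.succAbove i) = coordS φ i := fun i => Fin.insertNth_apply_succAbove _ _ _ _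
      have hom : ∀ i, IsFGHom (H0C p h C) (H0C p h C) (Θ i) :=
        (Fin.forall_iff_succAbove j₀).2 ⟨by rw [hj]; exact isFGHom_negSeries _,
          fun i => by rw [hs]; exact isFGHom_coordS _ _ φ hφ0 hall i⟩
      refine ⟨Θ, (Fin.forall_iff_succAbove j₀).2 ⟨by rw [hj]; exact isRatSeries_negSeries p h,
        fun i => by rw [hs]; exact isRatSeries_coordS _ φ hφrat i⟩, hom, ⟨j₀, ?_⟩, ?_⟩
      · rw [hj]
        intro h0
        have := coeff_one_negSeries (H0C p h C)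
        rw [h0, map_zero] at this
        have h2 : ((-1 : OC C) : C) = 0 := by rw [← this]; rfl
        simp at h2
      intro a ha
      rw [Fin.sum_univ_succAbove _ j₀]
      have t1 : homPt (Θ j₀) (hom j₀) (a j₀) = -(a j₀) :=
        LawPt.ext' (by rw [homPt_val, hj]; exact ev1_negSeries _ (a j₀))
      have t2 : ∀ i, homPt (Θ (j₀.succAbove i)) (hom (j₀.succAbove i)) (a (j₀.succAbove i)) =
          Φ (Pi.single i (a (j₀.succAbove i))) := by
        intro i
        refine LawPt.ext' ?_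
        rw [homPt_val, hs, ev1_coordS]
        show _ = evMv φ (vals (Pi.single i (a (j₀.succAbove i))))
        congr 1
        funext k
        by_cases hk : k = i
        · subst hk
          simp [vals]
        · simp only [vals, Function.update_of_ne hk, Pi.single_eq_of_ne hk, Pi.zero_apply]
          rfl
      rw [t1, Finset.sum_congr rfl (fun i _ => t2 i), ← map_sum,
        Finset.univ_sum_single (fun i => a (j₀.succAbove i))]
      have hfin : Φ (fun i => a (j₀.succAbove i)) = a j₀ := LawPt.ext' (hrel a ha).symm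
      rw [hfin, neg_add_cancel]

end Main

end FSA

open FSA in
/-- **Lemma FS.** `𝔸` a subgroup of `H₀(𝔪_C)^m`, `sup ‖a‖ < 1`; a nonzero `P`-rational power series
vanishes on `𝔸`. (Since `[p]_{H₀} = X^P`, `𝔸` is automatically stable under coordinatewise `P`-th
powers.) Then there are `P`-rational endomorphisms `Θ_i` of `H₀`, not all zero, with
`∑^{H₀} Θ_i(a_i) = 0` on `𝔸`. Full proof in BLUEPRINT §FS. Sketch: induction on `m`.
`I₀` = rational series vanishing on `𝔸` (a radical ideal). `T_N` as in `germ_to_relation`; for any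
`G ∈ 𝒪_C[[a]]` vanishing on `𝔸` the truncations of `G` lie in `T_N`.
Case 2 (no nonzero linear form in `∩_N polyTrunc 1 T_N`): for `F ∈ I₀`, `a₀ ∈ 𝔸`, the series
`G(b) = F(a₀ +_H b)` vanishes on `𝔸`, `G(0) = 0`, so its linear part vanishes: `∂_i F (a₀)·unit = 0`, so
`I₀` is stable under `∂_i`, hence under `X_i ∂_i`, hence under the projectors on exponents `≡ α mod p`
(Lagrange interpolation in the eigenvalues of `X_i ∂_i`). `F ∈ I₀` nonzero of minimal order `d ≥ 1`, `e` a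
monomial of degree `d`, `α = e mod p`: `∂^α (T_α F) = (unit)·G^p`, `G` rational, `G ∈ I₀` by radicality,
`ord G = (d-|α|)/p < d`: contradiction.
Case 1: `germ_to_relation` with `d = 1` gives `F₁ ∈ I₀` with nonzero rational linear part; change
coordinates by `GL_m(𝔽_P)` so that the linear part is `y_m`; formal implicit function: `y_m = φ(y')` on `𝔸`, `φ`
rational. Project `𝔸'`. If `I₀(𝔸') ≠ 0` induct. Otherwise every `S ∈ 𝒪_C[[y']]` vanishing on `𝔸'` is `0`
(`germ_to_relation` on its truncations). `Ξ(y',y'') = φ(y' + y'') -_H φ(y') -_H φ(y'')` vanishes on `𝔸'×𝔸'`, so `Ξ = 0`: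
`φ` is a homomorphism, `φ = ∑^H φ_j(y_j)`; `Θ = y_m -_H φ`. -/
theorem lemma_FS (p h : ℕ) [Fact p.Prime] [CharP C p] [IsAlgClosed C] (hh : 1 ≤ h) (m : ℕ)
    (𝔸 : AddSubgroup (Fin m → LawPt (H0C p h C))) (r : ℝ) (hr : r < 1)
    (h𝔸 : ∀ a ∈ 𝔸, ∀ i, ‖(a i).val‖ ≤ r)
    (F : MvPowerSeries (Fin m) (OC C)) (hF : F ≠ 0) (hFrat : ∀ e, IsRat (p ^ h) (cf F e))
    (hvan : ∀ a ∈ 𝔸, evMv F (fun i => (a i).val) = 0) :
    ∃ Θ : Fin m → PowerSeries (OC C), (∀ i, IsRatSeries (p ^ h) (Θ i)) ∧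
      (∃ hom : ∀ i, IsFGHom (H0C p h C) (H0C p h C) (Θ i),
        (∃ i, Θ i ≠ 0) ∧ ∀ a ∈ 𝔸, ∑ i, homPt (Θ i) (hom i) (a i) = 0) :=
  lemma_FS_aux p h hh r hr m 𝔸 h𝔸 F hF hFrat hvan

end

end Crest.Agent.LT
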